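import Mathlib

/-!
# P252, part B2: a small generic ODE kit

* `ode_global`   : a bounded, globally Lipschitz autonomous field on a Banach space has a global
                   solution through every point (Picard–Lindelöf on `[-T, T]` for every `T`,
                   glued by uniqueness).
* `first_exit`   : the first-exit (barrier) principle for finitely many face functions.
* `ode_smooth`   : a solution of a smooth non-autonomous ODE on an open set of times is smooth.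
-/

namespace Vale.Agent.H68.Prof

open Set Metric Filter Topology
open scoped NNReal

section Kit

variable {E : Type*} [NormedAddCommGroup E] [NormedSpace ℝ E] [CompleteSpace E]

/-- Picard–Lindelöf on `[-T, T]` for a bounded Lipschitz autonomous field. -/
theorem ode_local_Icc {f : E → E} {K L : ℝ≥0} (hK : LipschitzWith K f) (hL : ∀ x, ‖f x‖ ≤ L)
    (x0 : E) {T : ℝ} (hT : 0 < T) :
    ∃ α : ℝ → E, α 0 = x0 ∧
      ∀ t ∈ Icc (-T) T, HasDerivWithinAt α (f (α t)) (Icc (-T) T) t := by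
  have h0 : (0 : ℝ) ∈ Icc (-T) T := ⟨by linarith, hT.le⟩
  set Tn : ℝ≥0 := ⟨T, hT.le⟩ with hTn
  have hPL : IsPicardLindelof (fun _ ↦ f) (⟨0, h0⟩ : Icc (-T) T) x0 (L * Tn) 0 L K := by
    refine IsPicardLindelof.of_time_independent (fun x _ ↦ hL x) hK.lipschitzOnWith ?_
    show (L : ℝ) * max (T - 0) (0 - -T) ≤ ((L * Tn : ℝ≥0) : ℝ) - ((0 : ℝ≥0) : ℝ)
    rw [NNReal.coe_mul, NNReal.coe_zero, sub_zero, sub_zero, zero_sub, neg_neg, max_self]
    exact le_rfl
  obtain ⟨α, hα0, hα⟩ := hPL.exists_eq_forall_mem_Icc_hasDerivWithinAt₀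
  exact ⟨α, hα0, hα⟩

omit [CompleteSpace E] in
/-- Two solutions on `[-T, T]` with the same value at `0` agree. -/
theorem ode_unique_Icc {f : E → E} {K : ℝ≥0} (hK : LipschitzWith K f) {T : ℝ} (hT : 0 < T)
    {α β : ℝ → E}
    (hα : ∀ t ∈ Icc (-T) T, HasDerivWithinAt α (f (α t)) (Icc (-T) T) t)
    (hβ : ∀ t ∈ Icc (-T) T, HasDerivWithinAt β (f (β t)) (Icc (-T) T) t)
    (h0 : α 0 = β 0) : EqOn α β (Icc (-T) T) := by
  have hmem : (0 : ℝ) ∈ Ioo (-T) T := ⟨by linarith, hT⟩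
  refine ODE_solution_unique_of_mem_Icc (v := fun _ ↦ f) (s := fun _ ↦ univ) (K := K)
    (fun t _ ↦ hK.lipschitzOnWith) hmem ?_ ?_ (fun _ _ ↦ mem_univ _) ?_ ?_
    (fun _ _ ↦ mem_univ _) h0
  · exact fun t ht ↦ (hα t ht).continuousWithinAt
  · exact fun t ht ↦ (hα t (Ioo_subset_Icc_self ht)).hasDerivAt (Icc_mem_nhds ht.1 ht.2)
  · exact fun t ht ↦ (hβ t ht).continuousWithinAt
  · exact fun t ht ↦ (hβ t (Ioo_subset_Icc_self ht)).hasDerivAt (Icc_mem_nhds ht.1 ht.2)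

/-- **Global existence** for a bounded, globally Lipschitz autonomous vector field. -/
theorem ode_global {f : E → E} {K L : ℝ≥0} (hK : LipschitzWith K f) (hL : ∀ x, ‖f x‖ ≤ L)
    (x0 : E) : ∃ α : ℝ → E, α 0 = x0 ∧ ∀ t, HasDerivAt α (f (α t)) t := by
  have hex : ∀ T : ℝ, ∃ α : ℝ → E, 0 < T → (α 0 = x0 ∧
      ∀ t ∈ Icc (-T) T, HasDerivWithinAt α (f (α t)) (Icc (-T) T) t) := by
    intro T
    by_cases hT : 0 < T
    · obtain ⟨α, h⟩ := ode_local_Icc hK hL x0 hT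
      exact ⟨α, fun _ ↦ h⟩
    · exact ⟨fun _ ↦ x0, fun h ↦ absurd h hT⟩
  choose β hβ using hex
  -- monotone agreement
  have hagree : ∀ T₁ T₂ : ℝ, 0 < T₁ → T₁ ≤ T₂ → EqOn (β T₁) (β T₂) (Icc (-T₁) T₁) := by
    intro T₁ T₂ h1 h12
    have h2 : 0 < T₂ := lt_of_lt_of_le h1 h12
    have hsub : Icc (-T₁) T₁ ⊆ Icc (-T₂) T₂ := Icc_subset_Icc (by linarith) h12
    refine ode_unique_Icc hK h1 (hβ T₁ h1).2 (fun t ht ↦ ?_) ?_
    · exact ((hβ T₂ h2).2 t (hsub ht)).mono hsub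
    · rw [(hβ T₁ h1).1, (hβ T₂ h2).1]
  have hagree' : ∀ T₁ T₂ : ℝ, 0 < T₁ → 0 < T₂ → ∀ t, |t| ≤ T₁ → |t| ≤ T₂ →
      β T₁ t = β T₂ t := by
    intro T₁ T₂ h1 h2 t ht1 ht2
    rcases le_total T₁ T₂ with h | h
    · exact hagree T₁ T₂ h1 h (abs_le.mp ht1)
    · exact (hagree T₂ T₁ h2 h (abs_le.mp ht2)).symm
  refine ⟨fun t ↦ β (|t| + 1) t, ?_, fun t ↦ ?_⟩
  · simp only [abs_zero, zero_add]
    exact (hβ 1 one_pos).1
  · set T : ℝ := |t| + 1 with hTdef
    have hT : 0 < T := by positivity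
    have htmem : t ∈ Ioo (-T) T := by
      have := abs_lt.mp (show |t| < T by linarith)
      exact ⟨this.1, this.2⟩
    have hev : (fun u ↦ β (|u| + 1) u) =ᶠ[𝓝 t] β T := by
      filter_upwards [Ioo_mem_nhds htmem.1 htmem.2] with u hu
      have hu' : |u| ≤ T := (abs_lt.mpr ⟨hu.1, hu.2⟩).le
      exact hagree' (|u| + 1) T (by positivity) hT u (by linarith) hu'
    have hd : HasDerivAt (β T) (f (β T t)) t :=
      ((hβ T hT).2 t (Ioo_subset_Icc_self htmem)).hasDerivAt (Icc_mem_nhds htmem.1 htmem.2)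
    exact hd.congr_of_eventuallyEq hev

end Kit

/-- Sign of a one-sided derivative at a first zero. -/
theorem deriv_nonpos_of_first_zero {φ : ℝ → ℝ} {d t0 t : ℝ} (ht : t0 < t)
    (hpos : ∀ u ∈ Ico t0 t, 0 < φ u) (hz : φ t = 0)
    (hd : HasDerivWithinAt φ d (Icc t0 t) t) : d ≤ 0 := by
  have hne : (𝓝[Ico t0 t] t).NeBot := by
    have : t ∈ closure (Ico t0 t) := by
      rw [closure_Ico ht.ne]
      exact ⟨ht.le, le_rfl⟩
    exact mem_closure_iff_nhdsWithin_neBot.mp this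
  have hsl := (hasDerivWithinAt_iff_tendsto_slope.mp hd)
  have hset : Icc t0 t \ {t} = Ico t0 t := by
    ext u
    simp only [Set.mem_sdiff, mem_Icc, mem_singleton_iff, mem_Ico]
    constructor
    · rintro ⟨⟨h1, h2⟩, h3⟩
      exact ⟨h1, lt_of_le_of_ne h2 h3⟩
    · rintro ⟨h1, h2⟩
      exact ⟨⟨h1, h2.le⟩, h2.ne⟩
  rw [hset] at hsl
  refine le_of_tendsto hsl ?_
  filter_upwards [self_mem_nhdsWithin] with u hu
  have h1 : 0 < φ u := hpos u hu
  have h2 : u - t < 0 := by linarith [hu.2]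
  rw [slope_def_field, hz, sub_zero]
  exact (div_neg_of_pos_of_neg h1 h2).le

/-- **First-exit principle.** Finitely many face functions `φ i`, all positive at `t0`; if at
every later time at which all of them are still nonnegative each vanishing one has a positive
derivative, then all of them stay positive. -/
theorem first_exit {ι : Type*} [Finite ι] (φ d : ι → ℝ → ℝ) {t0 T : ℝ}
    (hder : ∀ i, ∀ t ∈ Icc t0 T, HasDerivWithinAt (φ i) (d i t) (Icc t0 T) t)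
    (h0 : ∀ i, 0 < φ i t0)
    (hface : ∀ i, ∀ t ∈ Ioc t0 T, (∀ j, 0 ≤ φ j t) → φ i t = 0 → 0 < d i t) :
    ∀ i, ∀ t ∈ Icc t0 T, 0 < φ i t := by
  by_contra hcon
  have hcon' : ∃ i, ∃ t ∈ Icc t0 T, φ i t ≤ 0 := by
    by_contra h
    apply hcon
    intro i t ht
    by_contra h'
    exact h ⟨i, t, ht, not_lt.mp h'⟩
  have hcont : ∀ i, ContinuousOn (φ i) (Icc t0 T) :=
    fun i t ht ↦ (hder i t ht).continuousWithinAt
  set S : Set ℝ := ⋃ i, (Icc t0 T ∩ (φ i) ⁻¹' (Iic 0)) with hS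
  have hSclosed : IsClosed S :=
    isClosed_iUnion_of_finite fun i ↦ (hcont i).preimage_isClosed_of_isClosed isClosed_Icc isClosed_Iic
  have hSne : S.Nonempty := by
    obtain ⟨i, t, ht, hle⟩ := hcon'
    exact ⟨t, mem_iUnion.mpr ⟨i, ht, hle⟩⟩
  have hSbdd : BddBelow S := ⟨t0, fun t ht ↦ by
    obtain ⟨i, hi⟩ := mem_iUnion.mp ht
    exact hi.1.1⟩
  have hSsub : S ⊆ Icc t0 T := fun t ht ↦ by
    obtain ⟨i, hi⟩ := mem_iUnion.mp ht
    exact hi.1
  set ts := sInf S with hts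
  have htsS : ts ∈ S := hSclosed.csInf_mem hSne hSbdd
  have htsI : ts ∈ Icc t0 T := hSsub htsS
  obtain ⟨i, -, hile⟩ := mem_iUnion.mp htsS
  have hile : φ i ts ≤ 0 := hile
  have hne0 : ts ≠ t0 := by
    intro h
    rw [h] at hile
    exact absurd (h0 i) (not_lt.mpr hile)
  have hlt : t0 < ts := lt_of_le_of_ne htsI.1 (Ne.symm hne0)
  have hbefore : ∀ j, ∀ u ∈ Ico t0 ts, 0 < φ j u := by
    intro j u hu
    by_contra h
    have huS : u ∈ S := mem_iUnion.mpr ⟨j, ⟨hu.1, hu.2.le.trans htsI.2⟩, not_lt.mp h⟩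
    exact absurd (csInf_le hSbdd huS) (not_le.mpr hu.2)
  have hnebot : (𝓝[Ico t0 ts] ts).NeBot := by
    have : ts ∈ closure (Ico t0 ts) := by
      rw [closure_Ico hlt.ne]
      exact ⟨hlt.le, le_rfl⟩
    exact mem_closure_iff_nhdsWithin_neBot.mp this
  have hsubI : Ico t0 ts ⊆ Icc t0 T := fun u hu ↦ ⟨hu.1, hu.2.le.trans htsI.2⟩
  have hnonneg : ∀ j, 0 ≤ φ j ts := by
    intro j
    have hc : Tendsto (φ j) (𝓝[Ico t0 ts] ts) (𝓝 (φ j ts)) :=
      ((hcont j) ts htsI).mono hsubI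
    refine ge_of_tendsto hc ?_
    filter_upwards [self_mem_nhdsWithin] with u hu
    exact (hbefore j u hu).le
  have hzero : φ i ts = 0 := le_antisymm hile (hnonneg i)
  have hpos : 0 < d i ts := hface i ts ⟨hlt, htsI.2⟩ hnonneg hzero
  have hle : d i ts ≤ 0 :=
    deriv_nonpos_of_first_zero hlt (hbefore i) hzero
      ((hder i ts htsI).mono (Icc_subset_Icc_right htsI.2))
  exact absurd hpos (not_lt.mpr hle)

section Smooth

variable {E : Type*} [NormedAddCommGroup E] [NormedSpace ℝ E] [CompleteSpace E]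

/-- A solution of a smooth (non-autonomous) ODE on an open set of times is smooth there. -/
theorem ode_smooth {f : ℝ → E → E} {α : ℝ → E} {U : Set ℝ} (hU : IsOpen U)
    (hf : ContDiffOn ℝ ((⊤ : ℕ∞) : WithTop ℕ∞) (Function.uncurry f) (U ×ˢ (univ : Set E)))
    (hα : ∀ t ∈ U, HasDerivAt α (f t (α t)) t) :
    ContDiffOn ℝ ((⊤ : ℕ∞) : WithTop ℕ∞) α U := by
  intro t ht
  obtain ⟨ε, hε, hball⟩ := Metric.isOpen_iff.mp hU t ht
  have hsub : Icc (t - ε / 2) (t + ε / 2) ⊆ U := by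
    intro u hu
    apply hball
    rw [Real.ball_eq_Ioo]
    exact ⟨by linarith [hu.1], by linarith [hu.2]⟩
  have h1 : ContDiffOn ℝ ((⊤ : ℕ∞) : WithTop ℕ∞) α (Icc (t - ε / 2) (t + ε / 2)) := by
    refine ODE.contDiffOn_enat_Icc_of_hasDerivWithinAt (u := univ) (n := (⊤ : ℕ∞))
      (hf.mono (prod_mono hsub subset_rfl)) (fun u hu ↦ (hα u (hsub hu)).hasDerivWithinAt)
      (mapsTo_univ _ _)
  exact (h1.contDiffAt (Icc_mem_nhds (by linarith) (by linarith))).contDiffWithinAt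

end Smooth

end Vale.Agent.H68.Prof
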