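import Mathlib
import Vale.Agent.H68.P252.OdeKit

/-!
# P252, part B2: the global solution of the reduced `(a, b, ρ)` system inside the invariant box

`2 s a' = gA a b`, `2 s b' = gB m a b ρ`, `2 s ρ' = gR m a b ρ` (`m ≥ 10` a real parameter).
The open box `(0, 69/20) × (0, 12/5) × (0, 4)` is forward invariant; `abr_global` produces, from
any initial point of the open box at time `s0 > 0`, a solution on `[s0, ∞)` that stays in the box.
-/

namespace Vale.Agent.H68.Prof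

open Set Filter Topology
open scoped NNReal

noncomputable section

/-- `2 s a' = a (1 + b - a)`. -/
def gA (a b : ℝ) : ℝ := a * (1 + b - a)

/-- `2 s b' = b (m + a - b (m - (m+3) ρ/(m+2)))`. -/
def gB (m a b r : ℝ) : ℝ := b * (m + a - b * (m - (m + 3) * r / (m + 2)))

/-- `2 s ρ' = (m + 2 - ρ)(a + b ρ/(m+2)) - (m - 1) ρ`. -/
def gR (m a b r : ℝ) : ℝ := (m + 2 - r) * (a + b * r / (m + 2)) - (m - 1) * r

/-- The autonomous field on `ℝ³` (time `t = log(s/s0)/2`). -/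
def gE (m : ℝ) (y : ℝ × ℝ × ℝ) : ℝ × ℝ × ℝ :=
  (gA y.1 y.2.1, gB m y.1 y.2.1 y.2.2, gR m y.1 y.2.1 y.2.2)

/-- Componentwise clamp to the box `[lo, hi]`. -/
def clampE (lo hi : ℝ × ℝ × ℝ) (y : ℝ × ℝ × ℝ) : ℝ × ℝ × ℝ :=
  (max lo.1 (min hi.1 y.1), max lo.2.1 (min hi.2.1 y.2.1), max lo.2.2 (min hi.2.2 y.2.2))

theorem clampE_lipschitz (lo hi : ℝ × ℝ × ℝ) : LipschitzWith 1 (clampE lo hi) := by
  have h1 : LipschitzWith 1 (fun y : ℝ × ℝ × ℝ => max lo.1 (min hi.1 y.1)) :=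
    (LipschitzWith.prod_fst.const_min _).const_max _
  have h2' : LipschitzWith 1 (fun y : ℝ × ℝ × ℝ => y.2.1) := by
    have h := (LipschitzWith.prod_fst (α := ℝ) (β := ℝ)).comp
      (LipschitzWith.prod_snd (α := ℝ) (β := ℝ × ℝ))
    rw [one_mul] at h
    exact h
  have h3' : LipschitzWith 1 (fun y : ℝ × ℝ × ℝ => y.2.2) := by
    have h := (LipschitzWith.prod_snd (α := ℝ) (β := ℝ)).comp
      (LipschitzWith.prod_snd (α := ℝ) (β := ℝ × ℝ))
    rw [one_mul] at h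
    exact h
  have h2 : LipschitzWith 1 (fun y : ℝ × ℝ × ℝ => max lo.2.1 (min hi.2.1 y.2.1)) :=
    (h2'.const_min _).const_max _
  have h3 : LipschitzWith 1 (fun y : ℝ × ℝ × ℝ => max lo.2.2 (min hi.2.2 y.2.2)) :=
    (h3'.const_min _).const_max _
  have h := h1.prodMk (h2.prodMk h3)
  have e : clampE lo hi = fun y : ℝ × ℝ × ℝ =>
      (max lo.1 (min hi.1 y.1), max lo.2.1 (min hi.2.1 y.2.1), max lo.2.2 (min hi.2.2 y.2.2)) := rfl
  rw [e]
  simpa using h

theorem clampE_mem {lo hi : ℝ × ℝ × ℝ} (h : lo ≤ hi) (y : ℝ × ℝ × ℝ) :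
    clampE lo hi y ∈ Icc lo hi := by
  obtain ⟨h1, h2, h3⟩ := h
  refine ⟨⟨le_max_left _ _, le_max_left _ _, le_max_left _ _⟩,
    ⟨max_le h1 (min_le_left _ _), max_le h2 (min_le_left _ _), max_le h3 (min_le_left _ _)⟩⟩

theorem clampE_of_mem {lo hi y : ℝ × ℝ × ℝ} (h : y ∈ Icc lo hi) : clampE lo hi y = y := by
  obtain ⟨⟨h1, h2, h3⟩, ⟨h4, h5, h6⟩⟩ := h
  simp only [clampE]
  rw [min_eq_right h4, min_eq_right h5, min_eq_right h6, max_eq_right h1, max_eq_right h2,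
    max_eq_right h3]

theorem gE_contDiff (m : ℝ) : ContDiff ℝ ((⊤ : ℕ∞) : WithTop ℕ∞) (gE m) := by
  unfold gE gA gB gR
  fun_prop

theorem hasDerivAt_comps {y : ℝ → ℝ × ℝ × ℝ} {y' : ℝ × ℝ × ℝ} {t : ℝ} (h : HasDerivAt y y' t) :
    HasDerivAt (fun t => (y t).1) y'.1 t ∧ HasDerivAt (fun t => (y t).2.1) y'.2.1 t ∧
      HasDerivAt (fun t => (y t).2.2) y'.2.2 t := by
  have hs : HasDerivAt (fun t => (y t).2) y'.2 t :=
    (hasFDerivAt_snd (𝕜 := ℝ) (p := y t)).comp_hasDerivAt t h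
  refine ⟨(hasFDerivAt_fst (𝕜 := ℝ) (p := y t)).comp_hasDerivAt t h, ?_, ?_⟩
  · exact (hasFDerivAt_fst (𝕜 := ℝ) (p := (y t).2)).comp_hasDerivAt t hs
  · exact (hasFDerivAt_snd (𝕜 := ℝ) (p := (y t).2)).comp_hasDerivAt t hs

/-- The face inequalities of the box (all six strict), for every real `m ≥ 10`. -/
theorem face_a_lo {ea a b : ℝ} (hea : 0 < ea) (hea1 : ea ≤ 1 / 2) (ha : a = ea) (hb : 0 ≤ b) :
    0 < gA a b := by
  subst ha
  unfold gA
  have : 0 < 1 + b - a := by linarith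
  positivity

theorem face_a_hi {a b : ℝ} (ha : a = 69 / 20) (hb : b ≤ 12 / 5) : gA a b < 0 := by
  subst ha
  unfold gA
  nlinarith

theorem face_b_lo {m eb a b r : ℝ} (hm : 10 ≤ m) (heb : 0 < eb) (heb1 : eb ≤ 1 / 2)
    (hb : b = eb) (ha : 0 ≤ a) (hr : 0 ≤ r) : 0 < gB m a b r := by
  subst hb
  unfold gB
  have hm2 : 0 < m + 2 := by linarith
  have h1 : 0 ≤ (m + 3) * r / (m + 2) := by positivity
  have h2 : b * (m - (m + 3) * r / (m + 2)) ≤ b * m := by
    apply mul_le_mul_of_nonneg_left _ heb.le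
    linarith
  have h3 : b * m ≤ m / 2 := by nlinarith
  have : 0 < m + a - b * (m - (m + 3) * r / (m + 2)) := by linarith
  positivity

theorem face_b_hi {m a b r : ℝ} (hm : 10 ≤ m) (hb : b = 12 / 5) (ha : a ≤ 69 / 20)
    (hr : r ≤ 4) : gB m a b r < 0 := by
  subst hb
  unfold gB
  have hm2 : 0 < m + 2 := by linarith
  have h1 : (m + 3) * r / (m + 2) ≤ (m + 3) * 4 / (m + 2) := by
    apply div_le_div_of_nonneg_right _ hm2.le
    nlinarith
  have h2 : m + 69 / 20 < 12 / 5 * (m - (m + 3) * 4 / (m + 2)) := by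
    have : 12 / 5 * (m - (m + 3) * 4 / (m + 2)) = 12 / 5 * ((m * (m + 2) - (m + 3) * 4) / (m + 2)) := by
      field_simp
    rw [this, ← mul_div_assoc, lt_div_iff₀ hm2]
    nlinarith
  have : m + a - 12 / 5 * (m - (m + 3) * r / (m + 2)) < 0 := by nlinarith
  nlinarith

theorem face_r_lo {m a b r : ℝ} (hm : 10 ≤ m) (hr : r = 0) (ha : 0 < a) : 0 < gR m a b r := by
  subst hr
  unfold gR
  have hm2 : 0 < m + 2 := by linarith
  simp only [mul_zero, zero_div, add_zero, sub_zero]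
  positivity

theorem face_r_hi {m a b r : ℝ} (hm : 10 ≤ m) (hr : r = 4) (ha : a ≤ 69 / 20) (hb : b ≤ 12 / 5) :
    gR m a b r < 0 := by
  subst hr
  unfold gR
  have hm2 : 0 < m + 2 := by linarith
  have h1 : b * 4 / (m + 2) ≤ 12 / 5 * 4 / (m + 2) := by
    apply div_le_div_of_nonneg_right _ hm2.le
    linarith
  have h2 : (m + 2 - 4) * (69 / 20 + 12 / 5 * 4 / (m + 2)) < (m - 1) * 4 := by
    have : (m + 2 - 4) * (69 / 20 + 12 / 5 * 4 / (m + 2))
        = ((m + 2 - 4) * (69 / 20 * (m + 2) + 12 / 5 * 4)) / (m + 2) := by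
      field_simp
    rw [this, div_lt_iff₀ hm2]
    nlinarith [sq_nonneg (m - 5)]
  have h3 : (m + 2 - 4) * (a + b * 4 / (m + 2)) ≤ (m + 2 - 4) * (69 / 20 + 12 / 5 * 4 / (m + 2)) := by
    apply mul_le_mul_of_nonneg_left _ (by linarith)
    linarith
  linarith

/-- The autonomous system `y' = gE m y` has, from every point of the open box, a solution on
`[0, ∞)` (in fact defined and differentiable on all of `ℝ`) that stays in the open box for
`t ≥ 0` and solves the system there. -/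
theorem abr_auto {m : ℝ} (hm : 10 ≤ m) {a0 b0 r0 : ℝ}
    (ha : 0 < a0 ∧ a0 < 69 / 20) (hb : 0 < b0 ∧ b0 < 12 / 5) (hr : 0 < r0 ∧ r0 < 4) :
    ∃ y : ℝ → ℝ × ℝ × ℝ, y 0 = (a0, b0, r0) ∧
      (∀ t, 0 ≤ t → 0 < (y t).1 ∧ (y t).1 < 69 / 20 ∧ 0 < (y t).2.1 ∧ (y t).2.1 < 12 / 5 ∧
        0 < (y t).2.2 ∧ (y t).2.2 < 4) ∧
      (∀ t, 0 ≤ t → HasDerivAt y (gE m (y t)) t) := by
  set ea : ℝ := min a0 1 / 2 with hea
  set eb : ℝ := min b0 1 / 2 with heb
  have hea0 : 0 < ea := by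
    have : 0 < min a0 1 := lt_min ha.1 one_pos
    positivity
  have heb0 : 0 < eb := by
    have : 0 < min b0 1 := lt_min hb.1 one_pos
    positivity
  have hea1 : ea ≤ 1 / 2 := by
    have : min a0 1 ≤ 1 := min_le_right _ _
    rw [hea]; linarith
  have heb1 : eb ≤ 1 / 2 := by
    have : min b0 1 ≤ 1 := min_le_right _ _
    rw [heb]; linarith
  have hea2 : ea < a0 := by
    have : min a0 1 ≤ a0 := min_le_left _ _
    rw [hea]; linarith [ha.1]
  have heb2 : eb < b0 := by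
    have : min b0 1 ≤ b0 := min_le_left _ _
    rw [heb]; linarith [hb.1]
  set lo : ℝ × ℝ × ℝ := (ea, eb, 0) with hlo
  set hi : ℝ × ℝ × ℝ := (69 / 20, 12 / 5, 4) with hhi
  have hlohi : lo ≤ hi := by
    refine ⟨?_, ?_, ?_⟩
    · show ea ≤ 69 / 20
      linarith
    · show eb ≤ 12 / 5
      linarith
    · show (0 : ℝ) ≤ 4
      norm_num
  -- the clamped field
  set G : ℝ × ℝ × ℝ → ℝ × ℝ × ℝ := gE m ∘ clampE lo hi with hG
  obtain ⟨K, hK⟩ := (gE_contDiff m).contDiffOn.exists_lipschitzOnWith (s := Icc lo hi)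
    (by simp) (convex_Icc lo hi) isCompact_Icc
  have hGlip : LipschitzWith (K * 1) G := by
    rw [← lipschitzOnWith_univ]
    exact hK.comp ((clampE_lipschitz lo hi).lipschitzOnWith (s := univ))
      (fun y _ ↦ clampE_mem hlohi y)
  obtain ⟨L, hL⟩ := (isCompact_Icc (a := lo) (b := hi)).exists_bound_of_continuousOn
    (gE_contDiff m).continuous.continuousOn
  have hGbdd : ∀ x, ‖G x‖ ≤ (Real.toNNReal L : ℝ≥0) := fun x ↦
    (hL _ (clampE_mem hlohi x)).trans (Real.le_coe_toNNReal L)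
  obtain ⟨y, hy0, hy⟩ := ode_global hGlip hGbdd (a0, b0, r0)
  -- invariance of the box by first exit
  have hcomp := fun t ↦ hasDerivAt_comps (hy t)
  have hbox : ∀ t, 0 ≤ t → ea < (y t).1 ∧ (y t).1 < 69 / 20 ∧ eb < (y t).2.1 ∧
      (y t).2.1 < 12 / 5 ∧ 0 < (y t).2.2 ∧ (y t).2.2 < 4 := by
    intro T hT
    set φ : Fin 6 → ℝ → ℝ := fun i t ↦
      ![(y t).1 - ea, 69 / 20 - (y t).1, (y t).2.1 - eb, 12 / 5 - (y t).2.1, (y t).2.2,
        4 - (y t).2.2] i with hφ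
    set d : Fin 6 → ℝ → ℝ := fun i t ↦
      ![(G (y t)).1, -(G (y t)).1, (G (y t)).2.1, -(G (y t)).2.1, (G (y t)).2.2,
        -(G (y t)).2.2] i with hd
    have hder : ∀ i, ∀ t ∈ Icc (0 : ℝ) T, HasDerivWithinAt (φ i) (d i t) (Icc 0 T) t := by
      intro i t _
      obtain ⟨h1, h2, h3⟩ := hcomp t
      apply HasDerivAt.hasDerivWithinAt
      fin_cases i
      · exact h1.sub_const ea
      · exact h1.const_sub (69 / 20)
      · exact h2.sub_const eb
      · exact h2.const_sub (12 / 5)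
      · exact h3
      · exact h3.const_sub 4
    have h0 : ∀ i, 0 < φ i 0 := by
      intro i
      fin_cases i
      · show 0 < (y 0).1 - ea
        rw [hy0]; exact sub_pos.mpr hea2
      · show 0 < 69 / 20 - (y 0).1
        rw [hy0]; exact sub_pos.mpr ha.2
      · show 0 < (y 0).2.1 - eb
        rw [hy0]; exact sub_pos.mpr heb2
      · show 0 < 12 / 5 - (y 0).2.1
        rw [hy0]; exact sub_pos.mpr hb.2
      · show 0 < (y 0).2.2
        rw [hy0]; exact hr.1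
      · show 0 < 4 - (y 0).2.2
        rw [hy0]; exact sub_pos.mpr hr.2
    have hface : ∀ i, ∀ t ∈ Ioc (0 : ℝ) T, (∀ j, 0 ≤ φ j t) → φ i t = 0 → 0 < d i t := by
      intro i t _ hall hz
      have e0 : ea ≤ (y t).1 := sub_nonneg.mp (hall 0)
      have e1 : (y t).1 ≤ 69 / 20 := sub_nonneg.mp (hall 1)
      have e2 : eb ≤ (y t).2.1 := sub_nonneg.mp (hall 2)
      have e3 : (y t).2.1 ≤ 12 / 5 := sub_nonneg.mp (hall 3)
      have e4 : 0 ≤ (y t).2.2 := hall 4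
      have e5 : (y t).2.2 ≤ 4 := sub_nonneg.mp (hall 5)
      have hmem : y t ∈ Icc lo hi := ⟨⟨e0, e2, e4⟩, ⟨e1, e3, e5⟩⟩
      have hGe : G (y t) = gE m (y t) := by
        rw [hG, Function.comp_apply, clampE_of_mem hmem]
      fin_cases i
      · show 0 < (G (y t)).1
        rw [hGe]
        exact face_a_lo hea0 hea1 (sub_eq_zero.mp hz) (heb0.le.trans e2)
      · show 0 < -(G (y t)).1
        rw [hGe]
        have : (y t).1 = 69 / 20 := (sub_eq_zero.mp hz).symm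
        exact neg_pos.mpr (face_a_hi this e3)
      · show 0 < (G (y t)).2.1
        rw [hGe]
        exact face_b_lo hm heb0 heb1 (sub_eq_zero.mp hz) (hea0.le.trans e0) e4
      · show 0 < -(G (y t)).2.1
        rw [hGe]
        have : (y t).2.1 = 12 / 5 := (sub_eq_zero.mp hz).symm
        exact neg_pos.mpr (face_b_hi hm this e1 e5)
      · show 0 < (G (y t)).2.2
        rw [hGe]
        exact face_r_lo hm hz (hea0.trans_le e0)
      · show 0 < -(G (y t)).2.2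
        rw [hGe]
        have : (y t).2.2 = 4 := (sub_eq_zero.mp hz).symm
        exact neg_pos.mpr (face_r_hi hm this e1 e3)
    have hres := first_exit φ d hder h0 hface
    have hTmem : T ∈ Icc (0 : ℝ) T := ⟨hT, le_rfl⟩
    exact ⟨sub_pos.mp (hres 0 T hTmem), sub_pos.mp (hres 1 T hTmem), sub_pos.mp (hres 2 T hTmem),
      sub_pos.mp (hres 3 T hTmem), hres 4 T hTmem, sub_pos.mp (hres 5 T hTmem)⟩
  refine ⟨y, hy0, fun t ht ↦ ?_, fun t ht ↦ ?_⟩
  · obtain ⟨h1, h2, h3, h4, h5, h6⟩ := hbox t ht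
    exact ⟨hea0.trans h1, h2, heb0.trans h3, h4, h5, h6⟩
  · obtain ⟨h1, h2, h3, h4, h5, h6⟩ := hbox t ht
    have hmem : y t ∈ Icc lo hi := ⟨⟨h1.le, h3.le, h5.le⟩, ⟨h2.le, h4.le, h6.le⟩⟩
    have hGe : G (y t) = gE m (y t) := by
      rw [hG, Function.comp_apply, clampE_of_mem hmem]
    rw [← hGe]
    exact hy t

/-- The time change `t = log(s/s0)/2`. -/
theorem hasDerivAt_logtime {s0 s : ℝ} (hs0 : 0 < s0) (hs : 0 < s) :
    HasDerivAt (fun s : ℝ => Real.log (s / s0) / 2) (1 / (2 * s)) s := by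
  have h1 : HasDerivAt (fun s : ℝ => s / s0) (1 / s0) s := (hasDerivAt_id s).div_const s0
  have h2 := ((Real.hasDerivAt_log (div_pos hs hs0).ne').comp s h1).div_const 2
  have h3 : HasDerivAt (fun s : ℝ => Real.log (s / s0) / 2) ((s / s0)⁻¹ * (1 / s0) / 2) s := h2
  refine h3.congr_deriv ?_
  field_simp

/-- **Global solution of the reduced system in the invariant box.** For every real `m ≥ 10`,
every `s0 > 0` and every initial point of the open box `(0, 69/20) × (0, 12/5) × (0, 4)` there are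
`a, b, ρ : ℝ → ℝ` with these values at `s0`, staying in the open box on `[s0, ∞)`, solving
`2 s a' = gA a b`, `2 s b' = gB m a b ρ`, `2 s ρ' = gR m a b ρ` at every `s ≥ s0` (two-sided
derivatives, also at `s0`), and smooth on `(s0, ∞)`. -/
theorem abr_global {m : ℝ} (hm : 10 ≤ m) {s0 a0 b0 r0 : ℝ} (hs0 : 0 < s0)
    (ha : 0 < a0 ∧ a0 < 69 / 20) (hb : 0 < b0 ∧ b0 < 12 / 5) (hr : 0 < r0 ∧ r0 < 4) :
    ∃ a b r : ℝ → ℝ, a s0 = a0 ∧ b s0 = b0 ∧ r s0 = r0 ∧
      (∀ s, s0 ≤ s → 0 < a s ∧ a s < 69 / 20 ∧ 0 < b s ∧ b s < 12 / 5 ∧ 0 < r s ∧ r s < 4) ∧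
      (∀ s, s0 ≤ s → HasDerivAt a (gA (a s) (b s) / (2 * s)) s ∧
        HasDerivAt b (gB m (a s) (b s) (r s) / (2 * s)) s ∧
        HasDerivAt r (gR m (a s) (b s) (r s) / (2 * s)) s) ∧
      ContDiffOn ℝ ((⊤ : ℕ∞) : WithTop ℕ∞) a (Ioi s0) ∧
      ContDiffOn ℝ ((⊤ : ℕ∞) : WithTop ℕ∞) b (Ioi s0) ∧
      ContDiffOn ℝ ((⊤ : ℕ∞) : WithTop ℕ∞) r (Ioi s0) := by
  obtain ⟨y, hy0, hybox, hyder⟩ := abr_auto hm ha hb hr
  set τ : ℝ → ℝ := fun s => Real.log (s / s0) / 2 with hτ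
  have hτ0 : τ s0 = 0 := by
    simp only [hτ, div_self hs0.ne', Real.log_one, zero_div]
  have hτnn : ∀ s, s0 ≤ s → 0 ≤ τ s := by
    intro s hs
    have : 1 ≤ s / s0 := (one_le_div hs0).mpr hs
    have := Real.log_nonneg this
    simp only [hτ]
    positivity
  have hτpos : ∀ s, s0 < s → 0 < τ s := by
    intro s hs
    have : 1 < s / s0 := (one_lt_div hs0).mpr hs
    have := Real.log_pos this
    simp only [hτ]
    positivity
  -- smoothness of `y` on `(0, ∞)`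
  have hysm : ContDiffOn ℝ ((⊤ : ℕ∞) : WithTop ℕ∞) y (Ioi 0) := by
    refine ode_smooth (f := fun _ ↦ gE m) isOpen_Ioi ?_ (fun t ht ↦ hyder t (le_of_lt ht))
    have : Function.uncurry (fun (_ : ℝ) ↦ gE m) = gE m ∘ Prod.snd := by
      ext p <;> rfl
    rw [this]
    exact ((gE_contDiff m).comp contDiff_snd).contDiffOn
  have hτsm : ContDiffOn ℝ ((⊤ : ℕ∞) : WithTop ℕ∞) τ (Ioi s0) := by
    have h1 : ContDiffOn ℝ ((⊤ : ℕ∞) : WithTop ℕ∞) (fun s : ℝ => s / s0) (Ioi s0) :=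
      (contDiff_id.div_const s0).contDiffOn
    have h2 : ContDiffOn ℝ ((⊤ : ℕ∞) : WithTop ℕ∞) (fun s : ℝ => Real.log (s / s0)) (Ioi s0) :=
      h1.log (fun s hs ↦ (div_pos (hs0.trans hs) hs0).ne')
    exact h2.div_const 2
  have hcompsm : ContDiffOn ℝ ((⊤ : ℕ∞) : WithTop ℕ∞) (y ∘ τ) (Ioi s0) :=
    hysm.comp hτsm (fun s hs ↦ hτpos s hs)
  refine ⟨fun s => (y (τ s)).1, fun s => (y (τ s)).2.1, fun s => (y (τ s)).2.2, ?_, ?_, ?_, ?_, ?_,
    ?_, ?_, ?_⟩
  · show (y (τ s0)).1 = a0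
    rw [hτ0, hy0]
  · show (y (τ s0)).2.1 = b0
    rw [hτ0, hy0]
  · show (y (τ s0)).2.2 = r0
    rw [hτ0, hy0]
  · intro s hs
    exact hybox (τ s) (hτnn s hs)
  · intro s hs
    have hspos : 0 < s := hs0.trans_le hs
    have h1 : HasDerivAt (y ∘ τ) ((1 / (2 * s)) • gE m (y (τ s))) s :=
      (hyder (τ s) (hτnn s hs)).scomp s (hasDerivAt_logtime hs0 hspos)
    obtain ⟨c1, c2, c3⟩ := hasDerivAt_comps h1
    refine ⟨?_, ?_, ?_⟩
    · refine c1.congr_deriv ?_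
      simp only [gE, Prod.smul_fst, smul_eq_mul]
      ring
    · refine c2.congr_deriv ?_
      simp only [gE, Prod.smul_snd, Prod.smul_fst, smul_eq_mul]
      ring
    · refine c3.congr_deriv ?_
      simp only [gE, Prod.smul_snd, smul_eq_mul]
      ring
  · exact contDiff_fst.comp_contDiffOn hcompsm
  · exact (contDiff_fst.comp contDiff_snd).comp_contDiffOn hcompsm
  · exact (contDiff_snd.comp contDiff_snd).comp_contDiffOn hcompsm

end

end Vale.Agent.H68.Prof
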