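import Mathlib
import Vale.Agent.H68.P252.OdeKit
import Vale.Agent.H68.P252.AbrGlobal

/-!
# P252, part B2: smoothness of solutions of the `(a, b, ρ)` system, gluing, and the extension of a
local solution to a global one (`abr_extend`).
-/

namespace Vale.Agent.H68.Prof

open Set Filter Topology
open scoped NNReal

noncomputable section

/-- Gluing two functions at `s0`: `f` on `(-∞, s0]`, `g` on `(s0, ∞)`. -/
def glueAt (s0 : ℝ) (f g : ℝ → ℝ) (s : ℝ) : ℝ := if s ≤ s0 then f s else g s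

theorem glueAt_of_le {s0 s : ℝ} {f g : ℝ → ℝ} (h : s ≤ s0) : glueAt s0 f g s = f s := if_pos h

theorem glueAt_of_ge {s0 s : ℝ} {f g : ℝ → ℝ} (h0 : f s0 = g s0) (h : s0 ≤ s) :
    glueAt s0 f g s = g s := by
  rcases eq_or_lt_of_le h with h1 | h1
  · subst h1
    rw [glueAt_of_le le_rfl, h0]
  · exact if_neg (not_le.mpr h1)

theorem glueAt_hasDerivAt_left {s0 s d : ℝ} {f g : ℝ → ℝ} (h : s < s0) (hf : HasDerivAt f d s) :
    HasDerivAt (glueAt s0 f g) d s := by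
  refine hf.congr_of_eventuallyEq ?_
  filter_upwards [Iio_mem_nhds h] with u hu
  exact glueAt_of_le (le_of_lt hu)

theorem glueAt_hasDerivAt_right {s0 s d : ℝ} {f g : ℝ → ℝ} (h : s0 < s) (hg : HasDerivAt g d s) :
    HasDerivAt (glueAt s0 f g) d s := by
  refine hg.congr_of_eventuallyEq ?_
  filter_upwards [Ioi_mem_nhds h] with u hu
  exact if_neg (not_le.mpr hu)

theorem glueAt_hasDerivAt_mid {s0 d : ℝ} {f g : ℝ → ℝ} (h0 : f s0 = g s0)
    (hf : HasDerivAt f d s0) (hg : HasDerivAt g d s0) : HasDerivAt (glueAt s0 f g) d s0 := by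
  have h1 : HasDerivWithinAt (glueAt s0 f g) d (Iic s0) s0 := by
    refine hf.hasDerivWithinAt.congr (fun u hu ↦ glueAt_of_le hu) (glueAt_of_le le_rfl)
  have h2 : HasDerivWithinAt (glueAt s0 f g) d (Ici s0) s0 := by
    refine hg.hasDerivWithinAt.congr (fun u hu ↦ glueAt_of_ge h0 hu) (glueAt_of_ge h0 le_rfl)
  have h3 := h1.union h2
  rw [Iic_union_Ici] at h3
  exact hasDerivWithinAt_univ.mp h3

/-- Every solution of the `(a, b, ρ)` system on `(0, ∞)` is smooth there. -/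
theorem abr_smooth {m : ℝ} {a b r : ℝ → ℝ}
    (h : ∀ s, 0 < s → HasDerivAt a (gA (a s) (b s) / (2 * s)) s ∧
      HasDerivAt b (gB m (a s) (b s) (r s) / (2 * s)) s ∧
      HasDerivAt r (gR m (a s) (b s) (r s) / (2 * s)) s) :
    ContDiffOn ℝ ((⊤ : ℕ∞) : WithTop ℕ∞) a (Ioi 0) ∧
      ContDiffOn ℝ ((⊤ : ℕ∞) : WithTop ℕ∞) b (Ioi 0) ∧
      ContDiffOn ℝ ((⊤ : ℕ∞) : WithTop ℕ∞) r (Ioi 0) := by
  set y : ℝ → ℝ × ℝ × ℝ := fun s => (a s, b s, r s) with hy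
  set F : ℝ → ℝ × ℝ × ℝ → ℝ × ℝ × ℝ := fun s p => (1 / (2 * s)) • gE m p with hF
  have hFsm : ContDiffOn ℝ ((⊤ : ℕ∞) : WithTop ℕ∞) (Function.uncurry F)
      (Ioi (0 : ℝ) ×ˢ (univ : Set (ℝ × ℝ × ℝ))) := by
    have e : Function.uncurry F = fun p : ℝ × ℝ × ℝ × ℝ => (1 / (2 * p.1)) • gE m p.2 := by
      ext p <;> rfl
    rw [e]
    have h1 : ContDiffOn ℝ ((⊤ : ℕ∞) : WithTop ℕ∞) (fun p : ℝ × ℝ × ℝ × ℝ => 1 / (2 * p.1))
        (Ioi (0 : ℝ) ×ˢ (univ : Set (ℝ × ℝ × ℝ))) := by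
      refine contDiffOn_const.div (contDiff_const.mul contDiff_fst).contDiffOn ?_
      rintro ⟨s, p⟩ ⟨hs, -⟩
      have : (0 : ℝ) < s := hs
      positivity
    have h2 : ContDiffOn ℝ ((⊤ : ℕ∞) : WithTop ℕ∞) (fun p : ℝ × ℝ × ℝ × ℝ => gE m p.2)
        (Ioi (0 : ℝ) ×ˢ (univ : Set (ℝ × ℝ × ℝ))) :=
      ((gE_contDiff m).comp contDiff_snd).contDiffOn
    exact h1.smul h2
  have hyd : ∀ s ∈ Ioi (0 : ℝ), HasDerivAt y (F s (y s)) s := by
    intro s hs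
    obtain ⟨h1, h2, h3⟩ := h s hs
    have h4 := h1.prodMk (h2.prodMk h3)
    refine h4.congr_deriv ?_
    simp only [hF, hy, gE, Prod.smul_mk, smul_eq_mul]
    refine Prod.ext ?_ (Prod.ext ?_ ?_) <;> simp only [] <;> ring
  have hysm := ode_smooth isOpen_Ioi hFsm hyd
  refine ⟨contDiff_fst.comp_contDiffOn hysm, (contDiff_fst.comp contDiff_snd).comp_contDiffOn hysm,
    (contDiff_snd.comp contDiff_snd).comp_contDiffOn hysm⟩

/-- **Extension of a local solution of the `(a, b, ρ)` system.** If `(al, bl, rl)` solves the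
system on `(0, s0]` and lies in the open box at `s0`, there is a solution `(a, b, ρ)` on all of
`(0, ∞)` that coincides with it on `(-∞, s0]`, stays in the open box on `[s0, ∞)`, and is smooth
on `(0, ∞)`. Real parameter `m ≥ 10`. -/
theorem abr_extend {m : ℝ} (hm : 10 ≤ m) {s0 : ℝ} (hs0 : 0 < s0) {al bl rl : ℝ → ℝ}
    (hl : ∀ s, 0 < s → s ≤ s0 → HasDerivAt al (gA (al s) (bl s) / (2 * s)) s ∧
      HasDerivAt bl (gB m (al s) (bl s) (rl s) / (2 * s)) s ∧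
      HasDerivAt rl (gR m (al s) (bl s) (rl s) / (2 * s)) s)
    (ha : 0 < al s0 ∧ al s0 < 69 / 20) (hb : 0 < bl s0 ∧ bl s0 < 12 / 5)
    (hr : 0 < rl s0 ∧ rl s0 < 4) :
    ∃ a b r : ℝ → ℝ,
      (∀ s, s ≤ s0 → a s = al s ∧ b s = bl s ∧ r s = rl s) ∧
      (∀ s, s0 ≤ s → 0 < a s ∧ a s < 69 / 20 ∧ 0 < b s ∧ b s < 12 / 5 ∧ 0 < r s ∧ r s < 4) ∧
      (∀ s, 0 < s → HasDerivAt a (gA (a s) (b s) / (2 * s)) s ∧
        HasDerivAt b (gB m (a s) (b s) (r s) / (2 * s)) s ∧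
        HasDerivAt r (gR m (a s) (b s) (r s) / (2 * s)) s) ∧
      ContDiffOn ℝ ((⊤ : ℕ∞) : WithTop ℕ∞) a (Ioi 0) ∧
      ContDiffOn ℝ ((⊤ : ℕ∞) : WithTop ℕ∞) b (Ioi 0) ∧
      ContDiffOn ℝ ((⊤ : ℕ∞) : WithTop ℕ∞) r (Ioi 0) := by
  obtain ⟨ag, bg, rg, ea, eb, er, hbox, hder, -, -, -⟩ := abr_global hm hs0 ha hb hr
  set a := glueAt s0 al ag with hadef
  set b := glueAt s0 bl bg with hbdef
  set r := glueAt s0 rl rg with hrdef
  have hle : ∀ s, s ≤ s0 → a s = al s ∧ b s = bl s ∧ r s = rl s := fun s hs ↦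
    ⟨glueAt_of_le hs, glueAt_of_le hs, glueAt_of_le hs⟩
  have hge : ∀ s, s0 ≤ s → a s = ag s ∧ b s = bg s ∧ r s = rg s := fun s hs ↦
    ⟨glueAt_of_ge ea.symm hs, glueAt_of_ge eb.symm hs, glueAt_of_ge er.symm hs⟩
  have hsys : ∀ s, 0 < s → HasDerivAt a (gA (a s) (b s) / (2 * s)) s ∧
      HasDerivAt b (gB m (a s) (b s) (r s) / (2 * s)) s ∧
      HasDerivAt r (gR m (a s) (b s) (r s) / (2 * s)) s := by
    intro s hs
    rcases lt_trichotomy s s0 with h | h | h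
    · obtain ⟨e1, e2, e3⟩ := hle s h.le
      obtain ⟨d1, d2, d3⟩ := hl s hs h.le
      rw [e1, e2, e3]
      exact ⟨glueAt_hasDerivAt_left h d1, glueAt_hasDerivAt_left h d2,
        glueAt_hasDerivAt_left h d3⟩
    · subst h
      obtain ⟨e1, e2, e3⟩ := hle s le_rfl
      obtain ⟨d1, d2, d3⟩ := hl s hs le_rfl
      obtain ⟨g1, g2, g3⟩ := hder s le_rfl
      rw [e1, e2, e3]
      rw [ea, eb] at g1
      rw [ea, eb, er] at g2 g3
      exact ⟨glueAt_hasDerivAt_mid ea.symm d1 g1, glueAt_hasDerivAt_mid eb.symm d2 g2,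
        glueAt_hasDerivAt_mid er.symm d3 g3⟩
    · obtain ⟨e1, e2, e3⟩ := hge s h.le
      obtain ⟨g1, g2, g3⟩ := hder s h.le
      rw [e1, e2, e3]
      exact ⟨glueAt_hasDerivAt_right h g1, glueAt_hasDerivAt_right h g2,
        glueAt_hasDerivAt_right h g3⟩
  obtain ⟨s1, s2, s3⟩ := abr_smooth hsys
  refine ⟨a, b, r, hle, fun s hs ↦ ?_, hsys, s1, s2, s3⟩
  obtain ⟨e1, e2, e3⟩ := hge s hs
  rw [e1, e2, e3]
  exact hbox s hs

end

end Vale.Agent.H68.Prof
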