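import Mathlib
import Vale.Agent.H68.P252.OdeKit
import Vale.Agent.H68.P252.AbrGlobal
import Vale.Agent.H68.P252.AbrGlue

/-!
# P252, part B2: invariant boxes with WEAK face inequalities (covers `m = 9`)

A box `(0, A) × (0, B) × (0, R)` whose three upper-face conditions hold only with `≤` is still
forward invariant for the `(a, b, ρ)` system: a trajectory that first touches an upper face must
be at the corner `(A, B, R)`, which is then a stationary point, and by uniqueness the trajectory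
would be constant. For `m = 9` the box `(0, 9/2) × (0, 7/2) × (0, 33/7)` satisfies the three
conditions with equality; for real `m ≥ 10` the box `(0, 69/20) × (0, 12/5) × (0, 4)` satisfies
them strictly.
-/

namespace Vale.Agent.H68.Prof

open Set Filter Topology
open scoped NNReal

noncomputable section

/-- Box parameters with weak upper-face inequalities. -/
structure BoxParams (m A B R : ℝ) : Prop where
  hm : 0 < m
  hA : 0 < A
  hB : 0 < B
  hR : 0 < R
  hR2 : R < m + 2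
  h1 : 1 + B ≤ A
  h2 : m + A ≤ B * (m - (m + 3) * R / (m + 2))
  h3 : (m + 2 - R) * (A + B * R / (m + 2)) ≤ (m - 1) * R

theorem boxParams_nine : BoxParams 9 (9 / 2) (7 / 2) (33 / 7) := by
  constructor <;> norm_num

theorem boxParams_ten {m : ℝ} (hm : 10 ≤ m) : BoxParams m (69 / 20) (12 / 5) 4 := by
  have hm2 : 0 < m + 2 := by linarith
  refine ⟨by linarith, by norm_num, by norm_num, by norm_num, by linarith, by norm_num, ?_, ?_⟩
  · have h := face_b_hi (m := m) (a := 69 / 20) (b := 12 / 5) (r := 4) hm rfl le_rfl le_rfl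
    unfold gB at h
    nlinarith
  · have h := face_r_hi (m := m) (a := 69 / 20) (b := 12 / 5) (r := 4) hm rfl le_rfl le_rfl
    unfold gR at h
    linarith

/-- First-exit point: if some face function becomes nonpositive on `[t0, T]`, there is a first
time `ts` at which all are still nonnegative, one vanishes, and every vanishing one has a
nonpositive derivative. -/
theorem first_exit_point {ι : Type*} [Finite ι] (φ d : ι → ℝ → ℝ) {t0 T : ℝ}
    (hder : ∀ i, ∀ t ∈ Icc t0 T, HasDerivWithinAt (φ i) (d i t) (Icc t0 T) t)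
    (h0 : ∀ i, 0 < φ i t0)
    (hex : ∃ i, ∃ t ∈ Icc t0 T, φ i t ≤ 0) :
    ∃ ts ∈ Ioc t0 T, (∀ j, 0 ≤ φ j ts) ∧ (∃ i, φ i ts = 0) ∧ (∀ i, φ i ts = 0 → d i ts ≤ 0) := by
  have hcont : ∀ i, ContinuousOn (φ i) (Icc t0 T) :=
    fun i t ht ↦ (hder i t ht).continuousWithinAt
  set S : Set ℝ := ⋃ i, (Icc t0 T ∩ (φ i) ⁻¹' (Iic 0)) with hS
  have hSclosed : IsClosed S :=
    isClosed_iUnion_of_finite fun i ↦ (hcont i).preimage_isClosed_of_isClosed isClosed_Icc isClosed_Iic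
  have hSne : S.Nonempty := by
    obtain ⟨i, t, ht, hle⟩ := hex
    exact ⟨t, mem_iUnion.mpr ⟨i, ht, hle⟩⟩
  have hSbdd : BddBelow S := ⟨t0, fun t ht ↦ by
    obtain ⟨i, hi⟩ := mem_iUnion.mp ht
    exact hi.1.1⟩
  have hSsub : S ⊆ Icc t0 T := fun t ht ↦ by
    obtain ⟨i, hi⟩ := mem_iUnion.mp ht
    exact hi.1
  set ts := sInf S with hts
  have htsS : ts ∈ S := hSclosed.csInf_mem hSne hSbdd
  have htsI : ts ∈ Icc t0 T := hSsub htsS
  obtain ⟨i, -, hile⟩ := mem_iUnion.mp htsS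
  have hile : φ i ts ≤ 0 := hile
  have hne0 : ts ≠ t0 := by
    intro h
    rw [h] at hile
    exact absurd (h0 i) (not_lt.mpr hile)
  have hlt : t0 < ts := lt_of_le_of_ne htsI.1 (Ne.symm hne0)
  have hbefore : ∀ j, ∀ u ∈ Ico t0 ts, 0 < φ j u := by
    intro j u hu
    by_contra h
    have huS : u ∈ S := mem_iUnion.mpr ⟨j, ⟨hu.1, hu.2.le.trans htsI.2⟩, not_lt.mp h⟩
    exact absurd (csInf_le hSbdd huS) (not_le.mpr hu.2)
  have hnebot : (𝓝[Ico t0 ts] ts).NeBot := by
    have : ts ∈ closure (Ico t0 ts) := by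
      rw [closure_Ico hlt.ne]
      exact ⟨hlt.le, le_rfl⟩
    exact mem_closure_iff_nhdsWithin_neBot.mp this
  have hsubI : Ico t0 ts ⊆ Icc t0 T := fun u hu ↦ ⟨hu.1, hu.2.le.trans htsI.2⟩
  have hnonneg : ∀ j, 0 ≤ φ j ts := by
    intro j
    have hc : Tendsto (φ j) (𝓝[Ico t0 ts] ts) (𝓝 (φ j ts)) :=
      ((hcont j) ts htsI).mono hsubI
    refine ge_of_tendsto hc ?_
    filter_upwards [self_mem_nhdsWithin] with u hu
    exact (hbefore j u hu).le
  refine ⟨ts, ⟨hlt, htsI.2⟩, hnonneg, ⟨i, le_antisymm hile (hnonneg i)⟩, fun j hj ↦ ?_⟩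
  exact deriv_nonpos_of_first_zero hlt (hbefore j) hj
    ((hder j ts htsI).mono (Icc_subset_Icc_right htsI.2))

/-- Touching an upper face with the outward derivative conditions forces the corner, and the
corner is then stationary. -/
theorem corner_of_touch {m A B R a b r : ℝ} (hp : BoxParams m A B R)
    (ha : a ≤ A) (hb : b ≤ B) (hr : r ≤ R)
    (f1 : a = A → 0 ≤ gA a b) (f2 : b = B → 0 ≤ gB m a b r) (f3 : r = R → 0 ≤ gR m a b r)
    (hor : a = A ∨ b = B ∨ r = R) :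
    (a = A ∧ b = B ∧ r = R) ∧ gE m (A, B, R) = 0 := by
  obtain ⟨hm, hA, hB, hR, hR2, h1, h2, h3⟩ := hp
  have hm2 : 0 < m + 2 := by linarith
  have hm3 : 0 < m + 3 := by linarith
  -- (I) a = A ⟹ b = B
  have I : a = A → b = B := by
    intro e
    have h := f1 e
    unfold gA at h
    rw [e] at h
    have : 0 ≤ 1 + b - A := nonneg_of_mul_nonneg_right h hA
    linarith
  -- (II) b = B ⟹ a = A ∧ r = R
  have II : b = B → a = A ∧ r = R := by
    intro e
    have h := f2 e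
    unfold gB at h
    rw [e] at h
    have h' : 0 ≤ m + a - B * (m - (m + 3) * r / (m + 2)) := nonneg_of_mul_nonneg_right h hB
    have key : (m + a - B * (m - (m + 3) * r / (m + 2))) - (m + A - B * (m - (m + 3) * R / (m + 2)))
        = (a - A) + B * (m + 3) / (m + 2) * (r - R) := by
      field_simp
      ring
    have hc : 0 < B * (m + 3) / (m + 2) := by positivity
    have h4 : 0 ≤ (a - A) + B * (m + 3) / (m + 2) * (r - R) := by
      rw [← key]; linarith
    have h5 : B * (m + 3) / (m + 2) * (r - R) ≤ 0 :=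
      mul_nonpos_of_nonneg_of_nonpos hc.le (by linarith)
    have h6 : a = A := by linarith
    have h7 : 0 ≤ B * (m + 3) / (m + 2) * (r - R) := by rw [h6] at h4; linarith
    have h8 : 0 ≤ r - R := nonneg_of_mul_nonneg_right h7 hc
    exact ⟨h6, by linarith⟩
  -- (III) r = R ⟹ a = A ∧ b = B
  have III : r = R → a = A ∧ b = B := by
    intro e
    have h := f3 e
    unfold gR at h
    rw [e] at h
    have key : ((m + 2 - R) * (a + b * R / (m + 2)) - (m - 1) * R)
        - ((m + 2 - R) * (A + B * R / (m + 2)) - (m - 1) * R)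
        = (m + 2 - R) * ((a - A) + R / (m + 2) * (b - B)) := by
      field_simp
      ring
    have hc : 0 < R / (m + 2) := by positivity
    have hc2 : 0 < m + 2 - R := by linarith
    have h4 : 0 ≤ (m + 2 - R) * ((a - A) + R / (m + 2) * (b - B)) := by
      rw [← key]; linarith
    have h5 : 0 ≤ (a - A) + R / (m + 2) * (b - B) := nonneg_of_mul_nonneg_right h4 hc2
    have h6 : R / (m + 2) * (b - B) ≤ 0 := mul_nonpos_of_nonneg_of_nonpos hc.le (by linarith)
    have h7 : a = A := by linarith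
    have h8 : 0 ≤ R / (m + 2) * (b - B) := by rw [h7] at h5; linarith
    have h9 : 0 ≤ b - B := nonneg_of_mul_nonneg_right h8 hc
    exact ⟨h7, by linarith⟩
  have hall : a = A ∧ b = B ∧ r = R := by
    rcases hor with e | e | e
    · have eb := I e
      exact ⟨e, eb, (II eb).2⟩
    · exact ⟨(II e).1, e, (II e).2⟩
    · exact ⟨(III e).1, (III e).2, e⟩
  refine ⟨hall, ?_⟩
  obtain ⟨e1, e2, e3⟩ := hall
  have g1 := f1 e1
  have g2 := f2 e2
  have g3 := f3 e3
  rw [e1, e2] at g1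
  rw [e1, e2, e3] at g2 g3
  have g1' : gA A B ≤ 0 := by
    unfold gA
    exact mul_nonpos_of_nonneg_of_nonpos hA.le (by linarith)
  have g2' : gB m A B R ≤ 0 := by
    unfold gB
    exact mul_nonpos_of_nonneg_of_nonpos hB.le (by linarith)
  have g3' : gR m A B R ≤ 0 := by
    unfold gR
    linarith
  show (gA A B, gB m A B R, gR m A B R) = 0
  rw [le_antisymm g1' g1, le_antisymm g2' g2, le_antisymm g3' g3]
  rfl

theorem face_b_lo' {m eb a b r : ℝ} (hm : 0 < m) (heb : 0 < eb) (heb1 : eb ≤ 1 / 2)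
    (hb : b = eb) (ha : 0 ≤ a) (hr : 0 ≤ r) : 0 < gB m a b r := by
  subst hb
  unfold gB
  have hm2 : 0 < m + 2 := by linarith
  have h1 : 0 ≤ (m + 3) * r / (m + 2) := by positivity
  have h2 : b * (m - (m + 3) * r / (m + 2)) ≤ b * m := by
    apply mul_le_mul_of_nonneg_left _ heb.le
    linarith
  have h3 : b * m ≤ m / 2 := by nlinarith
  have : 0 < m + a - b * (m - (m + 3) * r / (m + 2)) := by linarith
  positivity

theorem face_r_lo' {m a b r : ℝ} (hm : 0 < m) (hr : r = 0) (ha : 0 < a) : 0 < gR m a b r := by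
  subst hr
  unfold gR
  have hm2 : 0 < m + 2 := by linarith
  simp only [mul_zero, zero_div, add_zero, sub_zero]
  positivity

/-- The autonomous system `y' = gE m y`, weak box: from every point of the open box there is a
solution on `ℝ` that stays in the open box for `t ≥ 0` and solves the system there. -/
theorem abr_auto_weak {m A B R : ℝ} (hp : BoxParams m A B R) {a0 b0 r0 : ℝ}
    (ha : 0 < a0 ∧ a0 < A) (hb : 0 < b0 ∧ b0 < B) (hr : 0 < r0 ∧ r0 < R) :
    ∃ y : ℝ → ℝ × ℝ × ℝ, y 0 = (a0, b0, r0) ∧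
      (∀ t, 0 ≤ t → 0 < (y t).1 ∧ (y t).1 < A ∧ 0 < (y t).2.1 ∧ (y t).2.1 < B ∧
        0 < (y t).2.2 ∧ (y t).2.2 < R) ∧
      (∀ t, 0 ≤ t → HasDerivAt y (gE m (y t)) t) := by
  have hm := hp.hm
  set ea : ℝ := min a0 1 / 2 with hea
  set eb : ℝ := min b0 1 / 2 with heb
  have hea0 : 0 < ea := by
    have : 0 < min a0 1 := lt_min ha.1 one_pos
    positivity
  have heb0 : 0 < eb := by
    have : 0 < min b0 1 := lt_min hb.1 one_pos
    positivity
  have hea1 : ea ≤ 1 / 2 := by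
    have : min a0 1 ≤ 1 := min_le_right _ _
    rw [hea]; linarith
  have heb1 : eb ≤ 1 / 2 := by
    have : min b0 1 ≤ 1 := min_le_right _ _
    rw [heb]; linarith
  have hea2 : ea < a0 := by
    have : min a0 1 ≤ a0 := min_le_left _ _
    rw [hea]; linarith [ha.1]
  have heb2 : eb < b0 := by
    have : min b0 1 ≤ b0 := min_le_left _ _
    rw [heb]; linarith [hb.1]
  set lo : ℝ × ℝ × ℝ := (ea, eb, 0) with hlo
  set hi : ℝ × ℝ × ℝ := (A, B, R) with hhi
  have hlohi : lo ≤ hi := by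
    refine ⟨?_, ?_, ?_⟩
    · show ea ≤ A
      linarith [ha.2]
    · show eb ≤ B
      linarith [hb.2]
    · show (0 : ℝ) ≤ R
      exact hp.hR.le
  set G : ℝ × ℝ × ℝ → ℝ × ℝ × ℝ := gE m ∘ clampE lo hi with hG
  obtain ⟨K, hK⟩ := (gE_contDiff m).contDiffOn.exists_lipschitzOnWith (s := Icc lo hi)
    (by simp) (convex_Icc lo hi) isCompact_Icc
  have hGlip : LipschitzWith (K * 1) G := by
    rw [← lipschitzOnWith_univ]
    exact hK.comp ((clampE_lipschitz lo hi).lipschitzOnWith (s := univ))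
      (fun y _ ↦ clampE_mem hlohi y)
  obtain ⟨L, hL⟩ := (isCompact_Icc (a := lo) (b := hi)).exists_bound_of_continuousOn
    (gE_contDiff m).continuous.continuousOn
  have hGbdd : ∀ x, ‖G x‖ ≤ (Real.toNNReal L : ℝ≥0) := fun x ↦
    (hL _ (clampE_mem hlohi x)).trans (Real.le_coe_toNNReal L)
  obtain ⟨y, hy0, hy⟩ := ode_global hGlip hGbdd (a0, b0, r0)
  have hcomp := fun t ↦ hasDerivAt_comps (hy t)
  have hbox : ∀ t, 0 ≤ t → ea < (y t).1 ∧ (y t).1 < A ∧ eb < (y t).2.1 ∧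
      (y t).2.1 < B ∧ 0 < (y t).2.2 ∧ (y t).2.2 < R := by
    intro T hT
    set φ : Fin 6 → ℝ → ℝ := fun i t ↦
      ![(y t).1 - ea, A - (y t).1, (y t).2.1 - eb, B - (y t).2.1, (y t).2.2,
        R - (y t).2.2] i with hφ
    set d : Fin 6 → ℝ → ℝ := fun i t ↦
      ![(G (y t)).1, -(G (y t)).1, (G (y t)).2.1, -(G (y t)).2.1, (G (y t)).2.2,
        -(G (y t)).2.2] i with hd
    have hder : ∀ i, ∀ t ∈ Icc (0 : ℝ) T, HasDerivWithinAt (φ i) (d i t) (Icc 0 T) t := by
      intro i t _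
      obtain ⟨h1, h2, h3⟩ := hcomp t
      apply HasDerivAt.hasDerivWithinAt
      fin_cases i
      · exact h1.sub_const ea
      · exact h1.const_sub A
      · exact h2.sub_const eb
      · exact h2.const_sub B
      · exact h3
      · exact h3.const_sub R
    have h0 : ∀ i, 0 < φ i 0 := by
      intro i
      fin_cases i
      · show 0 < (y 0).1 - ea
        rw [hy0]; exact sub_pos.mpr hea2
      · show 0 < A - (y 0).1
        rw [hy0]; exact sub_pos.mpr ha.2
      · show 0 < (y 0).2.1 - eb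
        rw [hy0]; exact sub_pos.mpr heb2
      · show 0 < B - (y 0).2.1
        rw [hy0]; exact sub_pos.mpr hb.2
      · show 0 < (y 0).2.2
        rw [hy0]; exact hr.1
      · show 0 < R - (y 0).2.2
        rw [hy0]; exact sub_pos.mpr hr.2
    have hres : ∀ i, ∀ t ∈ Icc (0 : ℝ) T, 0 < φ i t := by
      by_contra hcon
      have hex : ∃ i, ∃ t ∈ Icc (0 : ℝ) T, φ i t ≤ 0 := by
        by_contra h
        apply hcon
        intro i t ht
        by_contra h'
        exact h ⟨i, t, ht, not_lt.mp h'⟩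
      obtain ⟨ts, -, hall, hz, hdz⟩ := first_exit_point φ d hder h0 hex
      have e0 : ea ≤ (y ts).1 := sub_nonneg.mp (hall 0)
      have e1 : (y ts).1 ≤ A := sub_nonneg.mp (hall 1)
      have e2 : eb ≤ (y ts).2.1 := sub_nonneg.mp (hall 2)
      have e3 : (y ts).2.1 ≤ B := sub_nonneg.mp (hall 3)
      have e4 : 0 ≤ (y ts).2.2 := hall 4
      have e5 : (y ts).2.2 ≤ R := sub_nonneg.mp (hall 5)
      have hmem : y ts ∈ Icc lo hi := ⟨⟨e0, e2, e4⟩, ⟨e1, e3, e5⟩⟩
      have hGe : G (y ts) = gE m (y ts) := by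
        rw [hG, Function.comp_apply, clampE_of_mem hmem]
      -- the lower faces cannot vanish
      have l0 : (y ts).1 ≠ ea := by
        intro e
        have h1 : d 0 ts ≤ 0 := hdz 0 (sub_eq_zero.mpr e)
        have h2 : 0 < (G (y ts)).1 := by
          rw [hGe]
          exact face_a_lo hea0 hea1 e (heb0.le.trans e2)
        exact absurd h2 (not_lt.mpr h1)
      have l2 : (y ts).2.1 ≠ eb := by
        intro e
        have h1 : d 2 ts ≤ 0 := hdz 2 (sub_eq_zero.mpr e)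
        have h2 : 0 < (G (y ts)).2.1 := by
          rw [hGe]
          exact face_b_lo' hm heb0 heb1 e (hea0.le.trans e0) e4
        exact absurd h2 (not_lt.mpr h1)
      have l4 : (y ts).2.2 ≠ 0 := by
        intro e
        have h1 : d 4 ts ≤ 0 := hdz 4 e
        have h2 : 0 < (G (y ts)).2.2 := by
          rw [hGe]
          exact face_r_lo' hm e (hea0.trans_le e0)
        exact absurd h2 (not_lt.mpr h1)
      have hor : (y ts).1 = A ∨ (y ts).2.1 = B ∨ (y ts).2.2 = R := by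
        obtain ⟨i, hi⟩ := hz
        fin_cases i
        · exact absurd (sub_eq_zero.mp hi) l0
        · exact Or.inl (sub_eq_zero.mp hi).symm
        · exact absurd (sub_eq_zero.mp hi) l2
        · exact Or.inr (Or.inl (sub_eq_zero.mp hi).symm)
        · exact absurd hi l4
        · exact Or.inr (Or.inr (sub_eq_zero.mp hi).symm)
      have f1 : (y ts).1 = A → 0 ≤ gA (y ts).1 (y ts).2.1 := by
        intro e
        have h1 : d 1 ts ≤ 0 := hdz 1 (sub_eq_zero.mpr e.symm)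
        have h2 : -(G (y ts)).1 ≤ 0 := h1
        rw [hGe] at h2
        exact neg_nonpos.mp h2
      have f2 : (y ts).2.1 = B → 0 ≤ gB m (y ts).1 (y ts).2.1 (y ts).2.2 := by
        intro e
        have h1 : d 3 ts ≤ 0 := hdz 3 (sub_eq_zero.mpr e.symm)
        have h2 : -(G (y ts)).2.1 ≤ 0 := h1
        rw [hGe] at h2
        exact neg_nonpos.mp h2
      have f3 : (y ts).2.2 = R → 0 ≤ gR m (y ts).1 (y ts).2.1 (y ts).2.2 := by
        intro e
        have h1 : d 5 ts ≤ 0 := hdz 5 (sub_eq_zero.mpr e.symm)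
        have h2 : -(G (y ts)).2.2 ≤ 0 := h1
        rw [hGe] at h2
        exact neg_nonpos.mp h2
      obtain ⟨⟨c1, c2, c3⟩, hstat⟩ := corner_of_touch hp e1 e3 e5 f1 f2 f3 hor
      have hyts : y ts = hi := Prod.ext c1 (Prod.ext c2 c3)
      have hGhi : G hi = 0 := by
        rw [hG, Function.comp_apply, clampE_of_mem ⟨hlohi, le_rfl⟩]
        exact hstat
      -- uniqueness against the stationary solution
      have huniq : y = fun _ ↦ hi := by
        refine ODE_solution_unique_univ (v := fun _ ↦ G) (s := fun _ ↦ univ) (K := K * 1)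
          (t₀ := ts) (fun _ ↦ hGlip.lipschitzOnWith) (fun t ↦ ⟨hy t, mem_univ _⟩)
          (fun t ↦ ⟨?_, mem_univ _⟩) hyts
        rw [hGhi]
        exact hasDerivAt_const t hi
      have : (y 0).1 = A := by rw [huniq]
      rw [hy0] at this
      exact absurd this (ne_of_lt ha.2)
    have hTmem : T ∈ Icc (0 : ℝ) T := ⟨hT, le_rfl⟩
    exact ⟨sub_pos.mp (hres 0 T hTmem), sub_pos.mp (hres 1 T hTmem), sub_pos.mp (hres 2 T hTmem),
      sub_pos.mp (hres 3 T hTmem), hres 4 T hTmem, sub_pos.mp (hres 5 T hTmem)⟩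
  refine ⟨y, hy0, fun t ht ↦ ?_, fun t ht ↦ ?_⟩
  · obtain ⟨h1, h2, h3, h4, h5, h6⟩ := hbox t ht
    exact ⟨hea0.trans h1, h2, heb0.trans h3, h4, h5, h6⟩
  · obtain ⟨h1, h2, h3, h4, h5, h6⟩ := hbox t ht
    have hmem : y t ∈ Icc lo hi := ⟨⟨h1.le, h3.le, h5.le⟩, ⟨h2.le, h4.le, h6.le⟩⟩
    have hGe : G (y t) = gE m (y t) := by
      rw [hG, Function.comp_apply, clampE_of_mem hmem]
    rw [← hGe]
    exact hy t

/-- Global solution of the reduced system in a box with weak face inequalities. -/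
theorem abr_global_weak {m A B R : ℝ} (hp : BoxParams m A B R) {s0 a0 b0 r0 : ℝ} (hs0 : 0 < s0)
    (ha : 0 < a0 ∧ a0 < A) (hb : 0 < b0 ∧ b0 < B) (hr : 0 < r0 ∧ r0 < R) :
    ∃ a b r : ℝ → ℝ, a s0 = a0 ∧ b s0 = b0 ∧ r s0 = r0 ∧
      (∀ s, s0 ≤ s → 0 < a s ∧ a s < A ∧ 0 < b s ∧ b s < B ∧ 0 < r s ∧ r s < R) ∧
      (∀ s, s0 ≤ s → HasDerivAt a (gA (a s) (b s) / (2 * s)) s ∧
        HasDerivAt b (gB m (a s) (b s) (r s) / (2 * s)) s ∧
        HasDerivAt r (gR m (a s) (b s) (r s) / (2 * s)) s) := by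
  obtain ⟨y, hy0, hybox, hyder⟩ := abr_auto_weak hp ha hb hr
  set τ : ℝ → ℝ := fun s => Real.log (s / s0) / 2 with hτ
  have hτ0 : τ s0 = 0 := by
    simp only [hτ, div_self hs0.ne', Real.log_one, zero_div]
  have hτnn : ∀ s, s0 ≤ s → 0 ≤ τ s := by
    intro s hs
    have : 1 ≤ s / s0 := (one_le_div hs0).mpr hs
    have := Real.log_nonneg this
    simp only [hτ]
    positivity
  refine ⟨fun s => (y (τ s)).1, fun s => (y (τ s)).2.1, fun s => (y (τ s)).2.2, ?_, ?_, ?_, ?_, ?_⟩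
  · show (y (τ s0)).1 = a0
    rw [hτ0, hy0]
  · show (y (τ s0)).2.1 = b0
    rw [hτ0, hy0]
  · show (y (τ s0)).2.2 = r0
    rw [hτ0, hy0]
  · intro s hs
    exact hybox (τ s) (hτnn s hs)
  · intro s hs
    have hspos : 0 < s := hs0.trans_le hs
    have h1 : HasDerivAt (y ∘ τ) ((1 / (2 * s)) • gE m (y (τ s))) s :=
      (hyder (τ s) (hτnn s hs)).scomp s (hasDerivAt_logtime hs0 hspos)
    obtain ⟨c1, c2, c3⟩ := hasDerivAt_comps h1
    refine ⟨?_, ?_, ?_⟩
    · refine c1.congr_deriv ?_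
      simp only [gE, Prod.smul_fst, smul_eq_mul]
      ring
    · refine c2.congr_deriv ?_
      simp only [gE, Prod.smul_snd, Prod.smul_fst, smul_eq_mul]
      ring
    · refine c3.congr_deriv ?_
      simp only [gE, Prod.smul_snd, smul_eq_mul]
      ring

/-- **Extension of a local solution, weak box.** Same as `abr_extend`, for any box parameters
satisfying `BoxParams m A B R` (weak upper-face inequalities). -/
theorem abr_extend_weak {m A B R : ℝ} (hp : BoxParams m A B R) {s0 : ℝ} (hs0 : 0 < s0)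
    {al bl rl : ℝ → ℝ}
    (hl : ∀ s, 0 < s → s ≤ s0 → HasDerivAt al (gA (al s) (bl s) / (2 * s)) s ∧
      HasDerivAt bl (gB m (al s) (bl s) (rl s) / (2 * s)) s ∧
      HasDerivAt rl (gR m (al s) (bl s) (rl s) / (2 * s)) s)
    (ha : 0 < al s0 ∧ al s0 < A) (hb : 0 < bl s0 ∧ bl s0 < B)
    (hr : 0 < rl s0 ∧ rl s0 < R) :
    ∃ a b r : ℝ → ℝ,
      (∀ s, s ≤ s0 → a s = al s ∧ b s = bl s ∧ r s = rl s) ∧
      (∀ s, s0 ≤ s → 0 < a s ∧ a s < A ∧ 0 < b s ∧ b s < B ∧ 0 < r s ∧ r s < R) ∧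
      (∀ s, 0 < s → HasDerivAt a (gA (a s) (b s) / (2 * s)) s ∧
        HasDerivAt b (gB m (a s) (b s) (r s) / (2 * s)) s ∧
        HasDerivAt r (gR m (a s) (b s) (r s) / (2 * s)) s) ∧
      ContDiffOn ℝ ((⊤ : ℕ∞) : WithTop ℕ∞) a (Ioi 0) ∧
      ContDiffOn ℝ ((⊤ : ℕ∞) : WithTop ℕ∞) b (Ioi 0) ∧
      ContDiffOn ℝ ((⊤ : ℕ∞) : WithTop ℕ∞) r (Ioi 0) := by
  obtain ⟨ag, bg, rg, ea, eb, er, hbox, hder⟩ := abr_global_weak hp hs0 ha hb hr
  set a := glueAt s0 al ag with hadef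
  set b := glueAt s0 bl bg with hbdef
  set r := glueAt s0 rl rg with hrdef
  have hle : ∀ s, s ≤ s0 → a s = al s ∧ b s = bl s ∧ r s = rl s := fun s hs ↦
    ⟨glueAt_of_le hs, glueAt_of_le hs, glueAt_of_le hs⟩
  have hge : ∀ s, s0 ≤ s → a s = ag s ∧ b s = bg s ∧ r s = rg s := fun s hs ↦
    ⟨glueAt_of_ge ea.symm hs, glueAt_of_ge eb.symm hs, glueAt_of_ge er.symm hs⟩
  have hsys : ∀ s, 0 < s → HasDerivAt a (gA (a s) (b s) / (2 * s)) s ∧
      HasDerivAt b (gB m (a s) (b s) (r s) / (2 * s)) s ∧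
      HasDerivAt r (gR m (a s) (b s) (r s) / (2 * s)) s := by
    intro s hs
    rcases lt_trichotomy s s0 with h | h | h
    · obtain ⟨e1, e2, e3⟩ := hle s h.le
      obtain ⟨d1, d2, d3⟩ := hl s hs h.le
      rw [e1, e2, e3]
      exact ⟨glueAt_hasDerivAt_left h d1, glueAt_hasDerivAt_left h d2,
        glueAt_hasDerivAt_left h d3⟩
    · subst h
      obtain ⟨e1, e2, e3⟩ := hle s le_rfl
      obtain ⟨d1, d2, d3⟩ := hl s hs le_rfl
      obtain ⟨g1, g2, g3⟩ := hder s le_rfl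
      rw [e1, e2, e3]
      rw [ea, eb] at g1
      rw [ea, eb, er] at g2 g3
      exact ⟨glueAt_hasDerivAt_mid ea.symm d1 g1, glueAt_hasDerivAt_mid eb.symm d2 g2,
        glueAt_hasDerivAt_mid er.symm d3 g3⟩
    · obtain ⟨e1, e2, e3⟩ := hge s h.le
      obtain ⟨g1, g2, g3⟩ := hder s h.le
      rw [e1, e2, e3]
      exact ⟨glueAt_hasDerivAt_right h g1, glueAt_hasDerivAt_right h g2,
        glueAt_hasDerivAt_right h g3⟩
  obtain ⟨s1, s2, s3⟩ := abr_smooth hsys
  refine ⟨a, b, r, hle, fun s hs ↦ ?_, hsys, s1, s2, s3⟩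
  obtain ⟨e1, e2, e3⟩ := hge s hs
  rw [e1, e2, e3]
  exact hbox s hs

/-- The case `m = 9` (dimension `n = 10`): box `(0, 9/2) × (0, 7/2) × (0, 33/7)`. -/
theorem abr_extend9 {s0 : ℝ} (hs0 : 0 < s0) {al bl rl : ℝ → ℝ}
    (hl : ∀ s, 0 < s → s ≤ s0 → HasDerivAt al (gA (al s) (bl s) / (2 * s)) s ∧
      HasDerivAt bl (gB 9 (al s) (bl s) (rl s) / (2 * s)) s ∧
      HasDerivAt rl (gR 9 (al s) (bl s) (rl s) / (2 * s)) s)
    (ha : 0 < al s0 ∧ al s0 < 9 / 2) (hb : 0 < bl s0 ∧ bl s0 < 7 / 2)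
    (hr : 0 < rl s0 ∧ rl s0 < 33 / 7) :
    ∃ a b r : ℝ → ℝ,
      (∀ s, s ≤ s0 → a s = al s ∧ b s = bl s ∧ r s = rl s) ∧
      (∀ s, s0 ≤ s → 0 < a s ∧ a s < 9 / 2 ∧ 0 < b s ∧ b s < 7 / 2 ∧ 0 < r s ∧ r s < 33 / 7) ∧
      (∀ s, 0 < s → HasDerivAt a (gA (a s) (b s) / (2 * s)) s ∧
        HasDerivAt b (gB 9 (a s) (b s) (r s) / (2 * s)) s ∧
        HasDerivAt r (gR 9 (a s) (b s) (r s) / (2 * s)) s) ∧
      ContDiffOn ℝ ((⊤ : ℕ∞) : WithTop ℕ∞) a (Ioi 0) ∧
      ContDiffOn ℝ ((⊤ : ℕ∞) : WithTop ℕ∞) b (Ioi 0) ∧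
      ContDiffOn ℝ ((⊤ : ℕ∞) : WithTop ℕ∞) r (Ioi 0) :=
  abr_extend_weak boxParams_nine hs0 hl ha hb hr

end

end Vale.Agent.H68.Prof
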