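import Mathlib
import Vale.Agent.H68.AMDefs

/-! Shared definitions for part A of the P252 dimension-11 counterexample. -/

namespace Vale.Agent.H68.Prof

/-- The `(n+1) × (n+1)` matrix `[[α I + β v vᵀ, b v], [b vᵀ, c]]`
(the last index plays the role of the `y` coordinate). -/
def bmat {n : ℕ} (v : Fin n → ℝ) (α β b c : ℝ) : Matrix (Fin (n + 1)) (Fin (n + 1)) ℝ :=
  Matrix.of fun i j =>
    Fin.lastCases (motive := fun _ => ℝ)
      (Fin.lastCases (motive := fun _ => ℝ) c (fun j' => b * v j') j)
      (fun i' => Fin.lastCases (motive := fun _ => ℝ) (b * v i')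
        (fun j' => (if i' = j' then α else 0) + β * v i' * v j') j) i

variable {n : ℕ} (v : Fin n → ℝ) (α β b c : ℝ)

@[simp] lemma bmat_last_last : bmat v α β b c (Fin.last n) (Fin.last n) = c := by
  simp [bmat]

@[simp] lemma bmat_last_castSucc (j : Fin n) :
    bmat v α β b c (Fin.last n) j.castSucc = b * v j := by
  simp [bmat]

@[simp] lemma bmat_castSucc_last (i : Fin n) :
    bmat v α β b c i.castSucc (Fin.last n) = b * v i := by
  simp [bmat]

@[simp] lemma bmat_castSucc_castSucc (i j : Fin n) :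
    bmat v α β b c i.castSucc j.castSucc = (if i = j then α else 0) + β * v i * v j := by
  simp [bmat]

/-- `s(x) = |x'|² / 2` for `x = (x', y) ∈ ℝ^10 × ℝ`. -/
noncomputable def sq2 (x : Fin 11 → ℝ) : ℝ := (∑ i : Fin 10, x (Fin.castSucc i) ^ 2) / 2

/-- The last coordinate `y` of `x = (x', y)`. -/
def yc (x : Fin 11 → ℝ) : ℝ := x (Fin.last 10)

/-- The first ten coordinates `x'` of `x = (x', y)`. -/
def xp (x : Fin 11 → ℝ) : Fin 10 → ℝ := fun i => x (Fin.castSucc i)

end Vale.Agent.H68.Prof
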