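import Mathlib
import Vale.Agent.H68.P252.BMatDefs

/-! ROW A-DET: determinant of the structured matrix `bmat`. -/

namespace Vale.Agent.H68.Prof

/-- Rank-one update of a scalar matrix: `det (α I + γ v vᵀ) = α^n (α + γ q)` in size `n+1`. -/
lemma adet_rank_one {n : ℕ} (v : Fin (n + 1) → ℝ) (α γ : ℝ) (hα : α ≠ 0) :
    (Matrix.of fun i j : Fin (n + 1) => (if i = j then α else 0) + γ * v i * v j).det
      = α ^ n * (α + γ * ∑ i, v i ^ 2) := by
  have h : (Matrix.of fun i j : Fin (n + 1) => (if i = j then α else 0) + γ * v i * v j)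
      = α • (1 + (Matrix.of fun (i : Fin (n + 1)) (_ : Fin 1) => (γ / α) * v i) *
          (Matrix.of fun (_ : Fin 1) (j : Fin (n + 1)) => v j)) := by
    ext i j
    simp only [Matrix.of_apply, Matrix.smul_apply, Matrix.add_apply, Matrix.one_apply,
      Matrix.mul_apply, Finset.univ_unique, Finset.sum_singleton, smul_eq_mul]
    split_ifs with hij
    · field_simp
    · field_simp
      ring
  rw [h, Matrix.det_smul, Matrix.det_one_add_mul_comm, Matrix.det_fin_one]
  simp only [Fintype.card_fin, Matrix.add_apply, Matrix.one_apply_eq, Matrix.mul_apply,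
    Matrix.of_apply]
  have h2 : ∑ i, v i * (γ / α * v i) = (γ / α) * ∑ i, v i ^ 2 := by
    rw [Finset.mul_sum]
    apply Finset.sum_congr rfl
    intro i _
    ring
  rw [h2, pow_succ]
  field_simp

/-- `det [[α I + β v vᵀ, b v], [b vᵀ, c]] = α^n ((α + β q) c - b² q)` for `v ∈ ℝ^(n+1)`,
`q = ∑ v_i²`. -/
theorem bmat_det {n : ℕ} (v : Fin (n + 1) → ℝ) (α β b c : ℝ) (hα : α ≠ 0) (hc : c ≠ 0) :
    (bmat v α β b c).det =
      α ^ n * ((α + β * ∑ i, v i ^ 2) * c - b ^ 2 * ∑ i, v i ^ 2) := by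
  classical
  have e1 : ∀ i : Fin (n + 1),
      (finSumFinEquiv : Fin (n + 1) ⊕ Fin 1 ≃ Fin (n + 1 + 1)) (Sum.inl i) = i.castSucc :=
    fun i => rfl
  have e2 : ∀ k : Fin 1,
      (finSumFinEquiv : Fin (n + 1) ⊕ Fin 1 ≃ Fin (n + 1 + 1)) (Sum.inr k)
        = Fin.last (n + 1) := by
    intro k
    apply Fin.ext
    simp
  have hsub : (bmat v α β b c).submatrix
      (finSumFinEquiv : Fin (n + 1) ⊕ Fin 1 ≃ Fin (n + 1 + 1))
      (finSumFinEquiv : Fin (n + 1) ⊕ Fin 1 ≃ Fin (n + 1 + 1)) = Matrix.fromBlocks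
      (Matrix.of fun i j : Fin (n + 1) => (if i = j then α else 0) + β * v i * v j)
      (Matrix.of fun (i : Fin (n + 1)) (_ : Fin 1) => b * v i)
      (Matrix.of fun (_ : Fin 1) (j : Fin (n + 1)) => b * v j)
      (Matrix.of fun (_ _ : Fin 1) => c) := by
    ext i j
    rcases i with i | i <;> rcases j with j | j
    · simp only [Matrix.submatrix_apply, e1, bmat_castSucc_castSucc, Matrix.fromBlocks_apply₁₁,
        Matrix.of_apply]
    · simp only [Matrix.submatrix_apply, e1, e2, bmat_castSucc_last, Matrix.fromBlocks_apply₁₂,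
        Matrix.of_apply]
    · simp only [Matrix.submatrix_apply, e1, e2, bmat_last_castSucc, Matrix.fromBlocks_apply₂₁,
        Matrix.of_apply]
    · simp only [Matrix.submatrix_apply, e2, bmat_last_last, Matrix.fromBlocks_apply₂₂,
        Matrix.of_apply]
  rw [← Matrix.det_submatrix_equiv_self
    (finSumFinEquiv : Fin (n + 1) ⊕ Fin 1 ≃ Fin (n + 1 + 1)) (bmat v α β b c), hsub]
  have hD : (Matrix.of fun (_ _ : Fin 1) => c)⁻¹ = Matrix.of fun (_ _ : Fin 1) => c⁻¹ := by
    apply Matrix.inv_eq_right_inv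
    ext i j
    simp [Matrix.mul_apply, Matrix.one_apply, hc, Subsingleton.elim i j]
  have hu : IsUnit (Matrix.of fun (_ _ : Fin 1) => c).det := by
    rw [Matrix.det_unique]
    simpa using hc
  let inst : Invertible (Matrix.of fun (_ _ : Fin 1) => c) := Matrix.invertibleOfIsUnitDet _ hu
  rw [Matrix.det_fromBlocks₂₂, Matrix.invOf_eq_nonsing_inv, hD]
  have hS : (Matrix.of fun i j : Fin (n + 1) => (if i = j then α else 0) + β * v i * v j)
      - (Matrix.of fun (i : Fin (n + 1)) (_ : Fin 1) => b * v i)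
        * (Matrix.of fun (_ _ : Fin 1) => c⁻¹)
        * (Matrix.of fun (_ : Fin 1) (j : Fin (n + 1)) => b * v j)
      = Matrix.of fun i j : Fin (n + 1) =>
          (if i = j then α else 0) + (β - b ^ 2 / c) * v i * v j := by
    ext i j
    simp only [Matrix.sub_apply, Matrix.mul_apply, Matrix.of_apply, Finset.univ_unique,
      Finset.sum_singleton]
    field_simp
    ring
  rw [hS, adet_rank_one v α (β - b ^ 2 / c) hα, Matrix.det_unique]
  simp only [Matrix.of_apply]
  field_simp
  ring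

end Vale.Agent.H68.Prof
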