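import Mathlib
import Vale.Agent.H68.P252.BMatDefs

/-! ROW A-INV: inverse and entrywise pairing of the structured matrices `bmat`. -/

namespace Vale.Agent.H68.Prof

theorem ainv_sum1 {n : ℕ} (v : Fin n → ℝ) (x y : ℝ) :
    ∑ k, (x * v k) * (y * v k) = x * y * ∑ k, v k ^ 2 := by
  rw [Finset.mul_sum]
  exact Finset.sum_congr rfl (fun k _ => by ring)

theorem ainv_sum2 {n : ℕ} (v : Fin n → ℝ) (x a y : ℝ) (j : Fin n) :
    ∑ k, (x * v k) * ((if k = j then a else 0) + y * v k * v j) =
      x * a * v j + x * y * (∑ k, v k ^ 2) * v j := by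
  have h : ∀ k, (x * v k) * ((if k = j then a else 0) + y * v k * v j) =
      (if k = j then x * a * v k else 0) + x * y * v j * v k ^ 2 := by
    intro k
    split_ifs <;> ring
  rw [Finset.sum_congr rfl (fun k _ => h k), Finset.sum_add_distrib, Finset.sum_ite_eq',
    ← Finset.mul_sum, if_pos (Finset.mem_univ j)]
  ring

theorem ainv_sum3 {n : ℕ} (v : Fin n → ℝ) (a β y : ℝ) (i : Fin n) :
    ∑ k, ((if i = k then a else 0) + β * v i * v k) * (y * v k) =
      a * y * v i + β * y * (∑ k, v k ^ 2) * v i := by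
  have h : ∀ k, ((if i = k then a else 0) + β * v i * v k) * (y * v k) =
      (if i = k then a * y * v k else 0) + β * y * v i * v k ^ 2 := by
    intro k
    split_ifs <;> ring
  rw [Finset.sum_congr rfl (fun k _ => h k), Finset.sum_add_distrib, Finset.sum_ite_eq,
    ← Finset.mul_sum, if_pos (Finset.mem_univ i)]
  ring

theorem ainv_sum4 {n : ℕ} (v : Fin n → ℝ) (a β a' β' : ℝ) (i j : Fin n) :
    ∑ k, ((if i = k then a else 0) + β * v i * v k) * ((if k = j then a' else 0) + β' * v k * v j) =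
      (if i = j then a * a' else 0) + a * β' * v i * v j + β * a' * v i * v j
        + β * β' * (∑ k, v k ^ 2) * v i * v j := by
  have h : ∀ k, ((if i = k then a else 0) + β * v i * v k) *
      ((if k = j then a' else 0) + β' * v k * v j) =
      (if i = k then (if k = j then a * a' else 0) + a * β' * v k * v j else 0)
        + (if k = j then β * a' * v i * v k else 0) + β * β' * v i * v j * v k ^ 2 := by
    intro k
    split_ifs <;> ring
  rw [Finset.sum_congr rfl (fun k _ => h k), Finset.sum_add_distrib, Finset.sum_add_distrib,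
    Finset.sum_ite_eq, Finset.sum_ite_eq', ← Finset.mul_sum, if_pos (Finset.mem_univ i),
    if_pos (Finset.mem_univ j)]
  ring

theorem ainv_sum5 {n : ℕ} (v : Fin n → ℝ) (a β a' β' : ℝ) (i : Fin n) :
    ∑ j, ((if i = j then a else 0) + β * v i * v j) * ((if i = j then a' else 0) + β' * v i * v j) =
      a * a' + (a * β' + β * a') * v i ^ 2 + β * β' * v i ^ 2 * ∑ j, v j ^ 2 := by
  have h : ∀ j, ((if i = j then a else 0) + β * v i * v j) *
      ((if i = j then a' else 0) + β' * v i * v j) =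
      (if i = j then a * a' + (a * β' + β * a') * v i * v j else 0)
        + β * β' * v i ^ 2 * v j ^ 2 := by
    intro j
    split_ifs <;> ring
  rw [Finset.sum_congr rfl (fun j _ => h j), Finset.sum_add_distrib, Finset.sum_ite_eq,
    ← Finset.mul_sum, if_pos (Finset.mem_univ i)]
  ring

/-- Explicit right inverse of `bmat v α β b c`, with `q = ∑ v_i²` and
`Δ = (α + β q) c - b² q`. -/
theorem bmat_mul_inv {n : ℕ} (v : Fin n → ℝ) (α β b c : ℝ) (hα : α ≠ 0)
    (hΔ : (α + β * ∑ i, v i ^ 2) * c - b ^ 2 * ∑ i, v i ^ 2 ≠ 0) :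
    bmat v α β b c *
        bmat v (1 / α)
          ((b ^ 2 - β * c) / (α * ((α + β * ∑ i, v i ^ 2) * c - b ^ 2 * ∑ i, v i ^ 2)))
          (-b / ((α + β * ∑ i, v i ^ 2) * c - b ^ 2 * ∑ i, v i ^ 2))
          ((α + β * ∑ i, v i ^ 2) / ((α + β * ∑ i, v i ^ 2) * c - b ^ 2 * ∑ i, v i ^ 2)) = 1 := by
  obtain ⟨q, hq⟩ : ∃ q : ℝ, q = ∑ i, v i ^ 2 := ⟨_, rfl⟩
  rw [← hq] at hΔ ⊢
  obtain ⟨D, hD⟩ : ∃ D : ℝ, D = (α + β * q) * c - b ^ 2 * q := ⟨_, rfl⟩
  rw [← hD] at hΔ ⊢
  ext i j
  rw [Matrix.mul_apply, Fin.sum_univ_castSucc]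
  refine Fin.lastCases ?_ (fun i' => ?_) i
  · refine Fin.lastCases ?_ (fun j' => ?_) j
    · rw [Matrix.one_apply, if_pos rfl]
      simp only [bmat_last_last, bmat_last_castSucc, bmat_castSucc_last]
      rw [ainv_sum1, ← hq]
      field_simp
      rw [hD]
      ring
    · rw [Matrix.one_apply, if_neg (Fin.castSucc_lt_last j').ne']
      simp only [bmat_last_last, bmat_last_castSucc, bmat_castSucc_castSucc]
      rw [ainv_sum2, ← hq]
      field_simp
      rw [hD]
      ring
  · refine Fin.lastCases ?_ (fun j' => ?_) j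
    · rw [Matrix.one_apply, if_neg (Fin.castSucc_lt_last i').ne]
      simp only [bmat_last_last, bmat_castSucc_last, bmat_castSucc_castSucc]
      rw [ainv_sum3, ← hq]
      field_simp
      rw [hD]
      ring
    · rw [Matrix.one_apply]
      simp only [bmat_castSucc_last, bmat_last_castSucc, bmat_castSucc_castSucc]
      rw [ainv_sum4, ← hq]
      by_cases hij : i' = j'
      · rw [if_pos hij, if_pos (congrArg Fin.castSucc hij)]
        field_simp
        rw [hD]
        ring
      · rw [if_neg hij, if_neg (fun h => hij (Fin.castSucc_injective n h))]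
        field_simp
        rw [hD]
        ring

/-- The Mathlib inverse of `bmat v α β b c`. -/
theorem bmat_inv {n : ℕ} (v : Fin n → ℝ) (α β b c : ℝ) (hα : α ≠ 0)
    (hΔ : (α + β * ∑ i, v i ^ 2) * c - b ^ 2 * ∑ i, v i ^ 2 ≠ 0) :
    (bmat v α β b c)⁻¹ =
        bmat v (1 / α)
          ((b ^ 2 - β * c) / (α * ((α + β * ∑ i, v i ^ 2) * c - b ^ 2 * ∑ i, v i ^ 2)))
          (-b / ((α + β * ∑ i, v i ^ 2) * c - b ^ 2 * ∑ i, v i ^ 2))
          ((α + β * ∑ i, v i ^ 2) / ((α + β * ∑ i, v i ^ 2) * c - b ^ 2 * ∑ i, v i ^ 2)) :=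
  Matrix.inv_eq_right_inv (bmat_mul_inv v α β b c hα hΔ)

/-- Entrywise pairing `∑_{i,j} M_ij M'_ij` of two structured matrices with the same `v`. -/
theorem bmat_sum_mul {n : ℕ} (v : Fin n → ℝ) (α β b c α' β' b' c' : ℝ) :
    ∑ i, ∑ j, bmat v α β b c i j * bmat v α' β' b' c' i j =
      (n : ℝ) * (α * α') + (α * β' + β * α') * (∑ i, v i ^ 2)
        + β * β' * (∑ i, v i ^ 2) ^ 2 + 2 * b * b' * (∑ i, v i ^ 2) + c * c' := by
  obtain ⟨q, hq⟩ : ∃ q : ℝ, q = ∑ i, v i ^ 2 := ⟨_, rfl⟩
  rw [← hq, Fin.sum_univ_castSucc]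
  have hrow : ∀ i : Fin n, ∑ j, bmat v α β b c i.castSucc j * bmat v α' β' b' c' i.castSucc j =
      α * α' + ((α * β' + β * α') + β * β' * q + b * b') * v i ^ 2 := by
    intro i
    rw [Fin.sum_univ_castSucc]
    simp only [bmat_castSucc_last, bmat_castSucc_castSucc]
    rw [ainv_sum5, ← hq]
    ring
  have hlast : ∑ j, bmat v α β b c (Fin.last n) j * bmat v α' β' b' c' (Fin.last n) j =
      b * b' * q + c * c' := by
    rw [Fin.sum_univ_castSucc]
    simp only [bmat_last_last, bmat_last_castSucc]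
    rw [ainv_sum1, ← hq]
  have hsum : ∑ i : Fin n, (α * α' + ((α * β' + β * α') + β * β' * q + b * b') * v i ^ 2) =
      (n : ℝ) * (α * α') + ((α * β' + β * α') + β * β' * q + b * b') * q := by
    rw [Finset.sum_add_distrib, Finset.sum_const, Finset.card_univ, Fintype.card_fin,
      nsmul_eq_mul, ← Finset.mul_sum, ← hq]
  rw [Finset.sum_congr rfl (fun i _ => hrow i), hlast, hsum]
  ring

end Vale.Agent.H68.Prof
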