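import Mathlib
import Vale.Agent.H68.P252.BMatDefs

/-! ROW A-PD: positive definiteness of the structured matrix `bmat`. -/

namespace Vale.Agent.H68.Prof

/-- Row A-PD helper: the quadratic form of `bmat` in closed form. -/
lemma apd_quadForm {n : ℕ} (v : Fin n → ℝ) (α β b c : ℝ) (x : Fin (n + 1) → ℝ) :
    star x ⬝ᵥ (bmat v α β b c).mulVec x =
      α * ∑ i : Fin n, x i.castSucc ^ 2 + β * (∑ i : Fin n, v i * x i.castSucc) ^ 2
        + 2 * b * x (Fin.last n) * (∑ i : Fin n, v i * x i.castSucc)
        + c * x (Fin.last n) ^ 2 := by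
  classical
  have h1 : ∀ i : Fin n,
      ∑ j : Fin n, ((if i = j then α else 0) + β * v i * v j) * x j.castSucc =
        α * x i.castSucc + β * v i * ∑ j : Fin n, v j * x j.castSucc := by
    intro i
    simp only [add_mul, Finset.sum_add_distrib, ite_mul, zero_mul, Finset.sum_ite_eq,
      Finset.mem_univ, if_true]
    rw [Finset.mul_sum]
    congr 1
    apply Finset.sum_congr rfl
    intro j _
    ring
  have h2 : ∑ j : Fin n, b * v j * x j.castSucc = b * ∑ j : Fin n, v j * x j.castSucc := by
    rw [Finset.mul_sum]
    apply Finset.sum_congr rfl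
    intro j _
    ring
  simp only [dotProduct, Matrix.mulVec, star_trivial, Fin.sum_univ_castSucc,
    bmat_castSucc_castSucc, bmat_castSucc_last, bmat_last_castSucc, bmat_last_last, h1, h2]
  have e1 : ∀ P : ℝ, ∑ i : Fin n, x i.castSucc *
      (α * x i.castSucc + β * v i * P + b * v i * x (Fin.last n)) =
      α * ∑ i : Fin n, x i.castSucc ^ 2
        + β * P * (∑ i : Fin n, v i * x i.castSucc)
        + b * x (Fin.last n) * ∑ i : Fin n, v i * x i.castSucc := by
    intro P
    simp only [Finset.mul_sum, ← Finset.sum_add_distrib]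
    apply Finset.sum_congr rfl
    intro i _
    ring
  rw [e1]
  ring

/-- `[[α I + β v vᵀ, b v], [b vᵀ, c]]` is positive definite as soon as `α > 0`,
`α + β q > 0` and `(α + β q) c - b² q > 0`, where `q = ∑ v_i²`. -/
theorem bmat_posDef {n : ℕ} (v : Fin n → ℝ) (α β b c : ℝ) (hα : 0 < α)
    (h1 : 0 < α + β * ∑ i, v i ^ 2)
    (hΔ : 0 < (α + β * ∑ i, v i ^ 2) * c - b ^ 2 * ∑ i, v i ^ 2) :
    (bmat v α β b c).PosDef := by
  classical
  refine Matrix.PosDef.of_dotProduct_mulVec_pos ?_ ?_
  · -- symmetry
    ext i j
    simp only [Matrix.conjTranspose_apply, star_trivial]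
    induction i using Fin.lastCases with
    | last =>
      induction j using Fin.lastCases with
      | last => rfl
      | cast j => simp
    | cast i =>
      induction j using Fin.lastCases with
      | last => simp
      | cast j =>
        simp only [bmat_castSucc_castSucc]
        by_cases h : i = j
        · subst h
          ring
        · have h' : ¬ j = i := fun e => h e.symm
          simp only [h, h', if_false]
          ring
  · intro x hx
    rw [apd_quadForm]
    have hCS : (∑ i : Fin n, v i * x i.castSucc) ^ 2 ≤
        (∑ i : Fin n, v i ^ 2) * ∑ i : Fin n, x i.castSucc ^ 2 :=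
      Finset.sum_mul_sq_le_sq_mul_sq Finset.univ v fun i => x i.castSucc
    have hq0 : 0 ≤ ∑ i : Fin n, v i ^ 2 := Finset.sum_nonneg fun i _ => sq_nonneg _
    have hN0 : 0 ≤ ∑ i : Fin n, x i.castSucc ^ 2 := Finset.sum_nonneg fun i _ => sq_nonneg _
    have hne : 0 < ∑ i : Fin n, x i.castSucc ^ 2 ∨ x (Fin.last n) ≠ 0 := by
      by_contra hcon
      push Not at hcon
      obtain ⟨hN, hη⟩ := hcon
      have hN' : ∑ i : Fin n, x i.castSucc ^ 2 = 0 := le_antisymm hN hN0
      have hz : ∀ i ∈ (Finset.univ : Finset (Fin n)), x i.castSucc ^ 2 = 0 :=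
        (Finset.sum_eq_zero_iff_of_nonneg fun i _ => sq_nonneg _).mp hN'
      apply hx
      funext i
      induction i using Fin.lastCases with
      | last => simpa using hη
      | cast i =>
        have := hz i (Finset.mem_univ i)
        simpa using this
    generalize (∑ i : Fin n, v i * x i.castSucc) = p at hCS ⊢
    generalize (∑ i : Fin n, x i.castSucc ^ 2) = N at hCS hN0 hne ⊢
    generalize (∑ i : Fin n, v i ^ 2) = q at h1 hΔ hCS hq0
    generalize x (Fin.last n) = η at hne ⊢
    rcases hq0.eq_or_lt with hq | hq
    · -- q = 0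
      subst hq
      have hp : p = 0 := by
        have : p ^ 2 ≤ 0 := by simpa using hCS
        exact pow_eq_zero_iff (two_ne_zero) |>.mp (le_antisymm this (sq_nonneg p))
      subst hp
      have hc : 0 < c := by
        have : 0 < α * c := by simpa using hΔ
        exact (mul_pos_iff_of_pos_left hα).mp this
      rcases hne with hN | hη
      · have : 0 < α * N := mul_pos hα hN
        have : 0 ≤ c * η ^ 2 := mul_nonneg hc.le (sq_nonneg η)
        nlinarith
      · have : 0 < c * η ^ 2 := mul_pos hc (by positivity)
        have : 0 ≤ α * N := mul_nonneg hα.le hN0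
        nlinarith
    · -- q > 0
      set A := α + β * q with hA
      have hAq : 0 < A * q := mul_pos h1 hq
      have hid : A * q * (α * N + β * p ^ 2 + 2 * b * η * p + c * η ^ 2) =
          α * A * (q * N - p ^ 2) + (A * p + b * q * η) ^ 2 + (A * c - b ^ 2 * q) * q * η ^ 2 := by
        rw [hA]
        ring
      have t1 : 0 ≤ α * A * (q * N - p ^ 2) :=
        mul_nonneg (mul_nonneg hα.le h1.le) (by linarith)
      have t2 : 0 ≤ (A * p + b * q * η) ^ 2 := sq_nonneg _
      have t3 : 0 ≤ (A * c - b ^ 2 * q) * q * η ^ 2 :=
        mul_nonneg (mul_nonneg hΔ.le hq.le) (sq_nonneg _)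
      have hpos : 0 < α * A * (q * N - p ^ 2) + (A * p + b * q * η) ^ 2
          + (A * c - b ^ 2 * q) * q * η ^ 2 := by
        by_cases hη : η = 0
        · subst hη
          have hN : 0 < N := by
            rcases hne with hN | hη
            · exact hN
            · exact absurd rfl hη
          by_cases hp : p = 0
          · subst hp
            have : 0 < α * A * (q * N - 0 ^ 2) := by
              have : 0 < q * N := mul_pos hq hN
              have h2 : 0 < α * A := mul_pos hα h1
              simpa using mul_pos h2 this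
            linarith
          · have : 0 < (A * p + b * q * 0) ^ 2 := by
              have : A * p ≠ 0 := mul_ne_zero h1.ne' hp
              simpa using sq_pos_of_ne_zero this
            linarith
        · have : 0 < (A * c - b ^ 2 * q) * q * η ^ 2 :=
            mul_pos (mul_pos hΔ hq) (by positivity)
          linarith
      rw [← hid] at hpos
      exact (mul_pos_iff_of_pos_left hAq).mp hpos

end Vale.Agent.H68.Prof
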