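import Mathlib
import Vale.Agent.H68.AMDefs

/-!
# P252: a counterexample to the affine Bernstein problem in dimension 11 — shared definitions

The hypersurface is the graph of `u (x', y) = Ψ (|x'|² / 2) ^ 2 / y` over the half-space `y > 0` of
`ℝ^11 = ℝ^10 × ℝ`, where `(Ψ, V)` is a *profile*: a smooth positive solution, on an open interval
containing `[0, ∞)`, of the two ordinary differential equations `Eq1`, `Eq2` below (the radial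
reduction of the affine maximal equation; `s = |x'|²/2`, `m = 10`).
-/

namespace Vale.Agent.H68.Prof

/-- First profile equation at `s`:  `Ψ'^9 (Ψ' + 2 s Ψ'') V^13 = Ψ`. -/
def Eq1 (Ψ V : ℝ → ℝ) (s : ℝ) : Prop :=
  (deriv Ψ s) ^ 9 * (deriv Ψ s + 2 * s * deriv (deriv Ψ) s) * (V s) ^ 13 = Ψ s

/-- Second profile equation at `s`:
`2 s Ψ'^8 V^11 (9 Ψ'' V V' + 11 Ψ' V'^2 + Ψ' V V'') + 10 Ψ'^9 V^12 V' + 1 = 0`. -/
def Eq2 (Ψ V : ℝ → ℝ) (s : ℝ) : Prop :=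
  2 * s * (deriv Ψ s) ^ 8 * (V s) ^ 11 *
      (9 * deriv (deriv Ψ) s * V s * deriv V s + 11 * deriv Ψ s * (deriv V s) ^ 2
        + deriv Ψ s * V s * deriv (deriv V) s)
    + 10 * (deriv Ψ s) ^ 9 * (V s) ^ 12 * deriv V s + 1 = 0

/-- `(Ψ, V)` is a profile on the (open) set `I`: both smooth on `I`, `Ψ`, `V`, `Ψ'` positive on
`I`, and both profile equations hold at every point of `I`. -/
structure IsProfile (Ψ V : ℝ → ℝ) (I : Set ℝ) : Prop where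
  smoothΨ : ContDiffOn ℝ ((⊤ : ℕ∞) : WithTop ℕ∞) Ψ I
  smoothV : ContDiffOn ℝ ((⊤ : ℕ∞) : WithTop ℕ∞) V I
  posΨ : ∀ s ∈ I, 0 < Ψ s
  posV : ∀ s ∈ I, 0 < V s
  posD : ∀ s ∈ I, 0 < deriv Ψ s
  eq1 : ∀ s ∈ I, Eq1 Ψ V s
  eq2 : ∀ s ∈ I, Eq2 Ψ V s

/-- The statement of the final hand-in (dimension 11). -/
def Counterexample11 : Prop :=
  ∃ (Ω : Set (Fin 11 → ℝ)) (u : (Fin 11 → ℝ) → ℝ),
    IsOpen Ω ∧ Convex ℝ Ω ∧ Ω.Nonempty ∧ Ω ≠ Set.univ ∧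
    ContDiffOn ℝ ((⊤ : ℕ∞) : WithTop ℕ∞) u Ω ∧
    (∀ x ∈ Ω, (hess u x).PosDef) ∧
    (∀ x ∈ Ω, amOp u x = 0) ∧
    IsClosed {p : (Fin 11 → ℝ) × ℝ | p.1 ∈ Ω ∧ p.2 = u p.1}

end Vale.Agent.H68.Prof
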