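import Mathlib
import Vale.Agent.H68.AMDefs
import Vale.Agent.H68.P252.BMatDefs

/-! ROW A-HESS: the Hessian (in the sense of `Vale.Agent.H68.hess`, iterated `lineDeriv` along the
coordinate vectors) of `x ↦ f (|x'|²/2) * g (y)` on the half-space `y > 0` of `ℝ^10 × ℝ`. -/

namespace Vale.Agent.H68.Prof

open Vale.Agent.H68

/-- `pd` from a derivative along the coordinate line. -/
lemma ahess_pd_of_hasDerivAt {n : ℕ} (i : Fin n) (F : (Fin n → ℝ) → ℝ) (x : Fin n → ℝ) (d : ℝ)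
    (h : HasDerivAt (fun t : ℝ => F (x + t • Pi.single i 1)) d 0) : pd i F x = d := by
  unfold pd lineDeriv
  exact h.deriv

/-- `pd` only depends on the germ of the function. -/
lemma ahess_pd_congr {n : ℕ} (i : Fin n) {g g' : (Fin n → ℝ) → ℝ} {x : Fin n → ℝ}
    (h : g =ᶠ[nhds x] g') : pd i g x = pd i g' x := by
  unfold pd
  exact h.lineDeriv_eq

lemma ahess_coord_cs (x : Fin 11 → ℝ) (i j : Fin 10) (t : ℝ) :
    (x + t • (Pi.single (Fin.castSucc i) (1 : ℝ) : Fin 11 → ℝ)) (Fin.castSucc j) =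
      x (Fin.castSucc j) + t * (if i = j then 1 else 0) := by
  rw [Pi.add_apply, Pi.smul_apply, Pi.single_apply, smul_eq_mul]
  by_cases h : i = j
  · subst h
    rw [if_pos rfl, if_pos rfl]
  · have h' : Fin.castSucc j ≠ Fin.castSucc i := fun e => h (Fin.castSucc_inj.mp e).symm
    rw [if_neg h', if_neg h]

lemma ahess_coord_last (x : Fin 11 → ℝ) (j : Fin 10) (t : ℝ) :
    (x + t • (Pi.single (Fin.last 10) (1 : ℝ) : Fin 11 → ℝ)) (Fin.castSucc j) =
      x (Fin.castSucc j) := by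
  have h' : Fin.castSucc j ≠ Fin.last 10 := Fin.castSucc_ne_last j
  rw [Pi.add_apply, Pi.smul_apply, Pi.single_apply, if_neg h', smul_zero, add_zero]

lemma ahess_sq2_cs (x : Fin 11 → ℝ) (i : Fin 10) (t : ℝ) :
    sq2 (x + t • (Pi.single (Fin.castSucc i) (1 : ℝ) : Fin 11 → ℝ)) =
      sq2 x + t * x (Fin.castSucc i) + t ^ 2 / 2 := by
  unfold sq2
  simp only [ahess_coord_cs]
  have key : ∀ j : Fin 10, (x (Fin.castSucc j) + t * (if i = j then (1 : ℝ) else 0)) ^ 2 =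
      x (Fin.castSucc j) ^ 2 + (if i = j then 2 * t * x (Fin.castSucc i) + t ^ 2 else 0) := by
    intro j
    split_ifs with h
    · subst h
      ring
    · ring
  simp only [key, Finset.sum_add_distrib, Finset.sum_ite_eq, Finset.mem_univ, if_true]
  ring

lemma ahess_sq2_last (x : Fin 11 → ℝ) (t : ℝ) :
    sq2 (x + t • (Pi.single (Fin.last 10) (1 : ℝ) : Fin 11 → ℝ)) = sq2 x := by
  unfold sq2
  simp only [ahess_coord_last]

lemma ahess_yc_cs (x : Fin 11 → ℝ) (i : Fin 10) (t : ℝ) :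
    yc (x + t • (Pi.single (Fin.castSucc i) (1 : ℝ) : Fin 11 → ℝ)) = yc x := by
  unfold yc
  have h' : Fin.last 10 ≠ Fin.castSucc i := (Fin.castSucc_ne_last i).symm
  rw [Pi.add_apply, Pi.smul_apply, Pi.single_apply, if_neg h', smul_zero, add_zero]

lemma ahess_yc_last (x : Fin 11 → ℝ) (t : ℝ) :
    yc (x + t • (Pi.single (Fin.last 10) (1 : ℝ) : Fin 11 → ℝ)) = yc x + t := by
  unfold yc
  rw [Pi.add_apply, Pi.smul_apply, Pi.single_apply, if_pos rfl, smul_eq_mul, mul_one]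

lemma ahess_sq2_nonneg (x : Fin 11 → ℝ) : 0 ≤ sq2 x := by
  unfold sq2
  exact div_nonneg (Finset.sum_nonneg fun i _ => sq_nonneg _) (by norm_num)

/-- the inner function along a coordinate line of the first ten directions -/
lemma ahess_inner (s a : ℝ) :
    HasDerivAt (fun t : ℝ => s + t * a + t ^ 2 / 2) a 0 := by
  have h : HasDerivAt (fun t : ℝ => s + t * a + t ^ 2 / 2)
      (1 * a + ((2 : ℕ) : ℝ) * (0 : ℝ) ^ (2 - 1) / 2) 0 :=
    (((hasDerivAt_id' (0 : ℝ)).mul_const a).const_add s).add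
      ((hasDerivAt_pow 2 (0 : ℝ)).div_const 2)
  exact h.congr_deriv (by simp)

lemma ahess_comp {φ : ℝ → ℝ} {φ' : ℝ} (s a : ℝ) (hφ : HasDerivAt φ φ' s) :
    HasDerivAt (fun t : ℝ => φ (s + t * a + t ^ 2 / 2)) (φ' * a) 0 := by
  have h2 : HasDerivAt φ φ' (s + 0 * a + 0 ^ 2 / 2) := by simpa using hφ
  exact HasDerivAt.comp (0 : ℝ) h2 (ahess_inner s a)

lemma ahess_shift {ψ : ℝ → ℝ} {ψ' : ℝ} (y c : ℝ) (hψ : HasDerivAt ψ ψ' y) :
    HasDerivAt (fun t : ℝ => c * ψ (y + t)) (c * ψ') 0 := by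
  have h1 : HasDerivAt (fun t : ℝ => y + t) 1 0 := (hasDerivAt_id' (0 : ℝ)).const_add y
  have h2 : HasDerivAt ψ ψ' (y + 0) := by simpa using hψ
  have h3 : HasDerivAt (fun t : ℝ => c * ψ (y + t)) (c * (ψ' * 1)) 0 :=
    (HasDerivAt.comp (0 : ℝ) h2 h1).const_mul c
  exact h3.congr_deriv (by simp)

lemma ahess_pd_cs {φ ψ : ℝ → ℝ} {x : Fin 11 → ℝ} {φ' : ℝ} (i : Fin 10)
    (hφ : HasDerivAt φ φ' (sq2 x)) :
    pd (Fin.castSucc i) (fun z => φ (sq2 z) * ψ (yc z)) x =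
      φ' * x (Fin.castSucc i) * ψ (yc x) := by
  apply ahess_pd_of_hasDerivAt
  simp only [ahess_sq2_cs x i, ahess_yc_cs x i]
  exact (ahess_comp (sq2 x) (x (Fin.castSucc i)) hφ).mul_const (ψ (yc x))

lemma ahess_pd_cs_mul {φ ψ : ℝ → ℝ} {x : Fin 11 → ℝ} {φ' : ℝ} (i j : Fin 10)
    (hφ : HasDerivAt φ φ' (sq2 x)) :
    pd (Fin.castSucc i) (fun z => φ (sq2 z) * z (Fin.castSucc j) * ψ (yc z)) x =
      (φ' * x (Fin.castSucc i) * x (Fin.castSucc j) +
        φ (sq2 x) * (if i = j then 1 else 0)) * ψ (yc x) := by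
  apply ahess_pd_of_hasDerivAt
  simp only [ahess_sq2_cs x i, ahess_yc_cs x i, ahess_coord_cs x i j]
  have h1 := ahess_comp (sq2 x) (x (Fin.castSucc i)) hφ
  have h2 : HasDerivAt (fun t : ℝ => x (Fin.castSucc j) + t * (if i = j then (1 : ℝ) else 0))
      (if i = j then (1 : ℝ) else 0) 0 := by
    have h : HasDerivAt (fun t : ℝ => x (Fin.castSucc j) + t * (if i = j then (1 : ℝ) else 0))
        (1 * (if i = j then (1 : ℝ) else 0)) 0 :=
      ((hasDerivAt_id' (0 : ℝ)).mul_const (if i = j then (1 : ℝ) else 0)).const_add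
        (x (Fin.castSucc j))
    exact h.congr_deriv (by simp)
  have h3 : HasDerivAt
      (fun t : ℝ => φ (sq2 x + t * x (Fin.castSucc i) + t ^ 2 / 2) *
        (x (Fin.castSucc j) + t * (if i = j then (1 : ℝ) else 0)) * ψ (yc x))
      ((φ' * x (Fin.castSucc i) * (x (Fin.castSucc j) + 0 * (if i = j then (1 : ℝ) else 0)) +
        φ (sq2 x + 0 * x (Fin.castSucc i) + 0 ^ 2 / 2) * (if i = j then (1 : ℝ) else 0)) *
          ψ (yc x)) 0 :=
    (h1.mul h2).mul_const (ψ (yc x))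
  exact h3.congr_deriv (by simp)

lemma ahess_pd_last {φ ψ : ℝ → ℝ} {x : Fin 11 → ℝ} {ψ' : ℝ}
    (hψ : HasDerivAt ψ ψ' (yc x)) :
    pd (Fin.last 10) (fun z => φ (sq2 z) * ψ (yc z)) x = φ (sq2 x) * ψ' := by
  apply ahess_pd_of_hasDerivAt
  simp only [ahess_sq2_last x, ahess_yc_last x]
  exact ahess_shift (yc x) (φ (sq2 x)) hψ

lemma ahess_pd_last_mul {φ ψ : ℝ → ℝ} {x : Fin 11 → ℝ} {ψ' : ℝ} (j : Fin 10)
    (hψ : HasDerivAt ψ ψ' (yc x)) :
    pd (Fin.last 10) (fun z => φ (sq2 z) * z (Fin.castSucc j) * ψ (yc z)) x =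
      φ (sq2 x) * x (Fin.castSucc j) * ψ' := by
  apply ahess_pd_of_hasDerivAt
  simp only [ahess_sq2_last x, ahess_yc_last x, ahess_coord_last x j]
  exact ahess_shift (yc x) (φ (sq2 x) * x (Fin.castSucc j)) hψ

lemma ahess_hasDerivAt {k : ℝ} {f : ℝ → ℝ} (hf : ContDiffOn ℝ 1 f (Set.Ioi k)) {s : ℝ}
    (hs : k < s) : HasDerivAt f (deriv f s) s :=
  ((hf.differentiableOn one_ne_zero).differentiableAt (Ioi_mem_nhds hs)).hasDerivAt

/-- First derivatives in the `x'` directions. -/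
theorem pd_fg_castSucc {ε : ℝ} (hε : 0 < ε) {f g : ℝ → ℝ}
    (hf : ContDiffOn ℝ 1 f (Set.Ioi (-ε))) (hg : ContDiffOn ℝ 1 g (Set.Ioi 0))
    {x : Fin 11 → ℝ} (hx : 0 < yc x) (j : Fin 10) :
    pd (Fin.castSucc j) (fun z => f (sq2 z) * g (yc z)) x =
      deriv f (sq2 x) * x (Fin.castSucc j) * g (yc x) := by
  have _hg := hg
  have _hx := hx
  have hs : -ε < sq2 x := lt_of_lt_of_le (by linarith) (ahess_sq2_nonneg x)
  exact ahess_pd_cs j (ahess_hasDerivAt hf hs)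

/-- First derivative in the `y` direction. -/
theorem pd_fg_last {ε : ℝ} (hε : 0 < ε) {f g : ℝ → ℝ}
    (hf : ContDiffOn ℝ 1 f (Set.Ioi (-ε))) (hg : ContDiffOn ℝ 1 g (Set.Ioi 0))
    {x : Fin 11 → ℝ} (hx : 0 < yc x) :
    pd (Fin.last 10) (fun z => f (sq2 z) * g (yc z)) x = f (sq2 x) * deriv g (yc x) := by
  have _hε := hε
  have _hf := hf
  exact ahess_pd_last (ahess_hasDerivAt hg hx)

/-- The Hessian of `x ↦ f (|x'|²/2) * g (y)` at a point with `y > 0`. -/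
theorem hess_fg {ε : ℝ} (hε : 0 < ε) {f g : ℝ → ℝ}
    (hf : ContDiffOn ℝ 2 f (Set.Ioi (-ε))) (hg : ContDiffOn ℝ 2 g (Set.Ioi 0))
    {x : Fin 11 → ℝ} (hx : 0 < yc x) :
    hess (fun z => f (sq2 z) * g (yc z)) x =
      bmat (xp x) (deriv f (sq2 x) * g (yc x)) (deriv (deriv f) (sq2 x) * g (yc x))
        (deriv f (sq2 x) * deriv g (yc x)) (f (sq2 x) * deriv (deriv g) (yc x)) := by
  have hf1 : ContDiffOn ℝ 1 f (Set.Ioi (-ε)) := hf.of_le (by norm_num)
  have hg1 : ContDiffOn ℝ 1 g (Set.Ioi 0) := hg.of_le (by norm_num)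
  have hdf : ContDiffOn ℝ 1 (deriv f) (Set.Ioi (-ε)) :=
    hf.deriv_of_isOpen isOpen_Ioi (by norm_num)
  have hdg : ContDiffOn ℝ 1 (deriv g) (Set.Ioi 0) :=
    hg.deriv_of_isOpen isOpen_Ioi (by norm_num)
  have hs : -ε < sq2 x := lt_of_lt_of_le (by linarith) (ahess_sq2_nonneg x)
  have hopen : IsOpen {z : Fin 11 → ℝ | 0 < yc z} :=
    isOpen_lt continuous_const (continuous_apply (Fin.last 10))
  have hnhds : {z : Fin 11 → ℝ | 0 < yc z} ∈ nhds x := hopen.mem_nhds hx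
  have ecs : ∀ j : Fin 10, pd (Fin.castSucc j) (fun z => f (sq2 z) * g (yc z)) =ᶠ[nhds x]
      fun z => deriv f (sq2 z) * z (Fin.castSucc j) * g (yc z) := fun j =>
    Filter.eventuallyEq_of_mem hnhds fun z hz => pd_fg_castSucc hε hf1 hg1 hz j
  have elast : pd (Fin.last 10) (fun z => f (sq2 z) * g (yc z)) =ᶠ[nhds x]
      fun z => f (sq2 z) * deriv g (yc z) :=
    Filter.eventuallyEq_of_mem hnhds fun z hz => pd_fg_last hε hf1 hg1 hz
  ext i j
  simp only [hess, Matrix.of_apply]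
  induction i using Fin.lastCases with
  | last =>
    induction j using Fin.lastCases with
    | last =>
      rw [bmat_last_last, ahess_pd_congr _ elast]
      exact ahess_pd_last (ahess_hasDerivAt hdg hx)
    | cast j =>
      rw [bmat_last_castSucc, ahess_pd_congr _ (ecs j)]
      rw [ahess_pd_last_mul j (ahess_hasDerivAt hg1 hx)]
      unfold xp
      ring
  | cast i =>
    induction j using Fin.lastCases with
    | last =>
      rw [bmat_castSucc_last, ahess_pd_congr _ elast]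
      rw [ahess_pd_cs i (ahess_hasDerivAt hf1 hs)]
      unfold xp
      ring
    | cast j =>
      rw [bmat_castSucc_castSucc, ahess_pd_congr _ (ecs j)]
      rw [ahess_pd_cs_mul i j (ahess_hasDerivAt hdf hs)]
      unfold xp
      split_ifs <;> ring

end Vale.Agent.H68.Prof
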