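import Mathlib

/-! ROW A-SCALAR: the scalar identities behind the affine maximal equation for
`u = Ψ(s)² / y` (pure real algebra; no calculus). Notation: `Ψ, P, P₂` stand for `Ψ, Ψ', Ψ''` at a
point `s`, and `V, V₁, V₂` for `V, V', V''`; `h1`, `h2` are the profile equations `Eq1`, `Eq2`.
`Φ = Ψ²` has derivatives `Φ₁ = 2ΨP`, `Φ₂ = 2P² + 2ΨP₂`; `G = (V/Ψ)^12` has derivatives `G₁`, `G₂`. -/

namespace Vale.Agent.H68.Prof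

/-- The Schur quantity: `(α + β q) c - b² q = 4 Ψ³ (P + 2 s P₂) / y⁴` for
`α = Φ₁/y`, `β = Φ₂/y`, `b = -Φ₁/y²`, `c = 2Φ/y³`, `q = 2s`. -/
theorem scalar_delta (s y Ψ P P₂ : ℝ) (hy : 0 < y) :
    ((2 * Ψ * P) / y + ((2 * P ^ 2 + 2 * Ψ * P₂) / y) * (2 * s)) * (2 * Ψ ^ 2 / y ^ 3)
        - (-(2 * Ψ * P) / y ^ 2) ^ 2 * (2 * s)
      = 4 * Ψ ^ 3 * (P + 2 * s * P₂) / y ^ 4 := by
  have hy' : y ≠ 0 := hy.ne'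
  field_simp
  ring

/-- The determinant: `α^9 Δ = 2^11 (Ψ / (V y))^13`, using `Eq1`. -/
theorem scalar_det (s y Ψ P P₂ V : ℝ) (hy : 0 < y) (hΨ : 0 < Ψ) (hP : 0 < P) (hV : 0 < V)
    (h1 : P ^ 9 * (P + 2 * s * P₂) * V ^ 13 = Ψ) :
    ((2 * Ψ * P) / y) ^ 9 * (4 * Ψ ^ 3 * (P + 2 * s * P₂) / y ^ 4)
      = 2 ^ 11 * (Ψ / (V * y)) ^ 13 := by
  have hy' : y ≠ 0 := hy.ne'
  have hV' : V ≠ 0 := hV.ne'
  have ascalar_key : ((2 * Ψ * P) / y) ^ 9 * (4 * Ψ ^ 3 * (P + 2 * s * P₂) / y ^ 4)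
      = 2 ^ 11 * Ψ ^ 12 * (P ^ 9 * (P + 2 * s * P₂) * V ^ 13) / (V * y) ^ 13 := by
    field_simp
    ring
  rw [ascalar_key, h1, div_pow]
  ring

/-- Positivity of `P + 2 s P₂` from `Eq1`. -/
theorem ascalar_R_pos (s Ψ P P₂ V : ℝ) (hΨ : 0 < Ψ) (hP : 0 < P) (hV : 0 < V)
    (h1 : P ^ 9 * (P + 2 * s * P₂) * V ^ 13 = Ψ) : 0 < P + 2 * s * P₂ := by
  by_contra hcon
  have hle : P + 2 * s * P₂ ≤ 0 := not_lt.mp hcon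
  have h9 : 0 ≤ P ^ 9 := by positivity
  have h13 : 0 ≤ V ^ 13 := by positivity
  have h1' : P ^ 9 * (P + 2 * s * P₂) * V ^ 13 ≤ 0 :=
    mul_nonpos_of_nonpos_of_nonneg (mul_nonpos_of_nonneg_of_nonpos h9 hle) h13
  linarith

/-- The combination of `Eq1` and `Eq2` that kills the bracket. -/
theorem ascalar_K (s Ψ P P₂ V V₁ V₂ : ℝ) (hP : 0 < P) (hV : 0 < V)
    (h1 : P ^ 9 * (P + 2 * s * P₂) * V ^ 13 = Ψ)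
    (h2 : 2 * s * P ^ 8 * V ^ 11 * (9 * P₂ * V * V₁ + 11 * P * V₁ ^ 2 + P * V * V₂)
        + 10 * P ^ 9 * V ^ 12 * V₁ + 1 = 0) :
    Ψ * (2 * s * (9 * P₂ * V * V₁ + 11 * P * V₁ ^ 2 + P * V * V₂) + 10 * P * V * V₁)
      + V ^ 2 * P * (P + 2 * s * P₂) = 0 := by
  have hpos : P ^ 8 * V ^ 11 ≠ 0 := by positivity
  have hmul : P ^ 8 * V ^ 11 *
      (Ψ * (2 * s * (9 * P₂ * V * V₁ + 11 * P * V₁ ^ 2 + P * V * V₂) + 10 * P * V * V₁)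
        + V ^ 2 * P * (P + 2 * s * P₂)) = 0 := by
    linear_combination Ψ * h2 + h1
  exact (mul_eq_zero.mp hmul).resolve_left hpos

/-- The bracket in closed form, for the simplified inverse entries. -/
theorem ascalar_closed (s y Ψ P P₂ V V₁ V₂ : ℝ) (hΨ : Ψ ≠ 0) (hP : P ≠ 0)
    (hR : P + 2 * s * P₂ ≠ 0) :
    10 * ((y / (2 * Ψ * P)) *
        ((12 * (V / Ψ) ^ 11 * ((V₁ * Ψ - V * P) / Ψ ^ 2)) * y ^ 12))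
      + ((y / (2 * Ψ * P)) *
          ((132 * (V / Ψ) ^ 10 * ((V₁ * Ψ - V * P) / Ψ ^ 2) ^ 2
            + 12 * (V / Ψ) ^ 11 * ((V₂ * Ψ - V * P₂) / Ψ ^ 2
              - 2 * P * (V₁ * Ψ - V * P) / Ψ ^ 3)) * y ^ 12)
        + (-(P₂ * y) / (2 * Ψ * P * (P + 2 * s * P₂))) *
          ((12 * (V / Ψ) ^ 11 * ((V₁ * Ψ - V * P) / Ψ ^ 2)) * y ^ 12)) * (2 * s)
      + (-(P₂ * y) / (2 * Ψ * P * (P + 2 * s * P₂))) *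
          ((132 * (V / Ψ) ^ 10 * ((V₁ * Ψ - V * P) / Ψ ^ 2) ^ 2
            + 12 * (V / Ψ) ^ 11 * ((V₂ * Ψ - V * P₂) / Ψ ^ 2
              - 2 * P * (V₁ * Ψ - V * P) / Ψ ^ 3)) * y ^ 12) * (2 * s) ^ 2
      + 2 * (P * y ^ 2 / (2 * Ψ ^ 2 * (P + 2 * s * P₂))) *
          ((12 * (V / Ψ) ^ 11 * ((V₁ * Ψ - V * P) / Ψ ^ 2)) * (12 * y ^ 11)) * (2 * s)
      + ((Ψ * (P + 2 * s * P₂) + 2 * s * P ^ 2) * y ^ 3 / (2 * Ψ ^ 3 * (P + 2 * s * P₂))) *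
          ((V / Ψ) ^ 12 * (132 * y ^ 10))
      = 6 * y ^ 13 * V ^ 10 *
          (Ψ * (2 * s * (9 * P₂ * V * V₁ + 11 * P * V₁ ^ 2 + P * V * V₂) + 10 * P * V * V₁)
            + V ^ 2 * P * (P + 2 * s * P₂)) / (Ψ ^ 14 * P * (P + 2 * s * P₂)) := by
  have hR2 : P + 2 * P₂ * s ≠ 0 := by
    intro h0
    apply hR
    linear_combination h0
  field_simp
  ring

/-- The bracket of the affine maximal operator vanishes, by `Eq1` and `Eq2`.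
Here `(α, β, b, c)` are the entries of `D²u`, `(α', β', b', c')` those of its inverse,
`(αw, βw, bw, cw)` those of `D²w / c₀` for `w = c₀ G(s) y^12`, and `q = 2s`. -/
theorem scalar_bracket (s y Ψ P P₂ V V₁ V₂ : ℝ) (hy : 0 < y) (hΨ : 0 < Ψ) (hP : 0 < P)
    (hV : 0 < V)
    (h1 : P ^ 9 * (P + 2 * s * P₂) * V ^ 13 = Ψ)
    (h2 : 2 * s * P ^ 8 * V ^ 11 * (9 * P₂ * V * V₁ + 11 * P * V₁ ^ 2 + P * V * V₂)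
        + 10 * P ^ 9 * V ^ 12 * V₁ + 1 = 0)
    (Φ Φ₁ Φ₂ G G₁ G₂ α β b c q Δ α' β' b' c' αw βw bw cw : ℝ)
    (hΦ : Φ = Ψ ^ 2) (hΦ₁ : Φ₁ = 2 * Ψ * P) (hΦ₂ : Φ₂ = 2 * P ^ 2 + 2 * Ψ * P₂)
    (hG : G = (V / Ψ) ^ 12)
    (hG₁ : G₁ = 12 * (V / Ψ) ^ 11 * ((V₁ * Ψ - V * P) / Ψ ^ 2))
    (hG₂ : G₂ = 132 * (V / Ψ) ^ 10 * ((V₁ * Ψ - V * P) / Ψ ^ 2) ^ 2
        + 12 * (V / Ψ) ^ 11 * ((V₂ * Ψ - V * P₂) / Ψ ^ 2 - 2 * P * (V₁ * Ψ - V * P) / Ψ ^ 3))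
    (hα : α = Φ₁ / y) (hβ : β = Φ₂ / y) (hb : b = -Φ₁ / y ^ 2) (hc : c = 2 * Φ / y ^ 3)
    (hq : q = 2 * s) (hΔ : Δ = (α + β * q) * c - b ^ 2 * q)
    (hα' : α' = 1 / α) (hβ' : β' = (b ^ 2 - β * c) / (α * Δ)) (hb' : b' = -b / Δ)
    (hc' : c' = (α + β * q) / Δ)
    (hαw : αw = G₁ * y ^ 12) (hβw : βw = G₂ * y ^ 12) (hbw : bw = G₁ * (12 * y ^ 11))
    (hcw : cw = G * (132 * y ^ 10)) :
    10 * (α' * αw) + (α' * βw + β' * αw) * q + β' * βw * q ^ 2 + 2 * b' * bw * q + c' * cw = 0 := by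
  have hy' : y ≠ 0 := hy.ne'
  have hΨ' : Ψ ≠ 0 := hΨ.ne'
  have hP' : P ≠ 0 := hP.ne'
  have hR : 0 < P + 2 * s * P₂ := ascalar_R_pos s Ψ P P₂ V hΨ hP hV h1
  have hR' : P + 2 * s * P₂ ≠ 0 := hR.ne'
  have hK := ascalar_K s Ψ P P₂ V V₁ V₂ hP hV h1 h2
  -- the Schur quantity
  have hΔ2 : Δ = 4 * Ψ ^ 3 * (P + 2 * s * P₂) / y ^ 4 := by
    rw [hΔ, hα, hβ, hb, hc, hq, hΦ, hΦ₁, hΦ₂]
    exact scalar_delta s y Ψ P P₂ hy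
  -- the inverse entries in closed form
  have eα' : α' = y / (2 * Ψ * P) := by
    rw [hα', hα, hΦ₁]
    field_simp
  have eβ' : β' = -(P₂ * y) / (2 * Ψ * P * (P + 2 * s * P₂)) := by
    rw [hβ', hΔ2, hα, hβ, hb, hc, hΦ, hΦ₁, hΦ₂]
    field_simp
    ring
  have eb' : b' = P * y ^ 2 / (2 * Ψ ^ 2 * (P + 2 * s * P₂)) := by
    rw [hb', hΔ2, hb, hΦ₁]
    field_simp
    ring
  have ec' : c' = (Ψ * (P + 2 * s * P₂) + 2 * s * P ^ 2) * y ^ 3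
      / (2 * Ψ ^ 3 * (P + 2 * s * P₂)) := by
    rw [hc', hΔ2, hα, hβ, hq, hΦ₁, hΦ₂]
    field_simp
    ring
  rw [eα', eβ', eb', ec', hαw, hβw, hbw, hcw, hG, hG₁, hG₂, hq,
    ascalar_closed s y Ψ P P₂ V V₁ V₂ hΨ' hP' hR', hK, mul_zero, zero_div]

end Vale.Agent.H68.Prof
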