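import Mathlib
import Vale.Agent.H68.AMDefs
import Vale.Agent.H68.AMSepDom
import Vale.Agent.H68.P252.Defs
import Vale.Agent.H68.P252.BMatDefs
import Vale.Agent.H68.P252.BMatInv
import Vale.Agent.H68.P252.BMatDet
import Vale.Agent.H68.P252.BMatPD
import Vale.Agent.H68.P252.HessFG
import Vale.Agent.H68.P252.Scalar

/-! PART A of the P252 dimension-11 counterexample: from a profile to the hypersurface. -/

namespace Vale.Agent.H68.Prof

open Vale.Agent.H68 Set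
open scoped ContDiff Topology

/-- The open half-space `y > 0` of `ℝ^10 × ℝ`. -/
def halfSpace : Set (Fin 11 → ℝ) := {x | 0 < yc x}

/-- The example `u (x', y) = Ψ(|x'|²/2)² / y`. -/
noncomputable def uEx (Ψ : ℝ → ℝ) : (Fin 11 → ℝ) → ℝ :=
  fun x => (fun s => Ψ s ^ 2) (sq2 x) * (fun y => y⁻¹) (yc x)

/-- The constant `c₀ = (2^11)^(-12/13)`. -/
noncomputable def cZero : ℝ := ((2 : ℝ) ^ 11) ^ (-(12 : ℝ) / 13)

lemma sq2_nonneg (x : Fin 11 → ℝ) : 0 ≤ sq2 x := by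
  unfold sq2
  positivity

lemma sum_xp_sq (x : Fin 11 → ℝ) : ∑ i, xp x i ^ 2 = 2 * sq2 x := by
  unfold sq2 xp
  ring

lemma continuous_sq2 : Continuous sq2 := by
  unfold sq2
  fun_prop

lemma continuous_yc : Continuous yc := by
  unfold yc
  fun_prop

lemma contDiff_sq2 : ContDiff ℝ ∞ sq2 := by
  unfold sq2
  fun_prop

lemma contDiff_yc : ContDiff ℝ ∞ yc := by
  unfold yc
  fun_prop

lemma isOpen_halfSpace : IsOpen halfSpace :=
  isOpen_lt continuous_const continuous_yc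

lemma convex_halfSpace : Convex ℝ halfSpace := by
  intro x hx z hz a b ha hb hab
  simp only [halfSpace, Set.mem_ofPred_eq, yc, Pi.add_apply, Pi.smul_apply, smul_eq_mul] at *
  rcases ha.eq_or_lt with h0 | h0
  · subst h0
    have : b = 1 := by linarith
    subst this
    simpa using hz
  · have h1 : 0 < a * x (Fin.last 10) := mul_pos h0 hx
    have h2 : 0 ≤ b * z (Fin.last 10) := mul_nonneg hb hz.le
    linarith

lemma halfSpace_nonempty : halfSpace.Nonempty :=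
  ⟨fun _ => 1, by simp [halfSpace, yc]⟩

lemma halfSpace_ne_univ : halfSpace ≠ Set.univ := by
  intro h
  have : (fun _ => 0 : Fin 11 → ℝ) ∈ halfSpace := by rw [h]; trivial
  simp [halfSpace, yc] at this

/-- locality of the Hessian -/
lemma hess_eqOn {Ω : Set (Fin 11 → ℝ)} (hΩ : IsOpen Ω) {u₁ u₂ : (Fin 11 → ℝ) → ℝ}
    (h : Set.EqOn u₁ u₂ Ω) {x : Fin 11 → ℝ} (hx : x ∈ Ω) : hess u₁ x = hess u₂ x := by
  ext i j
  simp only [hess, Matrix.of_apply]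
  exact pd_eqOn_of_eqOn i hΩ (pd_eqOn_of_eqOn j hΩ h) hx

/-- the `rpow` computation behind `w` -/
lemma rpow_det_aux {t : ℝ} (ht : 0 < t) :
    ((2 : ℝ) ^ 11 * t ^ 13) ^ (-(12 : ℝ) / 13) = cZero * (t⁻¹) ^ 12 := by
  unfold cZero
  rw [Real.mul_rpow (by positivity) (by positivity)]
  congr 1
  rw [← Real.rpow_natCast t 13, ← Real.rpow_mul ht.le]
  have : ((13 : ℕ) : ℝ) * (-(12 : ℝ) / 13) = -((12 : ℕ) : ℝ) := by norm_num
  rw [this, Real.rpow_neg ht.le, Real.rpow_natCast, inv_pow]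

section profile

variable {ε : ℝ} {Ψ V : ℝ → ℝ}

/-- derivative data of a profile at a point of the open interval -/
lemma prof_hasDeriv (h : IsProfile Ψ V (Ioi (-ε))) {s : ℝ} (hs : s ∈ Ioi (-ε)) :
    HasDerivAt Ψ (deriv Ψ s) s ∧ HasDerivAt (deriv Ψ) (deriv (deriv Ψ) s) s ∧
    HasDerivAt V (deriv V s) s ∧ HasDerivAt (deriv V) (deriv (deriv V) s) s := by
  have hI : IsOpen (Ioi (-ε)) := isOpen_Ioi
  have h1 : DifferentiableAt ℝ Ψ s :=
    (h.smoothΨ.differentiableOn (by simp)).differentiableAt (hI.mem_nhds hs)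
  have h2 : DifferentiableAt ℝ V s :=
    (h.smoothV.differentiableOn (by simp)).differentiableAt (hI.mem_nhds hs)
  have h3 : ContDiffOn ℝ ∞ (deriv Ψ) (Ioi (-ε)) :=
    h.smoothΨ.deriv_of_isOpen hI (by simp)
  have h4 : ContDiffOn ℝ ∞ (deriv V) (Ioi (-ε)) :=
    h.smoothV.deriv_of_isOpen hI (by simp)
  have h5 : DifferentiableAt ℝ (deriv Ψ) s :=
    (h3.differentiableOn (by simp)).differentiableAt (hI.mem_nhds hs)
  have h6 : DifferentiableAt ℝ (deriv V) s :=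
    (h4.differentiableOn (by simp)).differentiableAt (hI.mem_nhds hs)
  exact ⟨h1.hasDerivAt, h5.hasDerivAt, h2.hasDerivAt, h6.hasDerivAt⟩

/-- first derivative of `Φ = Ψ²` -/
lemma prof_deriv_Phi (h : IsProfile Ψ V (Ioi (-ε))) {s : ℝ} (hs : s ∈ Ioi (-ε)) :
    deriv (fun t => Ψ t ^ 2) s = 2 * Ψ s * deriv Ψ s := by
  obtain ⟨h1, -, -, -⟩ := prof_hasDeriv h hs
  have h' : HasDerivAt (fun t => Ψ t ^ 2) (2 * Ψ s * deriv Ψ s) s :=
    (h1.pow 2).congr_deriv (by norm_num)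
  exact h'.deriv

/-- second derivative of `Φ = Ψ²` -/
lemma prof_deriv2_Phi (h : IsProfile Ψ V (Ioi (-ε))) {s : ℝ} (hs : s ∈ Ioi (-ε)) :
    deriv (deriv (fun t => Ψ t ^ 2)) s
      = 2 * (deriv Ψ s) ^ 2 + 2 * Ψ s * deriv (deriv Ψ) s := by
  obtain ⟨h1, h2, -, -⟩ := prof_hasDeriv h hs
  have hev : deriv (fun t => Ψ t ^ 2) =ᶠ[𝓝 s] fun t => 2 * Ψ t * deriv Ψ t := by
    filter_upwards [isOpen_Ioi.mem_nhds hs] with t ht using prof_deriv_Phi h ht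
  rw [hev.deriv_eq]
  have h' : HasDerivAt (fun t => 2 * Ψ t * deriv Ψ t)
      (2 * (deriv Ψ s) ^ 2 + 2 * Ψ s * deriv (deriv Ψ) s) s :=
    ((h1.const_mul 2).mul h2).congr_deriv (by ring)
  exact h'.deriv

/-- first derivative of `G = (V/Ψ)^12` -/
lemma prof_deriv_G (h : IsProfile Ψ V (Ioi (-ε))) {s : ℝ} (hs : s ∈ Ioi (-ε)) :
    deriv (fun t => (V t / Ψ t) ^ 12) s
      = 12 * (V s / Ψ s) ^ 11 * ((deriv V s * Ψ s - V s * deriv Ψ s) / Ψ s ^ 2) := by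
  obtain ⟨h1, -, h3, -⟩ := prof_hasDeriv h hs
  have hΨ := (h.posΨ s hs).ne'
  have h' : HasDerivAt (fun t => (V t / Ψ t) ^ 12)
      (12 * (V s / Ψ s) ^ 11 * ((deriv V s * Ψ s - V s * deriv Ψ s) / Ψ s ^ 2)) s :=
    ((h3.div h1 hΨ).pow 12).congr_deriv (by norm_num)
  exact h'.deriv

/-- second derivative of `G = (V/Ψ)^12` -/
lemma prof_deriv2_G (h : IsProfile Ψ V (Ioi (-ε))) {s : ℝ} (hs : s ∈ Ioi (-ε)) :
    deriv (deriv (fun t => (V t / Ψ t) ^ 12)) s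
      = 132 * (V s / Ψ s) ^ 10 * ((deriv V s * Ψ s - V s * deriv Ψ s) / Ψ s ^ 2) ^ 2
        + 12 * (V s / Ψ s) ^ 11 *
          ((deriv (deriv V) s * Ψ s - V s * deriv (deriv Ψ) s) / Ψ s ^ 2
            - 2 * deriv Ψ s * (deriv V s * Ψ s - V s * deriv Ψ s) / Ψ s ^ 3) := by
  obtain ⟨h1, h2, h3, h4⟩ := prof_hasDeriv h hs
  have hΨ := (h.posΨ s hs).ne'
  have hev : deriv (fun t => (V t / Ψ t) ^ 12) =ᶠ[𝓝 s]
      fun t => 12 * (V t / Ψ t) ^ 11 * ((deriv V t * Ψ t - V t * deriv Ψ t) / Ψ t ^ 2) := by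
    filter_upwards [isOpen_Ioi.mem_nhds hs] with t ht using prof_deriv_G h ht
  rw [hev.deriv_eq]
  have hA : HasDerivAt (fun t => 12 * (V t / Ψ t) ^ 11)
      (12 * (11 * (V s / Ψ s) ^ 10 * ((deriv V s * Ψ s - V s * deriv Ψ s) / Ψ s ^ 2))) s := by
    exact (((h3.div h1 hΨ).pow 11).const_mul 12).congr_deriv (by norm_num)
  have hB : HasDerivAt (fun t => (deriv V t * Ψ t - V t * deriv Ψ t) / Ψ t ^ 2)
      (((deriv (deriv V) s * Ψ s + deriv V s * deriv Ψ s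
          - (deriv V s * deriv Ψ s + V s * deriv (deriv Ψ) s)) * Ψ s ^ 2
          - (deriv V s * Ψ s - V s * deriv Ψ s) * (2 * Ψ s * deriv Ψ s)) / (Ψ s ^ 2) ^ 2) s := by
    have hn := (h4.mul h1).sub (h3.mul h2)
    have hd : HasDerivAt (fun t => Ψ t ^ 2) (2 * Ψ s * deriv Ψ s) s :=
      (h1.pow 2).congr_deriv (by norm_num)
    exact hn.div hd (pow_ne_zero 2 hΨ)
  have h' := hA.mul hB
  have h'' : HasDerivAt
      (fun t => 12 * (V t / Ψ t) ^ 11 * ((deriv V t * Ψ t - V t * deriv Ψ t) / Ψ t ^ 2))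
      (132 * (V s / Ψ s) ^ 10 * ((deriv V s * Ψ s - V s * deriv Ψ s) / Ψ s ^ 2) ^ 2
        + 12 * (V s / Ψ s) ^ 11 *
          ((deriv (deriv V) s * Ψ s - V s * deriv (deriv Ψ) s) / Ψ s ^ 2
            - 2 * deriv Ψ s * (deriv V s * Ψ s - V s * deriv Ψ s) / Ψ s ^ 3)) s := by
    refine h'.congr_deriv ?_
    field_simp
    ring
  exact h''.deriv

lemma prof_R_pos (h : IsProfile Ψ V (Ioi (-ε))) {s : ℝ} (hs : s ∈ Ioi (-ε)) :
    0 < deriv Ψ s + 2 * s * deriv (deriv Ψ) s := by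
  have h1 := h.eq1 s hs
  unfold Eq1 at h1
  have hP := h.posD s hs
  have hV := h.posV s hs
  have hΨ := h.posΨ s hs
  by_contra hcon
  push_neg at hcon
  have : (deriv Ψ s) ^ 9 * (deriv Ψ s + 2 * s * deriv (deriv Ψ) s) * (V s) ^ 13 ≤ 0 := by
    have h9 : 0 < (deriv Ψ s) ^ 9 := by positivity
    have h13 : 0 < (V s) ^ 13 := by positivity
    have := mul_nonpos_of_nonneg_of_nonpos h9.le hcon
    exact mul_nonpos_of_nonpos_of_nonneg this h13.le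
  linarith

lemma contDiffOn_Phi (h : IsProfile Ψ V (Ioi (-ε))) :
    ContDiffOn ℝ ∞ (fun t => Ψ t ^ 2) (Ioi (-ε)) :=
  h.smoothΨ.pow 2

lemma contDiffOn_G (h : IsProfile Ψ V (Ioi (-ε))) :
    ContDiffOn ℝ ∞ (fun t => (V t / Ψ t) ^ 12) (Ioi (-ε)) :=
  (h.smoothV.div h.smoothΨ (fun s hs => (h.posΨ s hs).ne')).pow 12

lemma contDiffOn_cG (h : IsProfile Ψ V (Ioi (-ε))) :
    ContDiffOn ℝ ∞ (fun t => cZero * (V t / Ψ t) ^ 12) (Ioi (-ε)) :=
  contDiffOn_const.mul (contDiffOn_G h)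

lemma contDiffOn_inv_Ioi : ContDiffOn ℝ ∞ (fun y : ℝ => y⁻¹) (Ioi 0) :=
  (contDiffOn_inv ℝ).mono (fun y hy => by simpa using (ne_of_gt hy))

lemma deriv_inv_fun {y : ℝ} : deriv (fun y : ℝ => y⁻¹) y = -(y ^ 2)⁻¹ := by
  simp

lemma deriv2_inv_fun {y : ℝ} (hy : 0 < y) : deriv (deriv (fun y : ℝ => y⁻¹)) y = 2 / y ^ 3 := by
  have hev : deriv (fun y : ℝ => y⁻¹) = fun y => -(y ^ 2)⁻¹ := by
    funext t; simp
  rw [hev]
  have h1 : HasDerivAt (fun t : ℝ => t ^ 2) (2 * y) y := by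
    simpa using hasDerivAt_pow 2 y
  have h2 : HasDerivAt (fun t : ℝ => -(t ^ 2)⁻¹) (2 / y ^ 3) y := by
    refine ((h1.inv (pow_ne_zero 2 hy.ne')).neg).congr_deriv ?_
    field_simp
  exact h2.deriv

lemma deriv_pow12 {y : ℝ} : deriv (fun y : ℝ => y ^ 12) y = 12 * y ^ 11 := by
  simp

lemma deriv2_pow12 {y : ℝ} : deriv (deriv (fun y : ℝ => y ^ 12)) y = 132 * y ^ 10 := by
  have hev : deriv (fun y : ℝ => y ^ 12) = fun y => 12 * y ^ 11 := by
    funext t; simp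
  rw [hev]
  have h2 : HasDerivAt (fun t : ℝ => 12 * t ^ 11) (132 * y ^ 10) y := by
    refine ((hasDerivAt_pow 11 y).const_mul 12).congr_deriv ?_
    norm_num
    ring
  exact h2.deriv

end profile

end Vale.Agent.H68.Prof
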