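import Mathlib
import Vale.Agent.H68.AMDefs
import Vale.Agent.H68.P252.Defs

/-!
# P252: counterexamples to the affine Bernstein problem in every dimension `n ≥ 11`
## shared definitions, generic in `k` (`m = k + 2`, dimension `n = m + 1 = k + 3`)

The hypersurface is the graph of `u (x', y) = Ψ (|x'|² / 2) ^ 2 / y` over the half-space `y > 0` of
`ℝ^m × ℝ`, where `(Ψ, V)` is a *profile*: a smooth positive solution, on an open interval
containing `[0, ∞)`, of the two ordinary differential equations `Eq1G k`, `Eq2G k` below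
(the radial reduction of the affine maximal equation; `s = |x'|²/2`). For `k = 8` these are
`Eq1`, `Eq2` of `Defs.lean`.
-/

namespace Vale.Agent.H68.Prof

/-- First profile equation at `s` (with `m = k + 2`):  `Ψ'^(m-1) (Ψ' + 2 s Ψ'') V^(m+3) = Ψ`. -/
def Eq1G (k : ℕ) (Ψ V : ℝ → ℝ) (s : ℝ) : Prop :=
  (deriv Ψ s) ^ (k + 1) * (deriv Ψ s + 2 * s * deriv (deriv Ψ) s) * (V s) ^ (k + 5) = Ψ s

/-- Second profile equation at `s` (with `m = k + 2`):
`2 s Ψ'^(m-2) V^(m+1) ((m-1) Ψ'' V V' + (m+1) Ψ' V'^2 + Ψ' V V'') + m Ψ'^(m-1) V^(m+2) V' + 1 = 0`. -/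
def Eq2G (k : ℕ) (Ψ V : ℝ → ℝ) (s : ℝ) : Prop :=
  2 * s * (deriv Ψ s) ^ k * (V s) ^ (k + 3) *
      (((k : ℝ) + 1) * deriv (deriv Ψ) s * V s * deriv V s
        + ((k : ℝ) + 3) * deriv Ψ s * (deriv V s) ^ 2
        + deriv Ψ s * V s * deriv (deriv V) s)
    + ((k : ℝ) + 2) * (deriv Ψ s) ^ (k + 1) * (V s) ^ (k + 4) * deriv V s + 1 = 0

/-- `(Ψ, V)` is a profile (for `m = k + 2`) on the (open) set `I`: both smooth on `I`, `Ψ`, `V`,
`Ψ'` positive on `I`, and both profile equations hold at every point of `I`. -/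
structure IsProfileG (k : ℕ) (Ψ V : ℝ → ℝ) (I : Set ℝ) : Prop where
  smoothΨ : ContDiffOn ℝ ((⊤ : ℕ∞) : WithTop ℕ∞) Ψ I
  smoothV : ContDiffOn ℝ ((⊤ : ℕ∞) : WithTop ℕ∞) V I
  posΨ : ∀ s ∈ I, 0 < Ψ s
  posV : ∀ s ∈ I, 0 < V s
  posD : ∀ s ∈ I, 0 < deriv Ψ s
  eq1 : ∀ s ∈ I, Eq1G k Ψ V s
  eq2 : ∀ s ∈ I, Eq2G k Ψ V s

/-- The statement of the final hand-in in dimension `n`. -/
def CounterexampleAt (n : ℕ) : Prop :=
  ∃ (Ω : Set (Fin n → ℝ)) (u : (Fin n → ℝ) → ℝ),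
    IsOpen Ω ∧ Convex ℝ Ω ∧ Ω.Nonempty ∧ Ω ≠ Set.univ ∧
    ContDiffOn ℝ ((⊤ : ℕ∞) : WithTop ℕ∞) u Ω ∧
    (∀ x ∈ Ω, (hess u x).PosDef) ∧
    (∀ x ∈ Ω, amOp u x = 0) ∧
    IsClosed {p : (Fin n → ℝ) × ℝ | p.1 ∈ Ω ∧ p.2 = u p.1}

/-- The concrete profile of `Defs.lean` is the case `k = 8`. -/
theorem isProfileG_eight_iff (Ψ V : ℝ → ℝ) (I : Set ℝ) :
    IsProfileG 8 Ψ V I ↔ IsProfile Ψ V I := by
  constructor
  · intro h
    refine ⟨h.smoothΨ, h.smoothV, h.posΨ, h.posV, h.posD, fun s hs => ?_, fun s hs => ?_⟩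
    · have := h.eq1 s hs
      unfold Eq1G at this
      unfold Eq1
      norm_num at this ⊢
      exact this
    · have := h.eq2 s hs
      unfold Eq2G at this
      unfold Eq2
      norm_num at this ⊢
      linarith
  · intro h
    refine ⟨h.smoothΨ, h.smoothV, h.posΨ, h.posV, h.posD, fun s hs => ?_, fun s hs => ?_⟩
    · have := h.eq1 s hs
      unfold Eq1 at this
      unfold Eq1G
      norm_num at this ⊢
      exact this
    · have := h.eq2 s hs
      unfold Eq2 at this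
      unfold Eq2G
      norm_num at this ⊢
      linarith

end Vale.Agent.H68.Prof
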