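import Mathlib
import Vale.Agent.H68.AMDefs
import Vale.Agent.H68.P252.BMatDefs

/-! Generic-dimension coordinates for part A of the P252 counterexample:
`x = (x', y) ∈ ℝ^m × ℝ`, realised as `Fin (m + 1) → ℝ` with the last index as `y`. -/

namespace Vale.Agent.H68.Prof

/-- `s(x) = |x'|² / 2` for `x = (x', y) ∈ ℝ^m × ℝ`. -/
noncomputable def sqG {m : ℕ} (x : Fin (m + 1) → ℝ) : ℝ :=
  (∑ i : Fin m, x (Fin.castSucc i) ^ 2) / 2

/-- The last coordinate `y` of `x = (x', y)`. -/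
def ycG {m : ℕ} (x : Fin (m + 1) → ℝ) : ℝ := x (Fin.last m)

/-- The first `m` coordinates `x'` of `x = (x', y)`. -/
def xpG {m : ℕ} (x : Fin (m + 1) → ℝ) : Fin m → ℝ := fun i => x (Fin.castSucc i)

end Vale.Agent.H68.Prof
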