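import Mathlib
import Vale.Agent.H68.AMDefs
import Vale.Agent.H68.P252.BMatDefs
import Vale.Agent.H68.P252.DefsGA

/-! ROW A-HESSG (generic dimension): the Hessian (in the sense of `Vale.Agent.H68.hess`, iterated
`lineDeriv` along the coordinate vectors) of `x ↦ f (|x'|²/2) * g (y)` on the half-space `y > 0`
of `ℝ^m × ℝ = Fin (m + 1) → ℝ`. -/

namespace Vale.Agent.H68.Prof

open Vale.Agent.H68

lemma hessg_pd_congr {n : ℕ} (i : Fin n) {g g' : (Fin n → ℝ) → ℝ} {x : Fin n → ℝ}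
    (h : g =ᶠ[nhds x] g') : pd i g x = pd i g' x := by
  unfold pd
  exact h.lineDeriv_eq

lemma hessg_pd_eq_deriv {n : ℕ} (i : Fin n) (F : (Fin n → ℝ) → ℝ) (x : Fin n → ℝ) :
    pd i F x = deriv (fun t : ℝ => F (x + t • Pi.single i 1)) 0 := rfl

lemma hessg_coord_cc {m : ℕ} (x : Fin (m + 1) → ℝ) (i j : Fin m) (t : ℝ) :
    (x + t • Pi.single (Fin.castSucc i) (1 : ℝ) : Fin (m + 1) → ℝ) (Fin.castSucc j)
      = x (Fin.castSucc j) + t * (if j = i then 1 else 0) := by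
  simp [Pi.single_apply, Fin.castSucc_inj]

lemma hessg_coord_cl {m : ℕ} (x : Fin (m + 1) → ℝ) (i : Fin m) (t : ℝ) :
    (x + t • Pi.single (Fin.castSucc i) (1 : ℝ) : Fin (m + 1) → ℝ) (Fin.last m) = x (Fin.last m) := by
  have h : Fin.last m ≠ Fin.castSucc i := (Fin.castSucc_lt_last i).ne'
  simp [h]

lemma hessg_coord_lc {m : ℕ} (x : Fin (m + 1) → ℝ) (j : Fin m) (t : ℝ) :
    (x + t • Pi.single (Fin.last m) (1 : ℝ) : Fin (m + 1) → ℝ) (Fin.castSucc j) = x (Fin.castSucc j) := by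
  have h : Fin.castSucc j ≠ Fin.last m := (Fin.castSucc_lt_last j).ne
  simp [h]

lemma hessg_coord_ll {m : ℕ} (x : Fin (m + 1) → ℝ) (t : ℝ) :
    (x + t • Pi.single (Fin.last m) (1 : ℝ) : Fin (m + 1) → ℝ) (Fin.last m) = x (Fin.last m) + t := by
  simp

lemma hessg_sq_c {m : ℕ} (x : Fin (m + 1) → ℝ) (j : Fin m) (t : ℝ) :
    sqG (x + t • Pi.single (Fin.castSucc j) (1 : ℝ))
      = sqG x + t * x (Fin.castSucc j) + t ^ 2 / 2 := by
  unfold sqG
  simp only [hessg_coord_cc]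
  have h : ∀ i : Fin m, (x (Fin.castSucc i) + t * (if i = j then (1 : ℝ) else 0)) ^ 2
      = x (Fin.castSucc i) ^ 2 + (if i = j then 2 * t * x (Fin.castSucc j) + t ^ 2 else 0) := by
    intro i
    split_ifs with h
    · subst h
      ring
    · ring
  simp only [h, Finset.sum_add_distrib, Finset.sum_ite_eq', Finset.mem_univ, if_true]
  ring

lemma hessg_sq_l {m : ℕ} (x : Fin (m + 1) → ℝ) (t : ℝ) :
    sqG (x + t • Pi.single (Fin.last m) (1 : ℝ)) = sqG x := by
  unfold sqG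
  simp only [hessg_coord_lc]

lemma hessg_yc_c {m : ℕ} (x : Fin (m + 1) → ℝ) (j : Fin m) (t : ℝ) :
    ycG (x + t • Pi.single (Fin.castSucc j) (1 : ℝ)) = ycG x := hessg_coord_cl x j t

lemma hessg_yc_l {m : ℕ} (x : Fin (m + 1) → ℝ) (t : ℝ) :
    ycG (x + t • Pi.single (Fin.last m) (1 : ℝ)) = ycG x + t := hessg_coord_ll x t

lemma hessg_comp_quad {f : ℝ → ℝ} {f' s : ℝ} (hf : HasDerivAt f f' s) (a : ℝ) :
    HasDerivAt (fun t : ℝ => f (s + t * a + t ^ 2 / 2)) (f' * a) 0 := by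
  have h1 : HasDerivAt (fun t : ℝ => s + t * a + t ^ 2 / 2) a 0 := by
    have h2 := ((hasDerivAt_const (0 : ℝ) s).add ((hasDerivAt_id (0 : ℝ)).mul_const a)).add
      (((hasDerivAt_id (0 : ℝ)).pow 2).div_const 2)
    have h2' : HasDerivAt (fun t : ℝ => s + t * a + t ^ 2 / 2) _ 0 := h2
    simpa using h2'
  have h3 : HasDerivAt f f' ((fun t : ℝ => s + t * a + t ^ 2 / 2) 0) := by
    have e : (fun t : ℝ => s + t * a + t ^ 2 / 2) 0 = s := by simp
    rw [e]
    exact hf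
  exact h3.comp 0 h1

lemma hessg_comp_shift {g : ℝ → ℝ} {g' y : ℝ} (hg : HasDerivAt g g' y) :
    HasDerivAt (fun t : ℝ => g (y + t)) g' 0 := by
  have h1 : HasDerivAt (fun t : ℝ => y + t) 1 0 := by
    simpa using (hasDerivAt_id (0 : ℝ)).const_add y
  have h3 : HasDerivAt g g' ((fun t : ℝ => y + t) 0) := by
    have e : (fun t : ℝ => y + t) 0 = y := by simp
    rw [e]
    exact hg
  have h4 := h3.comp 0 h1
  rw [mul_one] at h4
  exact h4

lemma hessg_hasDerivAt_f {m : ℕ} {ε : ℝ} (hε : 0 < ε) {f : ℝ → ℝ}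
    (hf : ContDiffOn ℝ 1 f (Set.Ioi (-ε))) (x : Fin (m + 1) → ℝ) :
    HasDerivAt f (deriv f (sqG x)) (sqG x) := by
  have hs : 0 ≤ sqG x := by
    unfold sqG
    positivity
  have hmem : Set.Ioi (-ε) ∈ nhds (sqG x) := Ioi_mem_nhds (by linarith)
  exact ((hf.differentiableOn (by simp)).differentiableAt hmem).hasDerivAt

lemma hessg_hasDerivAt_g {g : ℝ → ℝ} (hg : ContDiffOn ℝ 1 g (Set.Ioi 0)) {y : ℝ}
    (hy : 0 < y) : HasDerivAt g (deriv g y) y :=
  ((hg.differentiableOn (by simp)).differentiableAt (Ioi_mem_nhds hy)).hasDerivAt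

/-- First derivatives in the `x'` directions. -/
theorem pd_fgG_castSucc {m : ℕ} {ε : ℝ} (hε : 0 < ε) {f g : ℝ → ℝ}
    (hf : ContDiffOn ℝ 1 f (Set.Ioi (-ε))) (hg : ContDiffOn ℝ 1 g (Set.Ioi 0))
    {x : Fin (m + 1) → ℝ} (hx : 0 < ycG x) (j : Fin m) :
    pd (Fin.castSucc j) (fun z => f (sqG z) * g (ycG z)) x =
      deriv f (sqG x) * x (Fin.castSucc j) * g (ycG x) := by
  rw [hessg_pd_eq_deriv]
  simp only [hessg_sq_c, hessg_yc_c]
  exact ((hessg_comp_quad (hessg_hasDerivAt_f hε hf x) (x (Fin.castSucc j))).mul_const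
    (g (ycG x))).deriv

/-- First derivative in the `y` direction. -/
theorem pd_fgG_last {m : ℕ} {ε : ℝ} (hε : 0 < ε) {f g : ℝ → ℝ}
    (hf : ContDiffOn ℝ 1 f (Set.Ioi (-ε))) (hg : ContDiffOn ℝ 1 g (Set.Ioi 0))
    {x : Fin (m + 1) → ℝ} (hx : 0 < ycG x) :
    pd (Fin.last m) (fun z => f (sqG z) * g (ycG z)) x = f (sqG x) * deriv g (ycG x) := by
  rw [hessg_pd_eq_deriv]
  simp only [hessg_sq_l, hessg_yc_l]
  exact ((hessg_comp_shift (hessg_hasDerivAt_g hg hx)).const_mul (f (sqG x))).deriv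

/-- The Hessian of `x ↦ f (|x'|²/2) * g (y)` at a point with `y > 0`. -/
theorem hess_fgG {m : ℕ} {ε : ℝ} (hε : 0 < ε) {f g : ℝ → ℝ}
    (hf : ContDiffOn ℝ 2 f (Set.Ioi (-ε))) (hg : ContDiffOn ℝ 2 g (Set.Ioi 0))
    {x : Fin (m + 1) → ℝ} (hx : 0 < ycG x) :
    hess (fun z => f (sqG z) * g (ycG z)) x =
      bmat (xpG x) (deriv f (sqG x) * g (ycG x)) (deriv (deriv f) (sqG x) * g (ycG x))
        (deriv f (sqG x) * deriv g (ycG x)) (f (sqG x) * deriv (deriv g) (ycG x)) := by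
  have hΩ : IsOpen {z : Fin (m + 1) → ℝ | 0 < ycG z} :=
    isOpen_lt continuous_const (continuous_apply (Fin.last m))
  have hf1 : ContDiffOn ℝ 1 f (Set.Ioi (-ε)) := hf.of_le (by norm_num)
  have hg1 : ContDiffOn ℝ 1 g (Set.Ioi 0) := hg.of_le (by norm_num)
  have hdf : ContDiffOn ℝ 1 (deriv f) (Set.Ioi (-ε)) :=
    hf.deriv_of_isOpen isOpen_Ioi (by norm_num)
  have hdg : ContDiffOn ℝ 1 (deriv g) (Set.Ioi 0) :=
    hg.deriv_of_isOpen isOpen_Ioi (by norm_num)
  have hev : ∀ᶠ z in nhds x, 0 < ycG z := hΩ.mem_nhds hx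
  ext i j
  simp only [hess, Matrix.of_apply]
  induction j using Fin.lastCases with
  | last =>
    have e : pd (Fin.last m) (fun z => f (sqG z) * g (ycG z))
        =ᶠ[nhds x] fun z => f (sqG z) * deriv g (ycG z) :=
      hev.mono (fun z hz => pd_fgG_last hε hf1 hg1 hz)
    rw [hessg_pd_congr i e]
    induction i using Fin.lastCases with
    | last =>
      rw [pd_fgG_last hε hf1 hdg hx]
      simp
    | cast i' =>
      rw [pd_fgG_castSucc hε hf1 hdg hx i']
      simp [xpG]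
      ring
  | cast j' =>
    have e : pd (Fin.castSucc j') (fun z => f (sqG z) * g (ycG z))
        =ᶠ[nhds x] fun z => deriv f (sqG z) * z (Fin.castSucc j') * g (ycG z) :=
      hev.mono (fun z hz => pd_fgG_castSucc hε hf1 hg1 hz j')
    rw [hessg_pd_congr i e]
    induction i using Fin.lastCases with
    | last =>
      rw [hessg_pd_eq_deriv]
      simp only [hessg_sq_l, hessg_yc_l, hessg_coord_lc]
      rw [((hessg_comp_shift (hessg_hasDerivAt_g hg1 hx)).const_mul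
        (deriv f (sqG x) * x (Fin.castSucc j'))).deriv]
      simp [xpG]
      ring
    | cast i' =>
      rw [hessg_pd_eq_deriv]
      simp only [hessg_sq_c, hessg_yc_c, hessg_coord_cc]
      have h1 := hessg_comp_quad (hessg_hasDerivAt_f hε hdf x) (x (Fin.castSucc i'))
      have h2 : HasDerivAt (fun t : ℝ => x (Fin.castSucc j') + t * (if j' = i' then (1 : ℝ) else 0))
          (if j' = i' then (1 : ℝ) else 0) 0 := by
        simpa using ((hasDerivAt_id (0 : ℝ)).mul_const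
          (if j' = i' then (1 : ℝ) else 0)).const_add (x (Fin.castSucc j'))
      rw [((h1.fun_mul h2).mul_const (g (ycG x))).deriv]
      by_cases h : i' = j'
      · subst h
        simp [xpG]
        ring
      · have h' : ¬ j' = i' := fun e => h e.symm
        simp [xpG, h, h']
        ring

end Vale.Agent.H68.Prof
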