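import Mathlib

/-! ROW A-SCALARG (generic `k`, `m = k + 2`): the scalar identities behind the affine maximal
equation for `u = Ψ(s)² / y` (pure real algebra; no calculus). Notation: `Ψ, P, P₂` stand for
`Ψ, Ψ', Ψ''` at a point `s`, and `V, V₁, V₂` for `V, V', V''`; `h1`, `h2` are the profile
equations `Eq1G k`, `Eq2G k`. `Φ = Ψ²` has derivatives `Φ₁ = 2ΨP`, `Φ₂ = 2P² + 2ΨP₂`;
`G = (V/Ψ)^(k+4)` has derivatives `G₁`, `G₂`. -/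

namespace Vale.Agent.H68.Prof

/-- The determinant: `α^(k+1) Δ = 2^(k+3) (Ψ / (V y))^(k+5)`, using `Eq1G k`. -/
theorem scalar_detG (k : ℕ) (s y Ψ P P₂ V : ℝ) (hy : 0 < y) (hΨ : 0 < Ψ) (hP : 0 < P)
    (hV : 0 < V)
    (h1 : P ^ (k + 1) * (P + 2 * s * P₂) * V ^ (k + 5) = Ψ) :
    ((2 * Ψ * P) / y) ^ (k + 1) * (4 * Ψ ^ 3 * (P + 2 * s * P₂) / y ^ 4)
      = 2 ^ (k + 3) * (Ψ / (V * y)) ^ (k + 5) := by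
  have hy' : y ≠ 0 := hy.ne'
  have hV' : V ≠ 0 := hV.ne'
  have _ := hΨ
  have _ := hP
  have ascalarG_key : ((2 * Ψ * P) / y) ^ (k + 1) * (4 * Ψ ^ 3 * (P + 2 * s * P₂) / y ^ 4)
      = 2 ^ (k + 3) * Ψ ^ (k + 4) * (P ^ (k + 1) * (P + 2 * s * P₂) * V ^ (k + 5))
        / (V * y) ^ (k + 5) := by
    rw [div_pow, div_mul_div_comm, div_eq_div_iff (by positivity) (by positivity)]
    ring
  rw [ascalarG_key, h1, div_pow]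
  ring

/-- The Schur quantity (copy of `scalar_delta`, which lives in another file). -/
theorem ascalarG_delta (s y Ψ P P₂ : ℝ) (hy : 0 < y) :
    ((2 * Ψ * P) / y + ((2 * P ^ 2 + 2 * Ψ * P₂) / y) * (2 * s)) * (2 * Ψ ^ 2 / y ^ 3)
        - (-(2 * Ψ * P) / y ^ 2) ^ 2 * (2 * s)
      = 4 * Ψ ^ 3 * (P + 2 * s * P₂) / y ^ 4 := by
  have hy' : y ≠ 0 := hy.ne'
  field_simp
  ring

/-- Positivity of `P + 2 s P₂` from `Eq1G k`. -/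
theorem ascalarG_R_pos (k : ℕ) (s Ψ P P₂ V : ℝ) (hΨ : 0 < Ψ) (hP : 0 < P) (hV : 0 < V)
    (h1 : P ^ (k + 1) * (P + 2 * s * P₂) * V ^ (k + 5) = Ψ) : 0 < P + 2 * s * P₂ := by
  by_contra hcon
  have hle : P + 2 * s * P₂ ≤ 0 := not_lt.mp hcon
  have h9 : 0 ≤ P ^ (k + 1) := (pow_pos hP (k + 1)).le
  have h13 : 0 ≤ V ^ (k + 5) := (pow_pos hV (k + 5)).le
  have h1' : P ^ (k + 1) * (P + 2 * s * P₂) * V ^ (k + 5) ≤ 0 :=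
    mul_nonpos_of_nonpos_of_nonneg (mul_nonpos_of_nonneg_of_nonpos h9 hle) h13
  linarith

/-- The combination of `Eq1G k` and `Eq2G k` that kills the bracket. -/
theorem ascalarG_K (k : ℕ) (s Ψ P P₂ V V₁ V₂ : ℝ) (hP : 0 < P) (hV : 0 < V)
    (h1 : P ^ (k + 1) * (P + 2 * s * P₂) * V ^ (k + 5) = Ψ)
    (h2 : 2 * s * P ^ k * V ^ (k + 3) *
          (((k : ℝ) + 1) * P₂ * V * V₁ + ((k : ℝ) + 3) * P * V₁ ^ 2 + P * V * V₂)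
        + ((k : ℝ) + 2) * P ^ (k + 1) * V ^ (k + 4) * V₁ + 1 = 0) :
    Ψ * (2 * s * (((k : ℝ) + 1) * P₂ * V * V₁ + ((k : ℝ) + 3) * P * V₁ ^ 2 + P * V * V₂)
          + ((k : ℝ) + 2) * P * V * V₁)
      + V ^ 2 * P * (P + 2 * s * P₂) = 0 := by
  have hpos : P ^ k * V ^ (k + 3) ≠ 0 :=
    mul_ne_zero (pow_pos hP k).ne' (pow_pos hV (k + 3)).ne'
  have hmul : P ^ k * V ^ (k + 3) *
      (Ψ * (2 * s * (((k : ℝ) + 1) * P₂ * V * V₁ + ((k : ℝ) + 3) * P * V₁ ^ 2 + P * V * V₂)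
          + ((k : ℝ) + 2) * P * V * V₁)
        + V ^ 2 * P * (P + 2 * s * P₂)) = 0 := by
    linear_combination Ψ * h2 + h1
  exact (mul_eq_zero.mp hmul).resolve_left hpos

/-- The bracket in closed form, for the simplified inverse entries. -/
theorem ascalarG_closed (k : ℕ) (s y Ψ P P₂ V V₁ V₂ : ℝ) (hΨ : Ψ ≠ 0) (hP : P ≠ 0)
    (hR : P + 2 * s * P₂ ≠ 0)
    (G G₁ G₂ q α' β' b' c' αw βw bw cw : ℝ)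
    (hG : G = (V / Ψ) ^ (k + 4))
    (hG₁ : G₁ = ((k : ℝ) + 4) * (V / Ψ) ^ (k + 3) * ((V₁ * Ψ - V * P) / Ψ ^ 2))
    (hG₂ : G₂ = ((k : ℝ) + 4) * ((k : ℝ) + 3) * (V / Ψ) ^ (k + 2)
          * ((V₁ * Ψ - V * P) / Ψ ^ 2) ^ 2
        + ((k : ℝ) + 4) * (V / Ψ) ^ (k + 3)
          * ((V₂ * Ψ - V * P₂) / Ψ ^ 2 - 2 * P * (V₁ * Ψ - V * P) / Ψ ^ 3))
    (hq : q = 2 * s)
    (eα' : α' = y / (2 * Ψ * P))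
    (eβ' : β' = -(P₂ * y) / (2 * Ψ * P * (P + 2 * s * P₂)))
    (eb' : b' = P * y ^ 2 / (2 * Ψ ^ 2 * (P + 2 * s * P₂)))
    (ec' : c' = (Ψ * (P + 2 * s * P₂) + 2 * s * P ^ 2) * y ^ 3
      / (2 * Ψ ^ 3 * (P + 2 * s * P₂)))
    (hαw : αw = G₁ * y ^ (k + 4)) (hβw : βw = G₂ * y ^ (k + 4))
    (hbw : bw = G₁ * (((k : ℝ) + 4) * y ^ (k + 3)))
    (hcw : cw = G * (((k : ℝ) + 4) * ((k : ℝ) + 3) * y ^ (k + 2))) :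
    ((k : ℝ) + 2) * (α' * αw) + (α' * βw + β' * αw) * q + β' * βw * q ^ 2
      + 2 * b' * bw * q + c' * cw
      = (((k : ℝ) + 4) / 2) * ((V / Ψ) ^ k * y ^ k) * y ^ 5 * V ^ 2 *
          (Ψ * (2 * s * (((k : ℝ) + 1) * P₂ * V * V₁ + ((k : ℝ) + 3) * P * V₁ ^ 2 + P * V * V₂)
              + ((k : ℝ) + 2) * P * V * V₁)
            + V ^ 2 * P * (P + 2 * s * P₂)) / (Ψ ^ 6 * P * (P + 2 * s * P₂)) := by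
  have hR2 : P + 2 * P₂ * s ≠ 0 := by
    intro h0
    apply hR
    linear_combination h0
  subst hG hG₁ hG₂ hq eα' eβ' eb' ec' hαw hβw hbw hcw
  rw [pow_add (V / Ψ) k 4, pow_add (V / Ψ) k 3, pow_add (V / Ψ) k 2,
    pow_add y k 4, pow_add y k 3, pow_add y k 2]
  generalize (V / Ψ) ^ k = A
  generalize y ^ k = B
  generalize (k : ℝ) = κ
  field_simp
  ring

/-- The bracket of the affine maximal operator vanishes, by `Eq1G k` and `Eq2G k`.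
Here `(α, β, b, c)` are the entries of `D²u`, `(α', β', b', c')` those of its inverse,
`(αw, βw, bw, cw)` those of `D²w / c₀` for `w = c₀ G(s) y^(k+4)`, and `q = 2s`. -/
theorem scalar_bracketG (k : ℕ) (s y Ψ P P₂ V V₁ V₂ : ℝ) (hy : 0 < y) (hΨ : 0 < Ψ)
    (hP : 0 < P) (hV : 0 < V)
    (h1 : P ^ (k + 1) * (P + 2 * s * P₂) * V ^ (k + 5) = Ψ)
    (h2 : 2 * s * P ^ k * V ^ (k + 3) *
          (((k : ℝ) + 1) * P₂ * V * V₁ + ((k : ℝ) + 3) * P * V₁ ^ 2 + P * V * V₂)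
        + ((k : ℝ) + 2) * P ^ (k + 1) * V ^ (k + 4) * V₁ + 1 = 0)
    (Φ Φ₁ Φ₂ G G₁ G₂ α β b c q Δ α' β' b' c' αw βw bw cw : ℝ)
    (hΦ : Φ = Ψ ^ 2) (hΦ₁ : Φ₁ = 2 * Ψ * P) (hΦ₂ : Φ₂ = 2 * P ^ 2 + 2 * Ψ * P₂)
    (hG : G = (V / Ψ) ^ (k + 4))
    (hG₁ : G₁ = ((k : ℝ) + 4) * (V / Ψ) ^ (k + 3) * ((V₁ * Ψ - V * P) / Ψ ^ 2))
    (hG₂ : G₂ = ((k : ℝ) + 4) * ((k : ℝ) + 3) * (V / Ψ) ^ (k + 2)
          * ((V₁ * Ψ - V * P) / Ψ ^ 2) ^ 2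
        + ((k : ℝ) + 4) * (V / Ψ) ^ (k + 3)
          * ((V₂ * Ψ - V * P₂) / Ψ ^ 2 - 2 * P * (V₁ * Ψ - V * P) / Ψ ^ 3))
    (hα : α = Φ₁ / y) (hβ : β = Φ₂ / y) (hb : b = -Φ₁ / y ^ 2) (hc : c = 2 * Φ / y ^ 3)
    (hq : q = 2 * s) (hΔ : Δ = (α + β * q) * c - b ^ 2 * q)
    (hα' : α' = 1 / α) (hβ' : β' = (b ^ 2 - β * c) / (α * Δ)) (hb' : b' = -b / Δ)
    (hc' : c' = (α + β * q) / Δ)
    (hαw : αw = G₁ * y ^ (k + 4)) (hβw : βw = G₂ * y ^ (k + 4))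
    (hbw : bw = G₁ * (((k : ℝ) + 4) * y ^ (k + 3)))
    (hcw : cw = G * (((k : ℝ) + 4) * ((k : ℝ) + 3) * y ^ (k + 2))) :
    ((k : ℝ) + 2) * (α' * αw) + (α' * βw + β' * αw) * q + β' * βw * q ^ 2
      + 2 * b' * bw * q + c' * cw = 0 := by
  have hy' : y ≠ 0 := hy.ne'
  have hΨ' : Ψ ≠ 0 := hΨ.ne'
  have hP' : P ≠ 0 := hP.ne'
  have hR : 0 < P + 2 * s * P₂ := ascalarG_R_pos k s Ψ P P₂ V hΨ hP hV h1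
  have hR' : P + 2 * s * P₂ ≠ 0 := hR.ne'
  have hK := ascalarG_K k s Ψ P P₂ V V₁ V₂ hP hV h1 h2
  -- the Schur quantity
  have hΔ2 : Δ = 4 * Ψ ^ 3 * (P + 2 * s * P₂) / y ^ 4 := by
    rw [hΔ, hα, hβ, hb, hc, hq, hΦ, hΦ₁, hΦ₂]
    exact ascalarG_delta s y Ψ P P₂ hy
  -- the inverse entries in closed form
  have eα' : α' = y / (2 * Ψ * P) := by
    rw [hα', hα, hΦ₁]
    field_simp
  have eβ' : β' = -(P₂ * y) / (2 * Ψ * P * (P + 2 * s * P₂)) := by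
    rw [hβ', hΔ2, hα, hβ, hb, hc, hΦ, hΦ₁, hΦ₂]
    field_simp
    ring
  have eb' : b' = P * y ^ 2 / (2 * Ψ ^ 2 * (P + 2 * s * P₂)) := by
    rw [hb', hΔ2, hb, hΦ₁]
    field_simp
    ring
  have ec' : c' = (Ψ * (P + 2 * s * P₂) + 2 * s * P ^ 2) * y ^ 3
      / (2 * Ψ ^ 3 * (P + 2 * s * P₂)) := by
    rw [hc', hΔ2, hα, hβ, hq, hΦ₁, hΦ₂]
    field_simp
    ring
  rw [ascalarG_closed k s y Ψ P P₂ V V₁ V₂ hΨ' hP' hR' G G₁ G₂ q α' β' b' c' αw βw bw cw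
    hG hG₁ hG₂ hq eα' eβ' eb' ec' hαw hβw hbw hcw, hK, mul_zero, zero_div]

/-- `STAR` of `ENTIRE.md` section 3 in closed form (pure algebra, no ODE), generic `k`
(`m = k + 2`, `N = k + 4`): `STAR = 4 (k+4) (V/Ψ)^k V² (Ψ K + V² P R) / Ψ²`. -/
theorem ascalarG_star_closed (k : ℕ) (s Ψ P P₂ V V₁ V₂ : ℝ) (hΨ : Ψ ≠ 0)
    (Φ Φ₁ Φ₂ G G₁ G₂ E : ℝ)
    (hΦ : Φ = Ψ ^ 2) (hΦ₁ : Φ₁ = 2 * Ψ * P) (hΦ₂ : Φ₂ = 2 * P ^ 2 + 2 * Ψ * P₂)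
    (hG : G = (V / Ψ) ^ (k + 4))
    (hG₁ : G₁ = ((k : ℝ) + 4) * (V / Ψ) ^ (k + 3) * ((V₁ * Ψ - V * P) / Ψ ^ 2))
    (hG₂ : G₂ = ((k : ℝ) + 4) * ((k : ℝ) + 3) * (V / Ψ) ^ (k + 2)
          * ((V₁ * Ψ - V * P) / Ψ ^ 2) ^ 2
        + ((k : ℝ) + 4) * (V / Ψ) ^ (k + 3)
          * ((V₂ * Ψ - V * P₂) / Ψ ^ 2 - 2 * P * (V₁ * Ψ - V * P) / Ψ ^ 3))
    (hE : E = Φ * (Φ₁ + 2 * s * Φ₂) - s * Φ₁ ^ 2) :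
    (2 * ((k : ℝ) + 2) * G₁ + 4 * s * G₂) * E
        + (Φ₁ ^ 2 - 2 * Φ * Φ₂) * (2 * s * G₁ + 4 * s ^ 2 * G₂)
        + 4 * s * ((k : ℝ) + 4) * Φ₁ ^ 2 * G₁
        + ((k : ℝ) + 4) * ((k : ℝ) + 3) * G * Φ₁ * (Φ₁ + 2 * s * Φ₂)
      = 4 * ((k : ℝ) + 4) * (V / Ψ) ^ k * V ^ 2 *
          (Ψ * (2 * s * (((k : ℝ) + 1) * P₂ * V * V₁ + ((k : ℝ) + 3) * P * V₁ ^ 2 + P * V * V₂)
              + ((k : ℝ) + 2) * P * V * V₁)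
            + V ^ 2 * P * (P + 2 * s * P₂)) / Ψ ^ 2 := by
  subst hΦ hΦ₁ hΦ₂ hG hG₁ hG₂ hE
  rw [pow_add (V / Ψ) k 4, pow_add (V / Ψ) k 3, pow_add (V / Ψ) k 2]
  generalize (V / Ψ) ^ k = A
  generalize (k : ℝ) = κ
  field_simp
  ring

/-- `STAR = 0` (`ENTIRE.md` section 3) from `Eq1G k` and `Eq2G k`, in terms of
`(Ψ, P, P₂, V, V₁, V₂)`; here `E = Φ (Φ' + 2 s Φ'') - s Φ'^2 = 2 Ψ³ (P + 2 s P₂)`. -/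
theorem ascalarG_star (k : ℕ) (s Ψ P P₂ V V₁ V₂ : ℝ) (hΨ : 0 < Ψ) (hP : 0 < P) (hV : 0 < V)
    (h1 : P ^ (k + 1) * (P + 2 * s * P₂) * V ^ (k + 5) = Ψ)
    (h2 : 2 * s * P ^ k * V ^ (k + 3) *
          (((k : ℝ) + 1) * P₂ * V * V₁ + ((k : ℝ) + 3) * P * V₁ ^ 2 + P * V * V₂)
        + ((k : ℝ) + 2) * P ^ (k + 1) * V ^ (k + 4) * V₁ + 1 = 0)
    (Φ Φ₁ Φ₂ G G₁ G₂ E : ℝ)
    (hΦ : Φ = Ψ ^ 2) (hΦ₁ : Φ₁ = 2 * Ψ * P) (hΦ₂ : Φ₂ = 2 * P ^ 2 + 2 * Ψ * P₂)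
    (hG : G = (V / Ψ) ^ (k + 4))
    (hG₁ : G₁ = ((k : ℝ) + 4) * (V / Ψ) ^ (k + 3) * ((V₁ * Ψ - V * P) / Ψ ^ 2))
    (hG₂ : G₂ = ((k : ℝ) + 4) * ((k : ℝ) + 3) * (V / Ψ) ^ (k + 2)
          * ((V₁ * Ψ - V * P) / Ψ ^ 2) ^ 2
        + ((k : ℝ) + 4) * (V / Ψ) ^ (k + 3)
          * ((V₂ * Ψ - V * P₂) / Ψ ^ 2 - 2 * P * (V₁ * Ψ - V * P) / Ψ ^ 3))
    (hE : E = Φ * (Φ₁ + 2 * s * Φ₂) - s * Φ₁ ^ 2) :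
    (2 * ((k : ℝ) + 2) * G₁ + 4 * s * G₂) * E
        + (Φ₁ ^ 2 - 2 * Φ * Φ₂) * (2 * s * G₁ + 4 * s ^ 2 * G₂)
        + 4 * s * ((k : ℝ) + 4) * Φ₁ ^ 2 * G₁
        + ((k : ℝ) + 4) * ((k : ℝ) + 3) * G * Φ₁ * (Φ₁ + 2 * s * Φ₂) = 0 := by
  rw [ascalarG_star_closed k s Ψ P P₂ V V₁ V₂ hΨ.ne' Φ Φ₁ Φ₂ G G₁ G₂ E hΦ hΦ₁ hΦ₂ hG hG₁ hG₂ hE,
    ascalarG_K k s Ψ P P₂ V V₁ V₂ hP hV h1 h2, mul_zero, zero_div]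

/-- The quantity `E` of `ENTIRE.md`: `Φ (Φ' + 2 s Φ'') - s Φ'^2 = 2 Ψ³ (P + 2 s P₂)`. -/
theorem ascalarG_E (s Ψ P P₂ : ℝ) :
    Ψ ^ 2 * (2 * Ψ * P + 2 * s * (2 * P ^ 2 + 2 * Ψ * P₂)) - s * (2 * Ψ * P) ^ 2
      = 2 * Ψ ^ 3 * (P + 2 * s * P₂) := by
  ring

end Vale.Agent.H68.Prof
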