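import Mathlib
import Vale.Agent.H68.AMDefs
import Vale.Agent.H68.AMSepDom
import Vale.Agent.H68.P252.DefsG
import Vale.Agent.H68.P252.BMatDefs
import Vale.Agent.H68.P252.DefsGA
import Vale.Agent.H68.P252.BMatInv
import Vale.Agent.H68.P252.BMatDet
import Vale.Agent.H68.P252.BMatPD
import Vale.Agent.H68.P252.HessFGG
import Vale.Agent.H68.P252.ScalarG

/-! PART A of the P252 counterexample (generic `k`, `m = k + 2`, dimension `m + 1`):
from a profile to the hypersurface. -/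

namespace Vale.Agent.H68.Prof

open Vale.Agent.H68 Set
open scoped ContDiff Topology

/-- The open half-space `y > 0` of `ℝ^m × ℝ`. -/
def halfG (m : ℕ) : Set (Fin (m + 1) → ℝ) := {x | 0 < ycG x}

/-- The example `u (x', y) = Ψ(|x'|²/2)² / y`. -/
noncomputable def uG (m : ℕ) (Ψ : ℝ → ℝ) : (Fin (m + 1) → ℝ) → ℝ :=
  fun x => (fun s => Ψ s ^ 2) (sqG x) * (fun y => y⁻¹) (ycG x)

/-- The constant `c₀ = (2^(k+3))^(-(k+4)/(k+5))`. -/
noncomputable def cZeroG (k : ℕ) : ℝ := ((2 : ℝ) ^ (k + 3)) ^ (-((k : ℝ) + 4) / ((k : ℝ) + 5))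

lemma sqG_nonneg {m : ℕ} (x : Fin (m + 1) → ℝ) : 0 ≤ sqG x := by
  unfold sqG
  positivity

lemma sum_xpG_sq {m : ℕ} (x : Fin (m + 1) → ℝ) : ∑ i, xpG x i ^ 2 = 2 * sqG x := by
  unfold sqG xpG
  ring

lemma continuous_sqG {m : ℕ} : Continuous (sqG (m := m)) := by
  unfold sqG
  fun_prop

lemma continuous_ycG {m : ℕ} : Continuous (ycG (m := m)) := by
  unfold ycG
  fun_prop

lemma contDiff_sqG {m : ℕ} : ContDiff ℝ ∞ (sqG (m := m)) := by
  unfold sqG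
  fun_prop

lemma contDiff_ycG {m : ℕ} : ContDiff ℝ ∞ (ycG (m := m)) := by
  unfold ycG
  fun_prop

lemma isOpen_halfG (m : ℕ) : IsOpen (halfG m) :=
  isOpen_lt continuous_const continuous_ycG

lemma convex_halfG (m : ℕ) : Convex ℝ (halfG m) := by
  intro x hx z hz a b ha hb hab
  simp only [halfG, Set.mem_ofPred_eq, ycG, Pi.add_apply, Pi.smul_apply, smul_eq_mul] at *
  rcases ha.eq_or_lt with h0 | h0
  · subst h0
    have : b = 1 := by linarith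
    subst this
    simpa using hz
  · have h1 : 0 < a * x (Fin.last m) := mul_pos h0 hx
    have h2 : 0 ≤ b * z (Fin.last m) := mul_nonneg hb hz.le
    linarith

lemma halfG_nonempty (m : ℕ) : (halfG m).Nonempty :=
  ⟨fun _ => 1, by simp [halfG, ycG]⟩

lemma halfG_ne_univ (m : ℕ) : halfG m ≠ Set.univ := by
  intro h
  have : (fun _ => 0 : Fin (m + 1) → ℝ) ∈ halfG m := by rw [h]; trivial
  simp [halfG, ycG] at this

/-- locality of the Hessian -/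
lemma hess_eqOnG {n : ℕ} {Ω : Set (Fin n → ℝ)} (hΩ : IsOpen Ω) {u₁ u₂ : (Fin n → ℝ) → ℝ}
    (h : Set.EqOn u₁ u₂ Ω) {x : Fin n → ℝ} (hx : x ∈ Ω) : hess u₁ x = hess u₂ x := by
  ext i j
  simp only [hess, Matrix.of_apply]
  exact pd_eqOn_of_eqOn i hΩ (pd_eqOn_of_eqOn j hΩ h) hx

/-- the `rpow` computation behind `w` -/
lemma rpow_det_auxG (k : ℕ) {t : ℝ} (ht : 0 < t) :
    ((2 : ℝ) ^ (k + 3) * t ^ (k + 5)) ^ (-((k : ℝ) + 4) / ((k : ℝ) + 5))
      = cZeroG k * (t⁻¹) ^ (k + 4) := by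
  unfold cZeroG
  rw [Real.mul_rpow (by positivity) (by positivity)]
  congr 1
  rw [← Real.rpow_natCast t (k + 5), ← Real.rpow_mul ht.le]
  have hk : ((k : ℝ) + 5) ≠ 0 := by positivity
  have : ((k + 5 : ℕ) : ℝ) * (-((k : ℝ) + 4) / ((k : ℝ) + 5)) = -((k + 4 : ℕ) : ℝ) := by
    push_cast
    field_simp
  rw [this, Real.rpow_neg ht.le, Real.rpow_natCast, inv_pow]

lemma scalar_deltaG (s y Ψ P P₂ : ℝ) (hy : 0 < y) :
    ((2 * Ψ * P) / y + ((2 * P ^ 2 + 2 * Ψ * P₂) / y) * (2 * s)) * (2 * Ψ ^ 2 / y ^ 3)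
        - (-(2 * Ψ * P) / y ^ 2) ^ 2 * (2 * s)
      = 4 * Ψ ^ 3 * (P + 2 * s * P₂) / y ^ 4 := by
  field_simp
  ring

section profile

variable {k : ℕ} {ε : ℝ} {Ψ V : ℝ → ℝ}

/-- derivative data of a profile at a point of the open interval -/
lemma profG_hasDeriv (h : IsProfileG k Ψ V (Ioi (-ε))) {s : ℝ} (hs : s ∈ Ioi (-ε)) :
    HasDerivAt Ψ (deriv Ψ s) s ∧ HasDerivAt (deriv Ψ) (deriv (deriv Ψ) s) s ∧
    HasDerivAt V (deriv V s) s ∧ HasDerivAt (deriv V) (deriv (deriv V) s) s := by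
  have hI : IsOpen (Ioi (-ε)) := isOpen_Ioi
  have h1 : DifferentiableAt ℝ Ψ s :=
    (h.smoothΨ.differentiableOn (by simp)).differentiableAt (hI.mem_nhds hs)
  have h2 : DifferentiableAt ℝ V s :=
    (h.smoothV.differentiableOn (by simp)).differentiableAt (hI.mem_nhds hs)
  have h3 : ContDiffOn ℝ ∞ (deriv Ψ) (Ioi (-ε)) :=
    h.smoothΨ.deriv_of_isOpen hI (by simp)
  have h4 : ContDiffOn ℝ ∞ (deriv V) (Ioi (-ε)) :=
    h.smoothV.deriv_of_isOpen hI (by simp)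
  have h5 : DifferentiableAt ℝ (deriv Ψ) s :=
    (h3.differentiableOn (by simp)).differentiableAt (hI.mem_nhds hs)
  have h6 : DifferentiableAt ℝ (deriv V) s :=
    (h4.differentiableOn (by simp)).differentiableAt (hI.mem_nhds hs)
  exact ⟨h1.hasDerivAt, h5.hasDerivAt, h2.hasDerivAt, h6.hasDerivAt⟩

/-- first derivative of `Φ = Ψ²` -/
lemma profG_deriv_Phi (h : IsProfileG k Ψ V (Ioi (-ε))) {s : ℝ} (hs : s ∈ Ioi (-ε)) :
    deriv (fun t => Ψ t ^ 2) s = 2 * Ψ s * deriv Ψ s := by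
  obtain ⟨h1, -, -, -⟩ := profG_hasDeriv h hs
  have h' : HasDerivAt (fun t => Ψ t ^ 2) (2 * Ψ s * deriv Ψ s) s :=
    (h1.pow 2).congr_deriv (by norm_num)
  exact h'.deriv

/-- second derivative of `Φ = Ψ²` -/
lemma profG_deriv2_Phi (h : IsProfileG k Ψ V (Ioi (-ε))) {s : ℝ} (hs : s ∈ Ioi (-ε)) :
    deriv (deriv (fun t => Ψ t ^ 2)) s
      = 2 * (deriv Ψ s) ^ 2 + 2 * Ψ s * deriv (deriv Ψ) s := by
  obtain ⟨h1, h2, -, -⟩ := profG_hasDeriv h hs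
  have hev : deriv (fun t => Ψ t ^ 2) =ᶠ[𝓝 s] fun t => 2 * Ψ t * deriv Ψ t := by
    filter_upwards [isOpen_Ioi.mem_nhds hs] with t ht using profG_deriv_Phi h ht
  rw [hev.deriv_eq]
  have h' : HasDerivAt (fun t => 2 * Ψ t * deriv Ψ t)
      (2 * (deriv Ψ s) ^ 2 + 2 * Ψ s * deriv (deriv Ψ) s) s :=
    ((h1.const_mul 2).mul h2).congr_deriv (by ring)
  exact h'.deriv

/-- first derivative of `G = (V/Ψ)^(k+4)` -/
lemma profG_deriv_G (h : IsProfileG k Ψ V (Ioi (-ε))) {s : ℝ} (hs : s ∈ Ioi (-ε)) :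
    deriv (fun t => (V t / Ψ t) ^ (k + 4)) s
      = ((k : ℝ) + 4) * (V s / Ψ s) ^ (k + 3)
          * ((deriv V s * Ψ s - V s * deriv Ψ s) / Ψ s ^ 2) := by
  obtain ⟨h1, -, h3, -⟩ := profG_hasDeriv h hs
  have hΨ := (h.posΨ s hs).ne'
  have h' : HasDerivAt (fun t => (V t / Ψ t) ^ (k + 4))
      (((k : ℝ) + 4) * (V s / Ψ s) ^ (k + 3)
          * ((deriv V s * Ψ s - V s * deriv Ψ s) / Ψ s ^ 2)) s :=
    ((h3.div h1 hΨ).pow (k + 4)).congr_deriv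
      (by rw [show k + 4 - 1 = k + 3 from rfl]; simp only [Pi.div_apply]; push_cast; ring)
  exact h'.deriv

/-- second derivative of `G = (V/Ψ)^(k+4)` -/
lemma profG_deriv2_G (h : IsProfileG k Ψ V (Ioi (-ε))) {s : ℝ} (hs : s ∈ Ioi (-ε)) :
    deriv (deriv (fun t => (V t / Ψ t) ^ (k + 4))) s
      = ((k : ℝ) + 4) * ((k : ℝ) + 3) * (V s / Ψ s) ^ (k + 2)
            * ((deriv V s * Ψ s - V s * deriv Ψ s) / Ψ s ^ 2) ^ 2
        + ((k : ℝ) + 4) * (V s / Ψ s) ^ (k + 3) *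
          ((deriv (deriv V) s * Ψ s - V s * deriv (deriv Ψ) s) / Ψ s ^ 2
            - 2 * deriv Ψ s * (deriv V s * Ψ s - V s * deriv Ψ s) / Ψ s ^ 3) := by
  obtain ⟨h1, h2, h3, h4⟩ := profG_hasDeriv h hs
  have hΨ := (h.posΨ s hs).ne'
  have hev : deriv (fun t => (V t / Ψ t) ^ (k + 4)) =ᶠ[𝓝 s]
      fun t => ((k : ℝ) + 4) * (V t / Ψ t) ^ (k + 3)
          * ((deriv V t * Ψ t - V t * deriv Ψ t) / Ψ t ^ 2) := by
    filter_upwards [isOpen_Ioi.mem_nhds hs] with t ht using profG_deriv_G h ht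
  rw [hev.deriv_eq]
  have hA : HasDerivAt (fun t => ((k : ℝ) + 4) * (V t / Ψ t) ^ (k + 3))
      (((k : ℝ) + 4) * (((k : ℝ) + 3) * (V s / Ψ s) ^ (k + 2)
          * ((deriv V s * Ψ s - V s * deriv Ψ s) / Ψ s ^ 2))) s := by
    exact (((h3.div h1 hΨ).pow (k + 3)).const_mul ((k : ℝ) + 4)).congr_deriv
      (by rw [show k + 3 - 1 = k + 2 from rfl]; simp only [Pi.div_apply]; push_cast; ring)
  have hB : HasDerivAt (fun t => (deriv V t * Ψ t - V t * deriv Ψ t) / Ψ t ^ 2)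
      (((deriv (deriv V) s * Ψ s + deriv V s * deriv Ψ s
          - (deriv V s * deriv Ψ s + V s * deriv (deriv Ψ) s)) * Ψ s ^ 2
          - (deriv V s * Ψ s - V s * deriv Ψ s) * (2 * Ψ s * deriv Ψ s)) / (Ψ s ^ 2) ^ 2) s := by
    have hn := (h4.mul h1).sub (h3.mul h2)
    have hd : HasDerivAt (fun t => Ψ t ^ 2) (2 * Ψ s * deriv Ψ s) s :=
      (h1.pow 2).congr_deriv (by norm_num)
    exact hn.div hd (pow_ne_zero 2 hΨ)
  have h' := hA.mul hB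
  have h'' : HasDerivAt
      (fun t => ((k : ℝ) + 4) * (V t / Ψ t) ^ (k + 3)
          * ((deriv V t * Ψ t - V t * deriv Ψ t) / Ψ t ^ 2))
      (((k : ℝ) + 4) * ((k : ℝ) + 3) * (V s / Ψ s) ^ (k + 2)
            * ((deriv V s * Ψ s - V s * deriv Ψ s) / Ψ s ^ 2) ^ 2
        + ((k : ℝ) + 4) * (V s / Ψ s) ^ (k + 3) *
          ((deriv (deriv V) s * Ψ s - V s * deriv (deriv Ψ) s) / Ψ s ^ 2
            - 2 * deriv Ψ s * (deriv V s * Ψ s - V s * deriv Ψ s) / Ψ s ^ 3)) s := by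
    refine h'.congr_deriv ?_
    field_simp
    ring
  exact h''.deriv

lemma profG_R_pos (h : IsProfileG k Ψ V (Ioi (-ε))) {s : ℝ} (hs : s ∈ Ioi (-ε)) :
    0 < deriv Ψ s + 2 * s * deriv (deriv Ψ) s := by
  have h1 := h.eq1 s hs
  unfold Eq1G at h1
  have hP := h.posD s hs
  have hV := h.posV s hs
  have hΨ := h.posΨ s hs
  by_contra hcon
  have hcon' : deriv Ψ s + 2 * s * deriv (deriv Ψ) s ≤ 0 := not_lt.mp hcon
  have : (deriv Ψ s) ^ (k + 1) * (deriv Ψ s + 2 * s * deriv (deriv Ψ) s) * (V s) ^ (k + 5)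
      ≤ 0 := by
    have h9 : 0 < (deriv Ψ s) ^ (k + 1) := by positivity
    have h13 : 0 < (V s) ^ (k + 5) := by positivity
    have := mul_nonpos_of_nonneg_of_nonpos h9.le hcon'
    exact mul_nonpos_of_nonpos_of_nonneg this h13.le
  linarith

lemma contDiffOn_PhiG (h : IsProfileG k Ψ V (Ioi (-ε))) :
    ContDiffOn ℝ ∞ (fun t => Ψ t ^ 2) (Ioi (-ε)) :=
  h.smoothΨ.pow 2

lemma contDiffOn_GG (h : IsProfileG k Ψ V (Ioi (-ε))) :
    ContDiffOn ℝ ∞ (fun t => (V t / Ψ t) ^ (k + 4)) (Ioi (-ε)) :=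
  (h.smoothV.div h.smoothΨ (fun s hs => (h.posΨ s hs).ne')).pow (k + 4)

lemma contDiffOn_cGG (h : IsProfileG k Ψ V (Ioi (-ε))) :
    ContDiffOn ℝ ∞ (fun t => cZeroG k * (V t / Ψ t) ^ (k + 4)) (Ioi (-ε)) :=
  contDiffOn_const.mul (contDiffOn_GG h)

end profile

lemma contDiffOn_inv_IoiG : ContDiffOn ℝ ∞ (fun y : ℝ => y⁻¹) (Ioi 0) :=
  (contDiffOn_inv ℝ).mono (fun y hy => by simpa using (ne_of_gt hy))

lemma deriv_inv_funG {y : ℝ} : deriv (fun y : ℝ => y⁻¹) y = -(y ^ 2)⁻¹ := by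
  simp

lemma deriv2_inv_funG {y : ℝ} (hy : 0 < y) :
    deriv (deriv (fun y : ℝ => y⁻¹)) y = 2 / y ^ 3 := by
  have hev : deriv (fun y : ℝ => y⁻¹) = fun y => -(y ^ 2)⁻¹ := by
    funext t; simp
  rw [hev]
  have h1 : HasDerivAt (fun t : ℝ => t ^ 2) (2 * y) y := by
    simpa using hasDerivAt_pow 2 y
  have h2 : HasDerivAt (fun t : ℝ => -(t ^ 2)⁻¹) (2 / y ^ 3) y := by
    refine ((h1.inv (pow_ne_zero 2 hy.ne')).neg).congr_deriv ?_
    field_simp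
  exact h2.deriv

lemma deriv_powG (k : ℕ) {y : ℝ} :
    deriv (fun y : ℝ => y ^ (k + 4)) y = ((k : ℝ) + 4) * y ^ (k + 3) := by
  have h2 : HasDerivAt (fun t : ℝ => t ^ (k + 4)) (((k : ℝ) + 4) * y ^ (k + 3)) y := by
    refine (hasDerivAt_pow (k + 4) y).congr_deriv ?_
    rw [show k + 4 - 1 = k + 3 from rfl]
    push_cast
    ring
  exact h2.deriv

lemma deriv2_powG (k : ℕ) {y : ℝ} :
    deriv (deriv (fun y : ℝ => y ^ (k + 4))) y
      = ((k : ℝ) + 4) * ((k : ℝ) + 3) * y ^ (k + 2) := by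
  have hev : deriv (fun y : ℝ => y ^ (k + 4)) = fun y => ((k : ℝ) + 4) * y ^ (k + 3) := by
    funext t; exact deriv_powG k
  rw [hev]
  have h2 : HasDerivAt (fun t : ℝ => ((k : ℝ) + 4) * t ^ (k + 3))
      (((k : ℝ) + 4) * ((k : ℝ) + 3) * y ^ (k + 2)) y := by
    refine ((hasDerivAt_pow (k + 3) y).const_mul ((k : ℝ) + 4)).congr_deriv ?_
    rw [show k + 3 - 1 = k + 2 from rfl]
    push_cast
    ring
  exact h2.deriv

section main

variable {k : ℕ} {ε : ℝ} {Ψ V : ℝ → ℝ}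

lemma two_le_infty : (2 : WithTop ℕ∞) ≤ ∞ :=
  WithTop.coe_le_coe.mpr (le_top (a := (2 : ℕ∞)))

lemma sqG_mem (hε : 0 < ε) {m : ℕ} (x : Fin (m + 1) → ℝ) : sqG x ∈ Ioi (-ε) := by
  have := sqG_nonneg x
  simp only [mem_Ioi]
  linarith

/-- derivatives of a constant multiple of a smooth function on an open interval -/
lemma deriv_const_mul_smooth {F : ℝ → ℝ} (hF : ContDiffOn ℝ ∞ F (Ioi (-ε))) (c : ℝ) {s : ℝ}
    (hs : s ∈ Ioi (-ε)) :
    deriv (fun t => c * F t) s = c * deriv F s ∧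
    deriv (deriv (fun t => c * F t)) s = c * deriv (deriv F) s := by
  have hI : IsOpen (Ioi (-ε)) := isOpen_Ioi
  have h1 : ∀ t ∈ Ioi (-ε), DifferentiableAt ℝ F t := fun t ht =>
    (hF.differentiableOn (by simp)).differentiableAt (hI.mem_nhds ht)
  have h3 : ContDiffOn ℝ ∞ (deriv F) (Ioi (-ε)) := hF.deriv_of_isOpen hI (by simp)
  have h5 : DifferentiableAt ℝ (deriv F) s :=
    (h3.differentiableOn (by simp)).differentiableAt (hI.mem_nhds hs)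
  have e1 : ∀ t ∈ Ioi (-ε), deriv (fun t => c * F t) t = c * deriv F t := fun t ht =>
    ((h1 t ht).hasDerivAt.const_mul c).deriv
  refine ⟨e1 s hs, ?_⟩
  have hev : deriv (fun t => c * F t) =ᶠ[𝓝 s] fun t => c * deriv F t := by
    filter_upwards [hI.mem_nhds hs] with t ht using e1 t ht
  rw [hev.deriv_eq]
  exact (h5.hasDerivAt.const_mul c).deriv

/-- The Hessian of the example. -/
theorem hess_uG (hε : 0 < ε) (h : IsProfileG k Ψ V (Ioi (-ε))) {x : Fin (k + 2 + 1) → ℝ}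
    (hx : 0 < ycG x) :
    hess (uG (k + 2) Ψ) x = bmat (xpG x)
      (2 * Ψ (sqG x) * deriv Ψ (sqG x) / ycG x)
      ((2 * (deriv Ψ (sqG x)) ^ 2 + 2 * Ψ (sqG x) * deriv (deriv Ψ) (sqG x)) / ycG x)
      (-(2 * Ψ (sqG x) * deriv Ψ (sqG x)) / (ycG x) ^ 2)
      (2 * (Ψ (sqG x)) ^ 2 / (ycG x) ^ 3) := by
  have hs := sqG_mem hε x
  have key := hess_fgG (m := k + 2) hε (f := fun s => Ψ s ^ 2) (g := fun y => y⁻¹)
    ((contDiffOn_PhiG h).of_le two_le_infty) (contDiffOn_inv_IoiG.of_le two_le_infty) hx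
  unfold uG
  rw [key, profG_deriv_Phi h hs, profG_deriv2_Phi h hs, deriv_inv_funG, deriv2_inv_funG hx]
  have hy := hx.ne'
  congr 1
  · field_simp
  · field_simp

/-- positivity data at a point of the half-space -/
lemma profG_pos_at (hε : 0 < ε) (h : IsProfileG k Ψ V (Ioi (-ε))) {m : ℕ} (x : Fin (m + 1) → ℝ) :
    0 < Ψ (sqG x) ∧ 0 < deriv Ψ (sqG x) ∧ 0 < V (sqG x) ∧
      0 < deriv Ψ (sqG x) + 2 * sqG x * deriv (deriv Ψ) (sqG x) :=
  ⟨h.posΨ _ (sqG_mem hε x), h.posD _ (sqG_mem hε x), h.posV _ (sqG_mem hε x),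
    profG_R_pos h (sqG_mem hε x)⟩

/-- The Hessian of the example is positive definite on the half-space. -/
theorem posDef_uG (hε : 0 < ε) (h : IsProfileG k Ψ V (Ioi (-ε))) {x : Fin (k + 2 + 1) → ℝ}
    (hx : 0 < ycG x) : (hess (uG (k + 2) Ψ) x).PosDef := by
  rw [hess_uG hε h hx]
  obtain ⟨hΨ, hP, hV, hR⟩ := profG_pos_at hε h x
  have hs0 := sqG_nonneg x
  have hq := sum_xpG_sq x
  generalize sqG x = s at *
  generalize ycG x = y at *
  generalize hPdef : deriv Ψ s = P at *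
  generalize hP2def : deriv (deriv Ψ) s = P₂ at *
  generalize hΨdef : Ψ s = Ψs at *
  obtain ⟨R, hRdef⟩ : ∃ R, R = P + 2 * s * P₂ := ⟨_, rfl⟩
  rw [← hRdef] at hR
  have e1 : 2 * Ψs * P / y + (2 * P ^ 2 + 2 * Ψs * P₂) / y * (2 * s)
      = (2 * Ψs * R + 4 * s * P ^ 2) / y := by
    rw [hRdef]; field_simp; ring
  have e2 := scalar_deltaG s y Ψs P P₂ hx
  rw [← hRdef] at e2
  apply bmat_posDef
  · positivity
  · rw [hq, e1]
    positivity
  · rw [hq, e2]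
    positivity

/-- The determinant of the Hessian of the example. -/
theorem det_uG (hε : 0 < ε) (h : IsProfileG k Ψ V (Ioi (-ε))) {x : Fin (k + 2 + 1) → ℝ}
    (hx : 0 < ycG x) :
    (hess (uG (k + 2) Ψ) x).det
      = 2 ^ (k + 3) * (Ψ (sqG x) / (V (sqG x) * ycG x)) ^ (k + 5) := by
  rw [hess_uG hε h hx]
  obtain ⟨hΨ, hP, hV, hR⟩ := profG_pos_at hε h x
  have h1 := h.eq1 _ (sqG_mem hε x)
  unfold Eq1G at h1
  have hα : 2 * Ψ (sqG x) * deriv Ψ (sqG x) / ycG x ≠ 0 := by positivity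
  have hc : 2 * Ψ (sqG x) ^ 2 / ycG x ^ 3 ≠ 0 := by positivity
  rw [bmat_det (n := k + 1) (xpG x) _ _ _ _ hα hc, sum_xpG_sq,
    scalar_deltaG (sqG x) (ycG x) (Ψ (sqG x)) (deriv Ψ (sqG x)) (deriv (deriv Ψ) (sqG x)) hx]
  exact scalar_detG k (sqG x) (ycG x) (Ψ (sqG x)) (deriv Ψ (sqG x)) (deriv (deriv Ψ) (sqG x))
    (V (sqG x)) hx hΨ hP hV h1

/-- The function `w = (det D²u)^(-(n+1)/(n+2))` of the example, on the half-space. -/
theorem amW_uG (hε : 0 < ε) (h : IsProfileG k Ψ V (Ioi (-ε))) {x : Fin (k + 2 + 1) → ℝ}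
    (hx : 0 < ycG x) :
    amW (uG (k + 2) Ψ) x
      = (fun s => cZeroG k * (V s / Ψ s) ^ (k + 4)) (sqG x) * (fun y => y ^ (k + 4)) (ycG x) := by
  obtain ⟨hΨ, hP, hV, hR⟩ := profG_pos_at hε h x
  unfold amW
  rw [det_uG hε h hx]
  have e : (-(((k + 2 + 1 : ℕ) : ℝ) + 1) / (((k + 2 + 1 : ℕ) : ℝ) + 2))
      = -((k : ℝ) + 4) / ((k : ℝ) + 5) := by
    push_cast; ring
  rw [e, rpow_det_auxG k (t := Ψ (sqG x) / (V (sqG x) * ycG x)) (by positivity)]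
  simp only
  rw [inv_div, mul_assoc, ← mul_pow]
  congr 2
  field_simp

/-- The Hessian of `w` for the example. -/
theorem hess_wG (hε : 0 < ε) (h : IsProfileG k Ψ V (Ioi (-ε))) {x : Fin (k + 2 + 1) → ℝ}
    (hx : 0 < ycG x) :
    hess (amW (uG (k + 2) Ψ)) x = bmat (xpG x)
      (cZeroG k * deriv (fun t => (V t / Ψ t) ^ (k + 4)) (sqG x) * (ycG x) ^ (k + 4))
      (cZeroG k * deriv (deriv (fun t => (V t / Ψ t) ^ (k + 4))) (sqG x) * (ycG x) ^ (k + 4))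
      (cZeroG k * deriv (fun t => (V t / Ψ t) ^ (k + 4)) (sqG x)
        * (((k : ℝ) + 4) * (ycG x) ^ (k + 3)))
      (cZeroG k * (V (sqG x) / Ψ (sqG x)) ^ (k + 4)
        * (((k : ℝ) + 4) * ((k : ℝ) + 3) * (ycG x) ^ (k + 2))) := by
  have hs := sqG_mem hε x
  have hloc : Set.EqOn (amW (uG (k + 2) Ψ))
      (fun z => (fun s => cZeroG k * (V s / Ψ s) ^ (k + 4)) (sqG z)
        * (fun y => y ^ (k + 4)) (ycG z)) (halfG (k + 2)) :=
    fun z hz => amW_uG hε h hz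
  rw [hess_eqOnG (isOpen_halfG (k + 2)) hloc hx]
  have key := hess_fgG (m := k + 2) hε (f := fun s => cZeroG k * (V s / Ψ s) ^ (k + 4))
    (g := fun y => y ^ (k + 4))
    ((contDiffOn_cGG h).of_le two_le_infty)
    ((contDiff_id.pow (k + 4)).contDiffOn.of_le two_le_infty) hx
  obtain ⟨d1, d2⟩ := deriv_const_mul_smooth (contDiffOn_GG h) (cZeroG k) hs
  rw [key, d1, d2, deriv_powG, deriv2_powG]

/-- The affine maximal operator of the example vanishes on the half-space. -/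
theorem amOp_uG (hε : 0 < ε) (h : IsProfileG k Ψ V (Ioi (-ε))) {x : Fin (k + 2 + 1) → ℝ}
    (hx : 0 < ycG x) : amOp (uG (k + 2) Ψ) x = 0 := by
  have hs := sqG_mem hε x
  obtain ⟨hΨ, hP, hV, hR⟩ := profG_pos_at hε h x
  have h1 := h.eq1 _ hs
  have h2 := h.eq2 _ hs
  unfold Eq1G at h1
  unfold Eq2G at h2
  have hW : ∀ i j, pd i (pd j (amW (uG (k + 2) Ψ))) x = (hess (amW (uG (k + 2) Ψ)) x) i j :=
    fun i j => rfl
  unfold amOp
  simp only [hW]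
  rw [hess_wG hε h hx, hess_uG hε h hx, profG_deriv_G h hs, profG_deriv2_G h hs]
  have hα : 2 * Ψ (sqG x) * deriv Ψ (sqG x) / ycG x ≠ 0 := by positivity
  have hΔpos : 0 < (2 * Ψ (sqG x) * deriv Ψ (sqG x) / ycG x
      + (2 * deriv Ψ (sqG x) ^ 2 + 2 * Ψ (sqG x) * deriv (deriv Ψ) (sqG x)) / ycG x
        * ∑ i, xpG x i ^ 2) * (2 * Ψ (sqG x) ^ 2 / ycG x ^ 3)
      - (-(2 * Ψ (sqG x) * deriv Ψ (sqG x)) / ycG x ^ 2) ^ 2 * ∑ i, xpG x i ^ 2 := by
    rw [sum_xpG_sq, scalar_deltaG (sqG x) (ycG x) (Ψ (sqG x)) (deriv Ψ (sqG x))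
      (deriv (deriv Ψ) (sqG x)) hx]
    positivity
  rw [bmat_inv (xpG x) _ _ _ _ hα hΔpos.ne']
  simp only [Matrix.smul_apply, smul_eq_mul, mul_assoc]
  simp only [← Finset.mul_sum]
  rw [bmat_sum_mul, sum_xpG_sq]
  have key := scalar_bracketG k (sqG x) (ycG x) (Ψ (sqG x)) (deriv Ψ (sqG x))
    (deriv (deriv Ψ) (sqG x)) (V (sqG x)) (deriv V (sqG x)) (deriv (deriv V) (sqG x))
    hx hΨ hP hV h1 h2 _ _ _ _ _ _ _ _ _ _ _ _ _ _ _ _ _ _ _ _
    rfl rfl rfl rfl rfl rfl rfl rfl rfl rfl rfl rfl rfl rfl rfl rfl rfl rfl rfl rfl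
  apply mul_eq_zero_of_right
  have hfac : ∀ A B : ℝ, B = cZeroG k * A → A = 0 → B = 0 := by
    intro A B hB hA; rw [hB, hA, mul_zero]
  refine hfac _ _ ?_ key
  push_cast
  ring

/-- Smoothness of the example on the half-space. -/
theorem contDiffOn_uG (hε : 0 < ε) (h : IsProfileG k Ψ V (Ioi (-ε))) :
    ContDiffOn ℝ ∞ (uG (k + 2) Ψ) (halfG (k + 2)) := by
  unfold uG
  have h1 : ContDiffOn ℝ ∞ (fun x : Fin (k + 2 + 1) → ℝ => Ψ (sqG x) ^ 2) (halfG (k + 2)) := by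
    have := h.smoothΨ.comp (contDiff_sqG.contDiffOn (s := halfG (k + 2)))
      (fun x _ => sqG_mem hε x)
    exact this.pow 2
  have h2 : ContDiffOn ℝ ∞ (fun x : Fin (k + 2 + 1) → ℝ => (ycG x)⁻¹) (halfG (k + 2)) :=
    (contDiff_ycG.contDiffOn).inv (fun x hx => ne_of_gt hx)
  exact h1.mul h2

/-- The graph of the example is closed. -/
theorem closed_graph_uG (hε : 0 < ε) (h : IsProfileG k Ψ V (Ioi (-ε))) :
    IsClosed {p : (Fin (k + 2 + 1) → ℝ) × ℝ | p.1 ∈ halfG (k + 2) ∧ p.2 = uG (k + 2) Ψ p.1} := by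
  have hcont : Continuous (fun p : (Fin (k + 2 + 1) → ℝ) × ℝ => Ψ (sqG p.1)) := by
    have h1 : ContinuousOn Ψ (Ioi (-ε)) := h.smoothΨ.continuousOn
    exact h1.comp_continuous (continuous_sqG.comp continuous_fst) (fun p => sqG_mem hε p.1)
  have hyc : Continuous (fun p : (Fin (k + 2 + 1) → ℝ) × ℝ => ycG p.1) :=
    continuous_ycG.comp continuous_fst
  have hset : {p : (Fin (k + 2 + 1) → ℝ) × ℝ | p.1 ∈ halfG (k + 2) ∧ p.2 = uG (k + 2) Ψ p.1}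
      = {p | p.2 * ycG p.1 = Ψ (sqG p.1) ^ 2} ∩ {p | 0 ≤ ycG p.1} := by
    ext p
    simp only [halfG, uG, Set.mem_ofPred_eq, mem_inter_iff]
    constructor
    · rintro ⟨hy, hp⟩
      refine ⟨?_, hy.le⟩
      rw [hp]
      field_simp
    · rintro ⟨he, hy⟩
      have hΨ := h.posΨ _ (sqG_mem hε p.1)
      have hy' : 0 < ycG p.1 := by
        rcases hy.eq_or_lt with h0 | h0
        · rw [← h0, mul_zero] at he
          have := pow_pos hΨ 2
          linarith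
        · exact h0
      refine ⟨hy', ?_⟩
      field_simp
      linarith
  rw [hset]
  exact (isClosed_eq (continuous_snd.mul hyc) (hcont.pow 2)).inter
    (isClosed_le continuous_const hyc)

/-- PART A: from a profile to the hypersurface. -/
theorem counterexample_of_profileG (k : ℕ) {ε : ℝ} (hε : 0 < ε) {Ψ V : ℝ → ℝ}
    (h : IsProfileG k Ψ V (Ioi (-ε))) : CounterexampleAt (k + 3) :=
  ⟨halfG (k + 2), uG (k + 2) Ψ, isOpen_halfG _, convex_halfG _, halfG_nonempty _,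
    halfG_ne_univ _, contDiffOn_uG hε h, fun _ hx => posDef_uG hε h hx,
    fun _ hx => amOp_uG hε h hx, closed_graph_uG hε h⟩

end main

end Vale.Agent.H68.Prof
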