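import Mathlib

/-!
# The averaging operator `A_j g (s) = ∫_0^1 σ^j g(σ² s) dσ`

Toolkit for the local (two-sided) existence theorem at the regular singular point `s = 0`
of the profile equations of P252: bounds, continuity, differentiation under the integral,
smoothness, and the identity `2 s (A_j g)' + (j+1) A_j g = g`.
-/

namespace Vale.Agent.H68.Prof

open Set MeasureTheory intervalIntegral Topology
open scoped Interval

/-- The averaging operator `A_j g (s) = ∫_0^1 σ^j g(σ² s) dσ`. -/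
noncomputable def avg (j : ℕ) (g : ℝ → ℝ) (s : ℝ) : ℝ :=
  ∫ σ in (0:ℝ)..1, σ ^ j * g (σ ^ 2 * s)

theorem avg_arg_mem_Icc {d s σ : ℝ} (hs : s ∈ Icc (-d) d) (hσ : σ ∈ Icc (0:ℝ) 1) :
    σ ^ 2 * s ∈ Icc (-d) d := by
  have h0 : 0 ≤ σ ^ 2 := sq_nonneg σ
  have h1 : σ ^ 2 ≤ 1 := by nlinarith [hσ.1, hσ.2]
  have hd : 0 ≤ d := by linarith [hs.1, hs.2]
  constructor
  · nlinarith [hs.1, hs.2]
  · nlinarith [hs.1, hs.2]

theorem avg_arg_mem_Ioo {d s σ : ℝ} (hs : s ∈ Ioo (-d) d) (hσ : σ ∈ Icc (0:ℝ) 1) :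
    σ ^ 2 * s ∈ Ioo (-d) d := by
  have h0 : 0 ≤ σ ^ 2 := sq_nonneg σ
  have h1 : σ ^ 2 ≤ 1 := by nlinarith [hσ.1, hσ.2]
  have hd : 0 < d := by linarith [hs.1, hs.2]
  constructor
  · nlinarith [hs.1, hs.2]
  · nlinarith [hs.1, hs.2]

/-- The integrand of `avg` is continuous on `[0,1]`. -/
theorem avg_integrand_continuousOn {d : ℝ} (j : ℕ) {g : ℝ → ℝ} (hg : ContinuousOn g (Icc (-d) d))
    {s : ℝ} (hs : s ∈ Icc (-d) d) :
    ContinuousOn (fun σ : ℝ => σ ^ j * g (σ ^ 2 * s)) (Icc (0:ℝ) 1) := by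
  apply ContinuousOn.mul (continuous_pow j).continuousOn
  apply hg.comp (by fun_prop)
  intro σ hσ
  exact avg_arg_mem_Icc hs hσ

theorem avg_integrable {d : ℝ} (j : ℕ) {g : ℝ → ℝ} (hg : ContinuousOn g (Icc (-d) d))
    {s : ℝ} (hs : s ∈ Icc (-d) d) :
    IntervalIntegrable (fun σ : ℝ => σ ^ j * g (σ ^ 2 * s)) volume 0 1 := by
  apply ContinuousOn.intervalIntegrable
  rw [uIcc_of_le zero_le_one]
  exact avg_integrand_continuousOn j hg hs

theorem avg_const (j : ℕ) (c s : ℝ) : avg j (fun _ => c) s = c / (j + 1) := by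
  unfold avg
  rw [intervalIntegral.integral_mul_const, integral_pow]
  simp
  ring

theorem avg_zero_arg (j : ℕ) (g : ℝ → ℝ) : avg j g 0 = g 0 / (j + 1) := by
  unfold avg
  simp only [mul_zero]
  rw [intervalIntegral.integral_mul_const, integral_pow]
  simp
  ring

/-- `avg` only depends on the values of `g` on the interval. -/
theorem avg_congr {d : ℝ} (j : ℕ) {g h : ℝ → ℝ} (hgh : EqOn g h (Icc (-d) d))
    {s : ℝ} (hs : s ∈ Icc (-d) d) : avg j g s = avg j h s := by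
  unfold avg
  apply intervalIntegral.integral_congr
  intro σ hσ
  rw [uIcc_of_le zero_le_one] at hσ
  simp only
  rw [hgh (avg_arg_mem_Icc hs hσ)]

theorem avg_add {d : ℝ} (j : ℕ) {g h : ℝ → ℝ} (hg : ContinuousOn g (Icc (-d) d))
    (hh : ContinuousOn h (Icc (-d) d)) {s : ℝ} (hs : s ∈ Icc (-d) d) :
    avg j (fun t => g t + h t) s = avg j g s + avg j h s := by
  unfold avg
  rw [← intervalIntegral.integral_add (avg_integrable j hg hs) (avg_integrable j hh hs)]
  apply intervalIntegral.integral_congr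
  intro σ _
  simp only
  ring

theorem avg_sub {d : ℝ} (j : ℕ) {g h : ℝ → ℝ} (hg : ContinuousOn g (Icc (-d) d))
    (hh : ContinuousOn h (Icc (-d) d)) {s : ℝ} (hs : s ∈ Icc (-d) d) :
    avg j (fun t => g t - h t) s = avg j g s - avg j h s := by
  unfold avg
  rw [← intervalIntegral.integral_sub (avg_integrable j hg hs) (avg_integrable j hh hs)]
  apply intervalIntegral.integral_congr
  intro σ _
  simp only
  ring

theorem avg_const_mul (j : ℕ) (c : ℝ) (g : ℝ → ℝ) (s : ℝ) :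
    avg j (fun t => c * g t) s = c * avg j g s := by
  unfold avg
  rw [← intervalIntegral.integral_const_mul]
  apply intervalIntegral.integral_congr
  intro σ _
  simp only
  ring

/-- Monotonicity of `avg`. -/
theorem avg_mono {d : ℝ} (j : ℕ) {g h : ℝ → ℝ} (hg : ContinuousOn g (Icc (-d) d))
    (hh : ContinuousOn h (Icc (-d) d)) (hle : ∀ t ∈ Icc (-d) d, g t ≤ h t)
    {s : ℝ} (hs : s ∈ Icc (-d) d) : avg j g s ≤ avg j h s := by
  unfold avg
  apply intervalIntegral.integral_mono_on zero_le_one (avg_integrable j hg hs)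
    (avg_integrable j hh hs)
  intro σ hσ
  exact mul_le_mul_of_nonneg_left (hle _ (avg_arg_mem_Icc hs hσ)) (pow_nonneg hσ.1 j)

/-- Lower bound for `avg`. -/
theorem le_avg {d : ℝ} (j : ℕ) {g : ℝ → ℝ} (hg : ContinuousOn g (Icc (-d) d)) {c : ℝ}
    (hle : ∀ t ∈ Icc (-d) d, c ≤ g t) {s : ℝ} (hs : s ∈ Icc (-d) d) :
    c / (j + 1) ≤ avg j g s := by
  rw [← avg_const j c s]
  exact avg_mono j continuousOn_const hg hle hs

/-- Upper bound for `avg`. -/
theorem avg_le {d : ℝ} (j : ℕ) {g : ℝ → ℝ} (hg : ContinuousOn g (Icc (-d) d)) {c : ℝ}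
    (hle : ∀ t ∈ Icc (-d) d, g t ≤ c) {s : ℝ} (hs : s ∈ Icc (-d) d) :
    avg j g s ≤ c / (j + 1) := by
  rw [← avg_const j c s]
  exact avg_mono j hg continuousOn_const hle hs

/-- Sup-norm bound for `avg`. -/
theorem abs_avg_le {d : ℝ} (j : ℕ) {g : ℝ → ℝ} (hg : ContinuousOn g (Icc (-d) d)) {M : ℝ}
    (hM : ∀ t ∈ Icc (-d) d, |g t| ≤ M) {s : ℝ} (hs : s ∈ Icc (-d) d) :
    |avg j g s| ≤ M / (j + 1) := by
  rw [abs_le]
  constructor
  · have h := le_avg j hg (c := -M) (fun t ht => (abs_le.1 (hM t ht)).1) hs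
    have e : -M / ((j:ℝ) + 1) = -(M / (j + 1)) := by ring
    linarith
  · exact avg_le j hg (fun t ht => (abs_le.1 (hM t ht)).2) hs

/-- `avg` is Lipschitz in `g` for the sup norm, with constant `1/(j+1)`. -/
theorem abs_avg_sub_avg_le {d : ℝ} (j : ℕ) {g h : ℝ → ℝ} (hg : ContinuousOn g (Icc (-d) d))
    (hh : ContinuousOn h (Icc (-d) d)) {M : ℝ} (hM : ∀ t ∈ Icc (-d) d, |g t - h t| ≤ M)
    {s : ℝ} (hs : s ∈ Icc (-d) d) :
    |avg j g s - avg j h s| ≤ M / (j + 1) := by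
  rw [← avg_sub j hg hh hs]
  exact abs_avg_le j (hg.sub hh) hM hs

/-- `avg j g` is continuous on `[-d, d]` if `g` is. -/
theorem avg_continuousOn {d : ℝ} (j : ℕ) {g : ℝ → ℝ} (hg : ContinuousOn g (Icc (-d) d)) :
    ContinuousOn (avg j g) (Icc (-d) d) := by
  by_cases hd : -d ≤ d
  · -- extend `g` to a globally continuous function
    set G : ℝ → ℝ := IccExtend hd (fun t : Icc (-d) d => g t) with hG
    have hGc : Continuous G := by
      apply Continuous.Icc_extend'
      exact hg.domRestrict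
    have hGg : EqOn g G (Icc (-d) d) := by
      intro t ht
      rw [hG, IccExtend_of_mem _ _ ht]
    have hcont : Continuous (avg j G) := by
      unfold avg
      apply intervalIntegral.continuous_parametric_intervalIntegral_of_continuous'
      have : Continuous (fun p : ℝ × ℝ => p.2 ^ j * G (p.2 ^ 2 * p.1)) := by fun_prop
      exact this
    apply hcont.continuousOn.congr
    intro s hs
    exact avg_congr j hGg hs
  · have : Icc (-d) d = ∅ := Icc_eq_empty hd
    rw [this]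
    exact continuousOn_empty _

/-- Differentiation under the integral sign: `(A_j g)' = A_{j+2} g'`. -/
theorem avg_hasDerivAt {d : ℝ} (j : ℕ) {g : ℝ → ℝ} (hg : ContDiffOn ℝ 1 g (Ioo (-d) d))
    {s : ℝ} (hs : s ∈ Ioo (-d) d) :
    HasDerivAt (avg j g) (avg (j + 2) (deriv g) s) s := by
  -- a smaller closed interval around `s`
  obtain ⟨d', hd's, hd'd⟩ : ∃ d', |s| < d' ∧ d' < d := by
    have : |s| < d := abs_lt.2 ⟨hs.1, hs.2⟩
    exact exists_between this
  have hd'0 : 0 < d' := lt_of_le_of_lt (abs_nonneg s) hd's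
  have hsub : Icc (-d') d' ⊆ Ioo (-d) d := by
    intro t ht
    exact ⟨by linarith [ht.1], by linarith [ht.2]⟩
  have hopen : IsOpen (Ioo (-d) d) := isOpen_Ioo
  have hgc : ContinuousOn g (Icc (-d') d') := (hg.continuousOn).mono hsub
  have hg'c : ContinuousOn (deriv g) (Icc (-d') d') :=
    ((hg.continuousOn_deriv_of_isOpen hopen le_rfl)).mono hsub
  have hgd : ∀ t ∈ Ioo (-d) d, HasDerivAt g (deriv g t) t := by
    intro t ht
    exact ((hg.differentiableOn one_ne_zero).differentiableAt (hopen.mem_nhds ht)).hasDerivAt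
  obtain ⟨M, hM⟩ : ∃ M, ∀ t ∈ Icc (-d') d', |deriv g t| ≤ M := by
    obtain ⟨M, hM⟩ := (isCompact_Icc.image_of_continuousOn hg'c).isBounded.exists_norm_le
    exact ⟨M, fun t ht => hM _ (mem_image_of_mem _ ht)⟩
  have hs' : s ∈ Ioo (-d') d' := ⟨by linarith [(abs_lt.1 hd's).1], (abs_lt.1 hd's).2⟩
  have hnhds : Ioo (-d') d' ∈ 𝓝 s := isOpen_Ioo.mem_nhds hs'
  have hmeasIoc : MeasurableSet (Ι (0:ℝ) 1) := measurableSet_uIoc
  have hIoc : Ι (0:ℝ) 1 ⊆ Icc (0:ℝ) 1 := by
    rw [uIoc_of_le zero_le_one]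
    exact Ioc_subset_Icc_self
  have key := intervalIntegral.hasDerivAt_integral_of_dominated_loc_of_deriv_le
    (μ := volume) (a := 0) (b := 1) (bound := fun _ => M)
    (F := fun (x : ℝ) (σ : ℝ) => σ ^ j * g (σ ^ 2 * x))
    (F' := fun (x : ℝ) (σ : ℝ) => σ ^ (j + 2) * deriv g (σ ^ 2 * x)) (x₀ := s)
    (s := Ioo (-d') d') hnhds ?_ ?_ ?_ ?_ ?_ ?_
  · exact key.2
  · filter_upwards [hnhds] with x hx
    exact ((avg_integrand_continuousOn j hgc (Ioo_subset_Icc_self hx)).mono hIoc).aestronglyMeasurable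
      hmeasIoc
  · exact avg_integrable j hgc (Ioo_subset_Icc_self hs')
  · exact ((avg_integrand_continuousOn (j + 2) hg'c (Ioo_subset_Icc_self hs')).mono
      hIoc).aestronglyMeasurable hmeasIoc
  · apply Filter.Eventually.of_forall
    intro σ hσ x hx
    have hσ' : σ ∈ Icc (0:ℝ) 1 := hIoc hσ
    have hmem := avg_arg_mem_Icc (Ioo_subset_Icc_self hx) hσ'
    rw [Real.norm_eq_abs, abs_mul]
    have h1 : |σ ^ (j + 2)| ≤ 1 := by
      rw [abs_of_nonneg (pow_nonneg hσ'.1 _)]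
      exact pow_le_one₀ hσ'.1 hσ'.2
    calc |σ ^ (j + 2)| * |deriv g (σ ^ 2 * x)| ≤ 1 * M :=
          mul_le_mul h1 (hM _ hmem) (abs_nonneg _) zero_le_one
      _ = M := one_mul M
  · exact intervalIntegrable_const
  · apply Filter.Eventually.of_forall
    intro σ hσ x hx
    have hσ' : σ ∈ Icc (0:ℝ) 1 := hIoc hσ
    have hmem := hsub (avg_arg_mem_Icc (Ioo_subset_Icc_self hx) hσ')
    have h1 : HasDerivAt (fun x : ℝ => σ ^ 2 * x) (σ ^ 2) x := by
      simpa using (hasDerivAt_id x).const_mul (σ ^ 2)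
    have h2 : HasDerivAt (fun x : ℝ => g (σ ^ 2 * x)) (deriv g (σ ^ 2 * x) * σ ^ 2) x :=
      (hgd _ hmem).comp x h1
    have h3 := h2.const_mul (σ ^ j)
    exact h3.congr_deriv (by ring)

theorem avg_deriv {d : ℝ} (j : ℕ) {g : ℝ → ℝ} (hg : ContDiffOn ℝ 1 g (Ioo (-d) d))
    {s : ℝ} (hs : s ∈ Ioo (-d) d) :
    deriv (avg j g) s = avg (j + 2) (deriv g) s :=
  (avg_hasDerivAt j hg hs).deriv

/-- Continuity on the open interval. -/
theorem avg_continuousOn_Ioo {d : ℝ} (j : ℕ) {g : ℝ → ℝ} (hg : ContinuousOn g (Ioo (-d) d)) :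
    ContinuousOn (avg j g) (Ioo (-d) d) := by
  intro s hs
  obtain ⟨d', hd's, hd'd⟩ : ∃ d', |s| < d' ∧ d' < d := by
    have : |s| < d := abs_lt.2 ⟨hs.1, hs.2⟩
    exact exists_between this
  have hsub : Icc (-d') d' ⊆ Ioo (-d) d := by
    intro t ht
    exact ⟨by linarith [ht.1], by linarith [ht.2]⟩
  have hs' : s ∈ Ioo (-d') d' := ⟨by linarith [(abs_lt.1 hd's).1], (abs_lt.1 hd's).2⟩
  have hc := avg_continuousOn j (hg.mono hsub)
  have hat : ContinuousAt (avg j g) s :=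
    (hc s (Ioo_subset_Icc_self hs')).continuousAt (Icc_mem_nhds hs'.1 hs'.2)
  exact hat.continuousWithinAt

/-- Smoothness is preserved by `avg` (finite order). -/
theorem avg_contDiffOn_nat {d : ℝ} (n : ℕ) : ∀ (j : ℕ) {g : ℝ → ℝ},
    ContDiffOn ℝ n g (Ioo (-d) d) → ContDiffOn ℝ n (avg j g) (Ioo (-d) d) := by
  induction n with
  | zero =>
    intro j g hg
    simp only [CharP.cast_eq_zero, contDiffOn_zero] at hg ⊢
    exact avg_continuousOn_Ioo j hg
  | succ n ih =>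
    intro j g hg
    have hopen : IsOpen (Ioo (-d) d) := isOpen_Ioo
    have hg1 : ContDiffOn ℝ 1 g (Ioo (-d) d) := hg.of_le (by
      norm_cast
      omega)
    have hg' : ContDiffOn ℝ n (deriv g) (Ioo (-d) d) := by
      have := (contDiffOn_succ_iff_deriv_of_isOpen (n := (n : WithTop ℕ∞)) hopen).1
        (by exact_mod_cast hg)
      exact this.2.2
    have hmain : ContDiffOn ℝ ((n : WithTop ℕ∞) + 1) (avg j g) (Ioo (-d) d) := by
      rw [contDiffOn_succ_iff_deriv_of_isOpen hopen]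
      refine ⟨?_, ?_, ?_⟩
      · intro s hs
        exact (avg_hasDerivAt j hg1 hs).differentiableAt.differentiableWithinAt
      · intro h
        exact absurd h (by exact_mod_cast WithTop.coe_ne_top)
      · apply (ih (j + 2) hg').congr
        intro s hs
        exact avg_deriv j hg1 hs
    exact_mod_cast hmain

/-- Smoothness is preserved by `avg`. -/
theorem avg_contDiffOn_top {d : ℝ} (j : ℕ) {g : ℝ → ℝ}
    (hg : ContDiffOn ℝ ((⊤ : ℕ∞) : WithTop ℕ∞) g (Ioo (-d) d)) :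
    ContDiffOn ℝ ((⊤ : ℕ∞) : WithTop ℕ∞) (avg j g) (Ioo (-d) d) := by
  rw [contDiffOn_infty]
  intro n
  exact avg_contDiffOn_nat n j (hg.of_le (by exact_mod_cast le_top))

/-- The singular differential equation solved by `avg`:
`2 s (A_j g)'(s) + (j+1) A_j g (s) = g s`. -/
theorem avg_ode {d : ℝ} (j : ℕ) {g : ℝ → ℝ} (hg : ContDiffOn ℝ 1 g (Ioo (-d) d))
    {s : ℝ} (hs : s ∈ Ioo (-d) d) :
    2 * s * deriv (avg j g) s + ((j : ℝ) + 1) * avg j g s = g s := by
  rw [avg_deriv j hg hs]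
  have hopen : IsOpen (Ioo (-d) d) := isOpen_Ioo
  have hgd : ∀ t ∈ Ioo (-d) d, HasDerivAt g (deriv g t) t := by
    intro t ht
    exact ((hg.differentiableOn one_ne_zero).differentiableAt (hopen.mem_nhds ht)).hasDerivAt
  obtain ⟨d', hd's, hd'd⟩ : ∃ d', |s| < d' ∧ d' < d := by
    have : |s| < d := abs_lt.2 ⟨hs.1, hs.2⟩
    exact exists_between this
  have hsub : Icc (-d') d' ⊆ Ioo (-d) d := by
    intro t ht
    exact ⟨by linarith [ht.1], by linarith [ht.2]⟩
  have hs' : s ∈ Icc (-d') d' := ⟨by linarith [(abs_lt.1 hd's).1], (abs_lt.1 hd's).2.le⟩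
  have hgc : ContinuousOn g (Icc (-d') d') := (hg.continuousOn).mono hsub
  have hg'c : ContinuousOn (deriv g) (Icc (-d') d') :=
    ((hg.continuousOn_deriv_of_isOpen hopen le_rfl)).mono hsub
  have hi1 := avg_integrable j hgc hs'
  have hi2 := avg_integrable (j + 2) hg'c hs'
  -- the fundamental theorem of calculus for `σ ↦ σ^(j+1) g(σ² s)`
  have hderiv : ∀ σ ∈ uIcc (0:ℝ) 1, HasDerivAt (fun σ : ℝ => σ ^ (j + 1) * g (σ ^ 2 * s))
      (((j : ℝ) + 1) * (σ ^ j * g (σ ^ 2 * s)) + 2 * s * (σ ^ (j + 2) * deriv g (σ ^ 2 * s))) σ := by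
    intro σ hσ
    rw [uIcc_of_le zero_le_one] at hσ
    have hmem := hsub (avg_arg_mem_Icc hs' hσ)
    have h1 : HasDerivAt (fun σ : ℝ => σ ^ 2 * s) (2 * σ * s) σ := by
      have := (hasDerivAt_pow 2 σ).mul_const s
      simpa using this
    have h2 : HasDerivAt (fun σ : ℝ => g (σ ^ 2 * s)) (deriv g (σ ^ 2 * s) * (2 * σ * s)) σ :=
      (hgd _ hmem).comp σ h1
    have h3 := (hasDerivAt_pow (j + 1) σ).mul h2
    refine HasDerivAt.congr_deriv h3 ?_
    simp only [Nat.add_sub_cancel, Nat.cast_add, Nat.cast_one]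
    ring
  have hint : IntervalIntegrable (fun σ : ℝ =>
      ((j : ℝ) + 1) * (σ ^ j * g (σ ^ 2 * s)) + 2 * s * (σ ^ (j + 2) * deriv g (σ ^ 2 * s)))
      volume 0 1 := (hi1.const_mul _).add (hi2.const_mul _)
  have hftc := intervalIntegral.integral_eq_sub_of_hasDerivAt hderiv hint
  rw [intervalIntegral.integral_add (hi1.const_mul _) (hi2.const_mul _),
    intervalIntegral.integral_const_mul, intervalIntegral.integral_const_mul] at hftc
  unfold avg
  simp only [one_pow, one_mul, ne_eq, Nat.add_eq_zero_iff, one_ne_zero, and_false,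
    not_false_eq_true, zero_pow, zero_mul, sub_zero] at hftc
  linarith

end Vale.Agent.H68.Prof
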