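import Vale.Agent.H68.P252.B2Defs

/-!
# P252, part B2, row B2-BETA: the invariant `Ψ / (V^(k+5) Ψ'^(k+2)) = b`

If `(a, b, r)` solves the reduced system on `(0, ∞)` and `Ψr, Vr > 0` solve the quadratures
`Ψr' = a / (2 s) * Ψr`, `Vr' = -(r b) / (2 (k+4) s) * Vr`, then the identity
`b * (Vr^(k+5) * (a / (2 s) * Ψr)^(k+2)) = Ψr` propagates from `s0` to all of `(0, ∞)`.

Proof sketch (`m = k + 2`).  On `(0, ∞)` let
`g = log Ψr - log b - (k+5) log Vr - (k+2) log (a / (2 s) * Ψr)`.  Its derivative is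
`a/(2s) - fB m a b r/(2 s b) + (k+5) r b/(2 (k+4) s) - (k+2) (fA a b/(2 s a) - 1/s + a/(2s))`
`= (1/(2s)) [a - (m + a - b (m - (m+3) r/(m+2))) + (m+3) r b/(m+2) - m (b - 1)] = 0`.
So `g` is constant on the interval `(0, ∞)` (zero derivative on a convex open set), and
`g s0 = 0` by `hcomp`; exponentiate.
-/

namespace Vale.Agent.H68.Prof

/-- Row B2-BETA helper: the quotient `b Vr^(k+5) (a/(2s) Ψr)^(k+2) / Ψr` has zero derivative. -/
lemma b2beta_deriv (k : ℕ) {a b r Ψr Vr : ℝ → ℝ} {s : ℝ} (hs : 0 < s)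
    (habr : AbrAt ((k : ℝ) + 2) a b r s)
    (hb : 0 < b s) (hΨpos : 0 < Ψr s)
    (hΨ : HasDerivAt Ψr (a s / (2 * s) * Ψr s) s)
    (hV : HasDerivAt Vr (-(r s * b s) / (2 * ((k : ℝ) + 4) * s) * Vr s) s) :
    HasDerivAt (fun t => b t * (Vr t ^ (k + 5) * (a t / (2 * t) * Ψr t) ^ (k + 2)) / Ψr t) 0 s := by
  obtain ⟨hA, hB, -⟩ := habr
  have hs0 : s ≠ 0 := hs.ne'
  have h2s : 2 * s ≠ 0 := by positivity
  have hk4 : (k : ℝ) + 4 ≠ 0 := by positivity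
  have hY : Ψr s ≠ 0 := hΨpos.ne'
  have hbne : b s ≠ 0 := hb.ne'
  -- derivative of `a t / (2 t) * Ψr t`
  have hid : HasDerivAt (fun t : ℝ => 2 * t) 2 s := by
    simpa using (hasDerivAt_id s).const_mul (2 : ℝ)
  have hq := hA.div hid h2s
  have hP := hq.mul hΨ
  have hP' : HasDerivAt (fun t => a t / (2 * t) * Ψr t)
      (a s / (2 * s) * Ψr s * ((b s - 1) / (2 * s))) s := by
    refine hP.congr_deriv ?_
    simp only [Pi.div_apply]
    unfold fA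
    field_simp
    ring
  have hPk := hP'.pow (k + 2)
  have hVk := hV.pow (k + 5)
  have hN := hB.mul (hVk.mul hPk)
  have hQ := hN.div hΨ hY
  refine hQ.congr_deriv ?_
  simp only [Pi.mul_apply, Pi.pow_apply]
  unfold fB
  generalize hPv : a s / (2 * s) * Ψr s = Pv
  have hPv' : a s * Ψr s = 2 * s * Pv := by
    rw [← hPv]
    field_simp
  have e5 : Vr s ^ (k + 5) = Vr s ^ (k + 4) * Vr s := pow_succ _ _
  have e2 : Pv ^ (k + 2) = Pv ^ (k + 1) * Pv := pow_succ _ _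
  push_cast
  rw [e5, e2]
  field_simp
  linear_combination (b s * Vr s ^ (k + 4) * Vr s * Pv ^ (k + 1) * Pv * ((k : ℝ) + 4) ^ 2) * hPv'

theorem beta_eq_b (k : ℕ) {a b r Ψr Vr : ℝ → ℝ}
    (habr : ∀ s, 0 < s → AbrAt ((k : ℝ) + 2) a b r s)
    (hapos : ∀ s, 0 < s → 0 < a s) (hbpos : ∀ s, 0 < s → 0 < b s)
    (hΨpos : ∀ s, 0 < s → 0 < Ψr s) (hVpos : ∀ s, 0 < s → 0 < Vr s)
    (hΨ : ∀ s, 0 < s → HasDerivAt Ψr (a s / (2 * s) * Ψr s) s)
    (hV : ∀ s, 0 < s →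
      HasDerivAt Vr (-(r s * b s) / (2 * ((k : ℝ) + 4) * s) * Vr s) s)
    {s0 : ℝ} (hs0 : 0 < s0)
    (hcomp : b s0 * (Vr s0 ^ (k + 5) * (a s0 / (2 * s0) * Ψr s0) ^ (k + 2)) = Ψr s0) :
    ∀ s, 0 < s → b s * (Vr s ^ (k + 5) * (a s / (2 * s) * Ψr s) ^ (k + 2)) = Ψr s := by
  intro s hs
  have _h1 := hapos
  have _h2 := hVpos
  have hconst := isOpen_Ioi.is_const_of_deriv_eq_zero (s := Set.Ioi (0 : ℝ))
    (f := fun t => b t * (Vr t ^ (k + 5) * (a t / (2 * t) * Ψr t) ^ (k + 2)) / Ψr t)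
    isPreconnected_Ioi
    (fun t ht => (b2beta_deriv k ht (habr t ht) (hbpos t ht) (hΨpos t ht) (hΨ t ht)
      (hV t ht)).differentiableAt.differentiableWithinAt)
    (fun t ht => (b2beta_deriv k ht (habr t ht) (hbpos t ht) (hΨpos t ht) (hΨ t ht)
      (hV t ht)).deriv)
    (Set.mem_Ioi.mpr hs) (Set.mem_Ioi.mpr hs0)
  have h1 : b s0 * (Vr s0 ^ (k + 5) * (a s0 / (2 * s0) * Ψr s0) ^ (k + 2)) / Ψr s0 = 1 := by
    rw [hcomp]
    exact div_self (hΨpos s0 hs0).ne'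
  have h2 : b s * (Vr s ^ (k + 5) * (a s / (2 * s) * Ψr s) ^ (k + 2)) / Ψr s = 1 :=
    hconst.trans h1
  exact (div_eq_one_iff_eq (hΨpos s hs).ne').mp h2

end Vale.Agent.H68.Prof
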