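import Vale.Agent.H68.P252.B2Defs
import Vale.Agent.H68.P252.AbrGlobal

/-!
# P252, part B2: the global solution of the reduced system in the invariant box

A wrapper around the ODE core `abr_global` (`AbrGlobal.lean`) in the vocabulary of `B2Defs.lean`.
(The final assembly `GlobalG.lean` uses `abr_extend_weak` directly; this file is kept only so that
the interface recorded by the stub is proved.)
-/

namespace Vale.Agent.H68.Prof

theorem abr_core (k : ℕ) (hk : 8 ≤ k) {s0 a0 b0 r0 : ℝ} (hs0 : 0 < s0)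
    (ha : 0 < a0 ∧ a0 < 69 / 20) (hb : 0 < b0 ∧ b0 < 12 / 5) (hr : 0 < r0 ∧ r0 < 4) :
    ∃ a b r : ℝ → ℝ, a s0 = a0 ∧ b s0 = b0 ∧ r s0 = r0 ∧
      (∀ s, s0 ≤ s → 0 < a s ∧ 0 < b s) ∧
      (∀ s, s0 ≤ s →
        HasDerivWithinAt a (fA (a s) (b s) / (2 * s)) (Set.Ici s0) s ∧
        HasDerivWithinAt b (fB ((k : ℝ) + 2) (a s) (b s) (r s) / (2 * s)) (Set.Ici s0) s ∧
        HasDerivWithinAt r (fR ((k : ℝ) + 2) (a s) (b s) (r s) / (2 * s)) (Set.Ici s0) s) := by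
  have hkR : (10 : ℝ) ≤ (k : ℝ) + 2 := by
    have : (8 : ℝ) ≤ (k : ℝ) := by exact_mod_cast hk
    linarith
  obtain ⟨a, b, r, e1, e2, e3, hbox, hder, -, -, -⟩ := abr_global hkR hs0 ha hb hr
  refine ⟨a, b, r, e1, e2, e3, fun s hs => ⟨(hbox s hs).1, (hbox s hs).2.2.1⟩, fun s hs => ?_⟩
  obtain ⟨d1, d2, d3⟩ := hder s hs
  exact ⟨d1.hasDerivWithinAt, d2.hasDerivWithinAt, d3.hasDerivWithinAt⟩

end Vale.Agent.H68.Prof
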