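import Vale.Agent.H68.P252.DefsG

/-!
# P252, part B2 (global continuation of the profile): shared definitions

`m = k + 2`.  For a profile `(Ψ, V)` and `s > 0` the scale-invariant quantities

`a = 2 s Ψ' / Ψ`,  `b = Ψ / (V^(m+3) Ψ'^m)`,  `ρ = -2 (m+2) s V' / (V b)`

solve the reduced system

`2 s a' = a (1 + b - a)`,
`2 s b' = b (m + a - b (m - (m+3) ρ / (m+2)))`,
`2 s ρ' = (m + 2 - ρ) (a + b ρ / (m+2)) - (m - 1) ρ`.
-/

namespace Vale.Agent.H68.Prof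

/-- `a = 2 s Ψ' / Ψ`. -/
noncomputable def aOf (Ψ : ℝ → ℝ) (t : ℝ) : ℝ := 2 * t * deriv Ψ t / Ψ t

/-- `b = Ψ / (V^(m+3) Ψ'^m)` with `m = k + 2`. -/
noncomputable def bOf (k : ℕ) (Ψ V : ℝ → ℝ) (t : ℝ) : ℝ :=
  Ψ t / (V t ^ (k + 5) * deriv Ψ t ^ (k + 2))

/-- `ρ = -2 (m+2) s V' / (V b)` with `m = k + 2`. -/
noncomputable def rOf (k : ℕ) (Ψ V : ℝ → ℝ) (t : ℝ) : ℝ :=
  -(2 * ((k : ℝ) + 4) * t * deriv V t) / (V t * bOf k Ψ V t)

/-- First component of the reduced field. -/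
noncomputable def fA (a b : ℝ) : ℝ := a * (1 + b - a)

/-- Second component of the reduced field. -/
noncomputable def fB (m a b r : ℝ) : ℝ := b * (m + a - b * (m - (m + 3) * r / (m + 2)))

/-- Third component of the reduced field. -/
noncomputable def fR (m a b r : ℝ) : ℝ := (m + 2 - r) * (a + b * r / (m + 2)) - (m - 1) * r

/-- `(a, b, r)` solves the reduced system `2 s y' = f y` at `s` (two-sided derivatives). -/
def AbrAt (m : ℝ) (a b r : ℝ → ℝ) (s : ℝ) : Prop :=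
  HasDerivAt a (fA (a s) (b s) / (2 * s)) s ∧
  HasDerivAt b (fB m (a s) (b s) (r s) / (2 * s)) s ∧
  HasDerivAt r (fR m (a s) (b s) (r s) / (2 * s)) s

end Vale.Agent.H68.Prof
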