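import Vale.Agent.H68.P252.B2Defs

/-!
# P252, part B2, row B2-GLUE: gluing two solutions of the reduced system, and smoothness

A solution `(a1, b1, r1)` on `(0, s0]` and a solution `(a2, b2, r2)` on `[s0, ∞)` (derivatives
within `Ici s0`) with the same values at `s0` glue to a solution on `(0, ∞)`, which is smooth.

Proof sketch.  `a s = if s ≤ s0 then a1 s else a2 s`, same for `b, r`.
* `0 < s < s0`: the glued functions agree with `(a1, b1, r1)` near `s`.
* `s0 < s`: they agree with `(a2, b2, r2)` near `s`, and `Ici s0` is a neighbourhood of `s`.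
* `s = s0`: `HasDerivWithinAt` on `Iic s0` from the first triple, on `Ici s0` from the second,
  same derivative value (the values at `s0` agree); `Iic s0 ∪ Ici s0 = univ`
  (`HasDerivWithinAt.union`).
* Smoothness on `Ioi 0` by induction on `n`: all three are `C^n` ⟹ their derivatives
  `f(a, b, r) / (2 s)` are `C^n` on `Ioi 0` ⟹ all three are `C^(n+1)`
  (`contDiffOn_succ_iff_deriv_of_isOpen`); then `contDiffOn_infty` / `contDiffOn_iff_forall_nat_le`.
-/

namespace Vale.Agent.H68.Prof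

open Set Filter Topology

/-- Derivative of a function glued at `s0` from a left piece and a right piece. -/
theorem b2glue_hasDerivAt {s0 : ℝ} {f1 f2 : ℝ → ℝ} (hv : f1 s0 = f2 s0) {s d : ℝ}
    (hd1 : s ≤ s0 → HasDerivAt f1 d s)
    (hd2 : s0 ≤ s → HasDerivWithinAt f2 d (Set.Ici s0) s) :
    HasDerivAt (fun t => if t ≤ s0 then f1 t else f2 t) d s := by
  rcases lt_trichotomy s s0 with hlt | heq | hgt
  · have h := hd1 hlt.le
    refine h.congr_of_eventuallyEq ?_
    filter_upwards [Iio_mem_nhds hlt] with t ht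
    simp [le_of_lt (show t < s0 from ht)]
  · subst heq
    have hL : HasDerivWithinAt (fun t => if t ≤ s then f1 t else f2 t) d (Set.Iic s) s := by
      refine (hd1 le_rfl).hasDerivWithinAt.congr ?_ ?_
      · intro t ht
        simp [show t ≤ s from ht]
      · simp
    have hR : HasDerivWithinAt (fun t => if t ≤ s then f1 t else f2 t) d (Set.Ici s) s := by
      refine (hd2 le_rfl).congr ?_ ?_
      · intro t ht
        rcases eq_or_lt_of_le (show s ≤ t from ht) with h | h
        · subst h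
          simp [hv]
        · simp [not_le.mpr h]
      · simp [hv]
    have hU := hL.union hR
    rwa [Set.Iic_union_Ici, hasDerivWithinAt_univ] at hU
  · have h := (hd2 hgt.le).hasDerivAt (Ici_mem_nhds hgt)
    refine h.congr_of_eventuallyEq ?_
    filter_upwards [Ioi_mem_nhds hgt] with t ht
    simp [not_le.mpr (show s0 < t from ht)]

/-- A solution of the reduced system on `(0, ∞)` is smooth there. -/
theorem b2glue_smooth {m : ℝ} {a b r : ℝ → ℝ} (h : ∀ s, 0 < s → AbrAt m a b r s) :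
    ContDiffOn ℝ ((⊤ : ℕ∞) : WithTop ℕ∞) a (Set.Ioi 0) ∧
    ContDiffOn ℝ ((⊤ : ℕ∞) : WithTop ℕ∞) b (Set.Ioi 0) ∧
    ContDiffOn ℝ ((⊤ : ℕ∞) : WithTop ℕ∞) r (Set.Ioi 0) := by
  have key : ∀ n : ℕ, ContDiffOn ℝ n a (Set.Ioi 0) ∧ ContDiffOn ℝ n b (Set.Ioi 0) ∧
      ContDiffOn ℝ n r (Set.Ioi 0) := by
    intro n
    induction n with
    | zero =>
      refine ⟨?_, ?_, ?_⟩
      · exact contDiffOn_zero.2 fun s hs => ((h s hs).1.continuousAt).continuousWithinAt
      · exact contDiffOn_zero.2 fun s hs => ((h s hs).2.1.continuousAt).continuousWithinAt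
      · exact contDiffOn_zero.2 fun s hs => ((h s hs).2.2.continuousAt).continuousWithinAt
    | succ n ih =>
      obtain ⟨iha, ihb, ihr⟩ := ih
      have hden : ContDiffOn ℝ n (fun s : ℝ => 2 * s) (Set.Ioi 0) :=
        contDiffOn_const.mul contDiffOn_id
      have hne : ∀ s ∈ Set.Ioi (0 : ℝ), (2 * s) ≠ 0 := fun s hs => by
        have : (0 : ℝ) < s := hs
        positivity
      have hc : ∀ c : ℝ, ContDiffOn ℝ n (fun _ : ℝ => c) (Set.Ioi 0) := fun c => contDiffOn_const
      refine ⟨?_, ?_, ?_⟩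
      · push_cast
        rw [contDiffOn_succ_iff_deriv_of_isOpen isOpen_Ioi]
        refine ⟨fun s hs => ((h s hs).1.differentiableAt).differentiableWithinAt, ?_, ?_⟩
        · intro hn
          simp at hn
        · refine ContDiffOn.congr (f := fun s => fA (a s) (b s) / (2 * s)) ?_
            (fun s hs => (h s hs).1.deriv)
          unfold fA
          exact (iha.mul (((hc 1).add ihb).sub iha)).div hden hne
      · push_cast
        rw [contDiffOn_succ_iff_deriv_of_isOpen isOpen_Ioi]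
        refine ⟨fun s hs => ((h s hs).2.1.differentiableAt).differentiableWithinAt, ?_, ?_⟩
        · intro hn
          simp at hn
        · refine ContDiffOn.congr (f := fun s => fB m (a s) (b s) (r s) / (2 * s)) ?_
            (fun s hs => (h s hs).2.1.deriv)
          unfold fB
          exact (ihb.mul (((hc m).add iha).sub (ihb.mul ((hc m).sub
            (((hc (m + 3)).mul ihr).mul (hc (m + 2)⁻¹)))))).div hden hne |>.congr
            (fun s _ => by simp only [div_eq_mul_inv, Pi.mul_apply, Pi.inv_apply])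
      · push_cast
        rw [contDiffOn_succ_iff_deriv_of_isOpen isOpen_Ioi]
        refine ⟨fun s hs => ((h s hs).2.2.differentiableAt).differentiableWithinAt, ?_, ?_⟩
        · intro hn
          simp at hn
        · refine ContDiffOn.congr (f := fun s => fR m (a s) (b s) (r s) / (2 * s)) ?_
            (fun s hs => (h s hs).2.2.deriv)
          unfold fR
          exact ((((hc (m + 2)).sub ihr).mul (iha.add ((ihb.mul ihr).mul (hc (m + 2)⁻¹)))).sub
            ((hc (m - 1)).mul ihr)).div hden hne |>.congr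
            (fun s _ => by simp only [div_eq_mul_inv, Pi.mul_apply, Pi.inv_apply])
  refine ⟨contDiffOn_infty.2 fun n => (key n).1, contDiffOn_infty.2 fun n => (key n).2.1,
    contDiffOn_infty.2 fun n => (key n).2.2⟩

theorem abr_glue {m s0 : ℝ} (hs0 : 0 < s0) {a1 b1 r1 a2 b2 r2 : ℝ → ℝ}
    (h1 : ∀ s, 0 < s → s ≤ s0 → AbrAt m a1 b1 r1 s)
    (h2 : ∀ s, s0 ≤ s →
      HasDerivWithinAt a2 (fA (a2 s) (b2 s) / (2 * s)) (Set.Ici s0) s ∧
      HasDerivWithinAt b2 (fB m (a2 s) (b2 s) (r2 s) / (2 * s)) (Set.Ici s0) s ∧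
      HasDerivWithinAt r2 (fR m (a2 s) (b2 s) (r2 s) / (2 * s)) (Set.Ici s0) s)
    (ha : a1 s0 = a2 s0) (hb : b1 s0 = b2 s0) (hr : r1 s0 = r2 s0) :
    ∃ a b r : ℝ → ℝ,
      (∀ s, s ≤ s0 → a s = a1 s ∧ b s = b1 s ∧ r s = r1 s) ∧
      (∀ s, s0 ≤ s → a s = a2 s ∧ b s = b2 s ∧ r s = r2 s) ∧
      (∀ s, 0 < s → AbrAt m a b r s) ∧
      ContDiffOn ℝ ((⊤ : ℕ∞) : WithTop ℕ∞) a (Set.Ioi 0) ∧
      ContDiffOn ℝ ((⊤ : ℕ∞) : WithTop ℕ∞) b (Set.Ioi 0) ∧
      ContDiffOn ℝ ((⊤ : ℕ∞) : WithTop ℕ∞) r (Set.Ioi 0) := by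
  have _ := hs0
  have hleft : ∀ (f1 f2 : ℝ → ℝ) (s : ℝ), s ≤ s0 →
      (fun t => if t ≤ s0 then f1 t else f2 t) s = f1 s := by
    intro f1 f2 s hs
    simp [hs]
  have hright : ∀ (f1 f2 : ℝ → ℝ), f1 s0 = f2 s0 → ∀ s : ℝ, s0 ≤ s →
      (fun t => if t ≤ s0 then f1 t else f2 t) s = f2 s := by
    intro f1 f2 hv s hs
    rcases eq_or_lt_of_le hs with h | h
    · subst h
      simp [hv]
    · simp [not_le.mpr h]
  have hsol : ∀ s, 0 < s → AbrAt m (fun t => if t ≤ s0 then a1 t else a2 t)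
      (fun t => if t ≤ s0 then b1 t else b2 t) (fun t => if t ≤ s0 then r1 t else r2 t) s := by
    intro s hs
    refine ⟨b2glue_hasDerivAt ha ?_ ?_, b2glue_hasDerivAt hb ?_ ?_, b2glue_hasDerivAt hr ?_ ?_⟩
    · intro hle
      rw [hleft a1 a2 s hle, hleft b1 b2 s hle]
      exact (h1 s hs hle).1
    · intro hge
      rw [hright a1 a2 ha s hge, hright b1 b2 hb s hge]
      exact (h2 s hge).1
    · intro hle
      rw [hleft a1 a2 s hle, hleft b1 b2 s hle, hleft r1 r2 s hle]
      exact (h1 s hs hle).2.1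
    · intro hge
      rw [hright a1 a2 ha s hge, hright b1 b2 hb s hge, hright r1 r2 hr s hge]
      exact (h2 s hge).2.1
    · intro hle
      rw [hleft a1 a2 s hle, hleft b1 b2 s hle, hleft r1 r2 s hle]
      exact (h1 s hs hle).2.2
    · intro hge
      rw [hright a1 a2 ha s hge, hright b1 b2 hb s hge, hright r1 r2 hr s hge]
      exact (h2 s hge).2.2
  obtain ⟨sa, sb, sr⟩ := b2glue_smooth hsol
  exact ⟨_, _, _, fun s hs => ⟨hleft a1 a2 s hs, hleft b1 b2 s hs, hleft r1 r2 s hs⟩,
    fun s hs => ⟨hright a1 a2 ha s hs, hright b1 b2 hb s hs, hright r1 r2 hr s hs⟩,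
    hsol, sa, sb, sr⟩

end Vale.Agent.H68.Prof
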