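import Vale.Agent.H68.P252.B2NF

/-!
# P252, part B2, row B2-LOC: a profile solves the reduced system

For a profile `(Ψ, V)` on an open set `I` and a point `s ∈ I`, `s > 0`, the functions
`aOf Ψ`, `bOf k Ψ V`, `rOf k Ψ V` of `B2Defs.lean` solve the reduced system at `s`.

Proof sketch (`m = k + 2`; `P = Ψ' s`, `P1 = Ψ'' s`, `V1 = V' s`, `V2 = V'' s`, all derivatives
exist because `Ψ, V` are smooth on the open set `I`; `Ψ, P, V > 0` at `s` and hence near `s`).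
Write `a, B, R` for the values of `aOf, bOf, rOf` at `s`.
* By `nf_eq1`: `2 s P1 = P (B - 1)`.  By `nf_eq2`:
  `2 s V2 + (k+1)(B-1) V1 + 2 s (k+3) V1^2 / V + (k+2) V1 + a B V / (2 s) = 0`.
  By the definition of `rOf`: `V1 = -R B V / (2 (k+4) s)`.
* `a`: `(2 t Ψ'/Ψ)' = 2 P/Ψ + 2 s P1/Ψ - 2 s P^2/Ψ^2 = a (1 + B - a) / (2 s)`.
* `b`: quotient rule, `b'/b = P/Ψ - (k+5) V1/V - (k+2) P1/P`, so
  `2 s b' = B (a + (k+5) R B/(k+4) - (k+2)(B - 1)) = fB m a B R`.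
* `ρ`: quotient rule for `-(2 (k+4) t V') / (V b)` with `b' = fB m a B R / (2 s)`; substitute
  `V2` from above; the claim `2 s ρ' = fR m a B R` is then a rational identity.
-/

namespace Vale.Agent.H68.Prof

open Set

/-- First and second derivatives of a smooth function on an open set. -/
theorem loc_hasDerivAt2 {f : ℝ → ℝ} {I : Set ℝ} (hI : IsOpen I)
    (hf : ContDiffOn ℝ ((⊤ : ℕ∞) : WithTop ℕ∞) f I) {s : ℝ} (hs : s ∈ I) :
    HasDerivAt f (deriv f s) s ∧ HasDerivAt (deriv f) (deriv (deriv f) s) s := by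
  constructor
  · exact ((hf.differentiableOn (by simp)).differentiableAt (hI.mem_nhds hs)).hasDerivAt
  · have h1 : ContDiffOn ℝ 1 (deriv f) I :=
      hf.deriv_of_isOpen hI (m := 1) (by
        have : ((1 : WithTop ℕ∞) + 1) = ((2 : ℕ∞) : WithTop ℕ∞) := by norm_cast
        rw [this]
        exact_mod_cast le_top)
    exact ((h1.differentiableOn one_ne_zero).differentiableAt (hI.mem_nhds hs)).hasDerivAt

theorem abr_of_profile (k : ℕ) {Ψ V : ℝ → ℝ} {I : Set ℝ} (hI : IsOpen I)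
    (h : IsProfileG k Ψ V I) {s : ℝ} (hs : s ∈ I) (hs0 : 0 < s) :
    AbrAt ((k : ℝ) + 2) (aOf Ψ) (bOf k Ψ V) (rOf k Ψ V) s := by
  obtain ⟨hΨd, hΨd2⟩ := loc_hasDerivAt2 hI h.smoothΨ hs
  obtain ⟨hVd, hVd2⟩ := loc_hasDerivAt2 hI h.smoothV hs
  have hΨpos : 0 < Ψ s := h.posΨ s hs
  have hVpos : 0 < V s := h.posV s hs
  have hPpos : 0 < deriv Ψ s := h.posD s hs
  have e1 := (nf_eq1 k hΨpos hPpos hVpos).1 (h.eq1 s hs)
  have e2 := (nf_eq2 k hs0 hΨpos hPpos hVpos e1).1 (h.eq2 s hs)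
  have hk4 : ((k : ℝ) + 4) ≠ 0 := by positivity
  have hsne : s ≠ 0 := hs0.ne'
  -- values at `s`
  have haval : aOf Ψ s = 2 * s * deriv Ψ s / Ψ s := rfl
  have hbval : bOf k Ψ V s = Ψ s / (V s ^ (k + 5) * deriv Ψ s ^ (k + 2)) := rfl
  have hrval : rOf k Ψ V s = -(2 * ((k : ℝ) + 4) * s * deriv V s) / (V s * bOf k Ψ V s) := rfl
  have hDpos : 0 < V s ^ (k + 5) * deriv Ψ s ^ (k + 2) :=
    mul_pos (pow_pos hVpos _) (pow_pos hPpos _)
  have hBpos : 0 < bOf k Ψ V s := by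
    rw [hbval]
    exact div_pos hΨpos hDpos
  -- the relations in terms of the values
  have e1' : 2 * s * deriv (deriv Ψ) s = deriv Ψ s * (bOf k Ψ V s - 1) := e1
  have e2' : 2 * s * deriv (deriv V) s + ((k : ℝ) + 1) * (bOf k Ψ V s - 1) * deriv V s
      + 2 * s * ((k : ℝ) + 3) * deriv V s ^ 2 / V s + ((k : ℝ) + 2) * deriv V s
      + aOf Ψ s * bOf k Ψ V s * V s / (2 * s) = 0 := e2
  -- derivative of `a`
  have ha : HasDerivAt (aOf Ψ) (fA (aOf Ψ s) (bOf k Ψ V s) / (2 * s)) s := by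
    have h1 : HasDerivAt (fun t : ℝ => 2 * t) 2 s := by
      simpa using (hasDerivAt_id s).const_mul (2 : ℝ)
    have h2 : HasDerivAt (fun t : ℝ => 2 * t * deriv Ψ t)
        (2 * deriv Ψ s + 2 * s * deriv (deriv Ψ) s) s := h1.mul hΨd2
    have h3 : HasDerivAt (fun t : ℝ => 2 * t * deriv Ψ t / Ψ t)
        (((2 * deriv Ψ s + 2 * s * deriv (deriv Ψ) s) * Ψ s - 2 * s * deriv Ψ s * deriv Ψ s)
          / Ψ s ^ 2) s := h2.div hΨd hΨpos.ne'
    refine HasDerivAt.congr_deriv h3 ?_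
    rw [e1', haval]
    unfold fA
    set B := bOf k Ψ V s
    have hΨne : Ψ s ≠ 0 := hΨpos.ne'
    field_simp
    ring
  -- derivative of `b`
  have hb : HasDerivAt (bOf k Ψ V)
      (fB ((k : ℝ) + 2) (aOf Ψ s) (bOf k Ψ V s) (rOf k Ψ V s) / (2 * s)) s := by
    have h1 : HasDerivAt (fun t : ℝ => V t ^ (k + 5))
        (((k + 5 : ℕ) : ℝ) * V s ^ (k + 4) * deriv V s) s := hVd.pow (k + 5)
    have h2 : HasDerivAt (fun t : ℝ => deriv Ψ t ^ (k + 2))
        (((k + 2 : ℕ) : ℝ) * deriv Ψ s ^ (k + 1) * deriv (deriv Ψ) s) s := hΨd2.pow (k + 2)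
    have h3 : HasDerivAt (fun t : ℝ => V t ^ (k + 5) * deriv Ψ t ^ (k + 2))
        (((k + 5 : ℕ) : ℝ) * V s ^ (k + 4) * deriv V s * deriv Ψ s ^ (k + 2)
          + V s ^ (k + 5) * (((k + 2 : ℕ) : ℝ) * deriv Ψ s ^ (k + 1) * deriv (deriv Ψ) s)) s :=
      h1.mul h2
    have h4 : HasDerivAt (fun t : ℝ => Ψ t / (V t ^ (k + 5) * deriv Ψ t ^ (k + 2)))
        ((deriv Ψ s * (V s ^ (k + 5) * deriv Ψ s ^ (k + 2))
          - Ψ s * (((k + 5 : ℕ) : ℝ) * V s ^ (k + 4) * deriv V s * deriv Ψ s ^ (k + 2)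
          + V s ^ (k + 5) * (((k + 2 : ℕ) : ℝ) * deriv Ψ s ^ (k + 1) * deriv (deriv Ψ) s)))
          / (V s ^ (k + 5) * deriv Ψ s ^ (k + 2)) ^ 2) s := hΨd.div h3 hDpos.ne'
    refine HasDerivAt.congr_deriv h4 ?_
    have hP1 : deriv (deriv Ψ) s = deriv Ψ s * (bOf k Ψ V s - 1) / (2 * s) := by
      field_simp
      linarith
    rw [hP1, hrval, haval, hbval]
    unfold fB
    have eV : V s ^ (k + 5) = V s ^ (k + 4) * V s := pow_succ _ _
    have eP : deriv Ψ s ^ (k + 2) = deriv Ψ s ^ (k + 1) * deriv Ψ s := pow_succ _ _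
    rw [eV, eP]
    have hX : V s ^ (k + 4) ≠ 0 := pow_ne_zero _ hVpos.ne'
    have hY : deriv Ψ s ^ (k + 1) ≠ 0 := pow_ne_zero _ hPpos.ne'
    set X := V s ^ (k + 4)
    set Y := deriv Ψ s ^ (k + 1)
    have hΨne : Ψ s ≠ 0 := hΨpos.ne'
    have hVne : V s ≠ 0 := hVpos.ne'
    have hPne : deriv Ψ s ≠ 0 := hPpos.ne'
    push_cast
    field_simp
    ring
  -- derivative of `ρ`
  have hr : HasDerivAt (rOf k Ψ V)
      (fR ((k : ℝ) + 2) (aOf Ψ s) (bOf k Ψ V s) (rOf k Ψ V s) / (2 * s)) s := by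
    have h1 : HasDerivAt (fun t : ℝ => t * deriv V t) (1 * deriv V s + s * deriv (deriv V) s) s :=
      (hasDerivAt_id s).mul hVd2
    have h2 : HasDerivAt (fun t : ℝ => -(2 * ((k : ℝ) + 4) * t * deriv V t))
        (-(2 * ((k : ℝ) + 4) * (1 * deriv V s + s * deriv (deriv V) s))) s := by
      have := (h1.const_mul (2 * ((k : ℝ) + 4))).neg
      refine (this.congr_of_eventuallyEq ?_)
      filter_upwards with t
      simp only [Pi.neg_apply]
      ring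
    have h3 : HasDerivAt (fun t : ℝ => V t * bOf k Ψ V t)
        (deriv V s * bOf k Ψ V s + V s *
          (fB ((k : ℝ) + 2) (aOf Ψ s) (bOf k Ψ V s) (rOf k Ψ V s) / (2 * s))) s := hVd.mul hb
    have hE : V s * bOf k Ψ V s ≠ 0 := (mul_pos hVpos hBpos).ne'
    have h4 : HasDerivAt (fun t : ℝ => -(2 * ((k : ℝ) + 4) * t * deriv V t) / (V t * bOf k Ψ V t))
        ((-(2 * ((k : ℝ) + 4) * (1 * deriv V s + s * deriv (deriv V) s)) * (V s * bOf k Ψ V s)
          - -(2 * ((k : ℝ) + 4) * s * deriv V s) * (deriv V s * bOf k Ψ V s + V s *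
          (fB ((k : ℝ) + 2) (aOf Ψ s) (bOf k Ψ V s) (rOf k Ψ V s) / (2 * s))))
          / (V s * bOf k Ψ V s) ^ 2) s := h2.div h3 hE
    refine HasDerivAt.congr_deriv h4 ?_
    have hV2 : deriv (deriv V) s = -(((k : ℝ) + 1) * (bOf k Ψ V s - 1) * deriv V s
      + 2 * s * ((k : ℝ) + 3) * deriv V s ^ 2 / V s + ((k : ℝ) + 2) * deriv V s
      + aOf Ψ s * bOf k Ψ V s * V s / (2 * s)) / (2 * s) := by
      field_simp
      have hVne : V s ≠ 0 := hVpos.ne'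
      field_simp at e2'
      linarith
    rw [hV2, hrval]
    unfold fB fR
    have hVne : V s ≠ 0 := hVpos.ne'
    have hBne : bOf k Ψ V s ≠ 0 := hBpos.ne'
    set B := bOf k Ψ V s
    set a := aOf Ψ s
    field_simp
    ring
  exact ⟨ha, hb, hr⟩

end Vale.Agent.H68.Prof
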