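import Vale.Agent.H68.P252.B2Defs

/-!
# P252, part B2, row B2-NF: normal forms of the two profile equations at a point

Pure algebra over the reals (the only place of part B2 where the symbolic exponents `k + 1`,
..., `k + 5` matter).  `P, P1` stand for `Ψ', Ψ''` and `V1, V2` for `V', V''` at the point `s`.
With `B = Ψ / (V^(k+5) P^(k+2))` and `a = 2 s P / Ψ`:

* `Eq1G`  ⟺  `2 s P1 = P (B - 1)`   [divide by `P^(k+1) V^(k+5) > 0`: `P + 2 s P1 = B P`];
* given that, `Eq2G`  ⟺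
  `2 s V2 + (k+1) (B - 1) V1 + 2 s (k+3) V1^2 / V + (k+2) V1 + a B V / (2 s) = 0`
  [the left side of `Eq2G` is `P^(k+1) V^(k+4)` times this expression: use
  `2 s P1 = P (B - 1)` in the first term and `a B V / (2 s) = 1 / (P^(k+1) V^(k+4))`].

Hint: set `X = P ^ k`, `Y = V ^ k` (positive), rewrite `P ^ (k + j) = X * P ^ j` and
`V ^ (k + j) = Y * V ^ j` with `pow_add`, then `field_simp` and `ring` / `linear_combination`.
-/

namespace Vale.Agent.H68.Prof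

theorem nf_eq1 (k : ℕ) {s Ψ P P1 V : ℝ} (hΨ : 0 < Ψ) (hP : 0 < P) (hV : 0 < V) :
    P ^ (k + 1) * (P + 2 * s * P1) * V ^ (k + 5) = Ψ ↔
      2 * s * P1 = P * (Ψ / (V ^ (k + 5) * P ^ (k + 2)) - 1) := by
  have _hΨ0 := hΨ
  have hX : 0 < P ^ k := pow_pos hP k
  have hY : 0 < V ^ k := pow_pos hV k
  rw [pow_add P k 1, pow_add P k 2, pow_add V k 5, pow_one]
  generalize P ^ k = X at hX ⊢
  generalize V ^ k = Y at hY ⊢
  have key : P * (Ψ / (Y * V ^ 5 * (X * P ^ 2)) - 1) - 2 * s * P1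
      = (Ψ - X * P * (P + 2 * s * P1) * (Y * V ^ 5)) / (X * P * (Y * V ^ 5)) := by
    field_simp
    ring
  have hden : 0 < X * P * (Y * V ^ 5) := by positivity
  constructor
  · intro h
    have h0 : P * (Ψ / (Y * V ^ 5 * (X * P ^ 2)) - 1) - 2 * s * P1 = 0 := by
      rw [key, h, sub_self, zero_div]
    linarith
  · intro h
    have h0 : (Ψ - X * P * (P + 2 * s * P1) * (Y * V ^ 5)) / (X * P * (Y * V ^ 5)) = 0 := by
      rw [← key]
      linarith
    have h1 := (div_eq_zero_iff.1 h0).resolve_right hden.ne'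
    linarith

theorem nf_eq2 (k : ℕ) {s Ψ P P1 V V1 V2 : ℝ} (hs : 0 < s) (hΨ : 0 < Ψ) (hP : 0 < P)
    (hV : 0 < V) (h1 : 2 * s * P1 = P * (Ψ / (V ^ (k + 5) * P ^ (k + 2)) - 1)) :
    (2 * s * P ^ k * V ^ (k + 3) *
        (((k : ℝ) + 1) * P1 * V * V1 + ((k : ℝ) + 3) * P * V1 ^ 2 + P * V * V2)
      + ((k : ℝ) + 2) * P ^ (k + 1) * V ^ (k + 4) * V1 + 1 = 0) ↔
    2 * s * V2 + ((k : ℝ) + 1) * (Ψ / (V ^ (k + 5) * P ^ (k + 2)) - 1) * V1
      + 2 * s * ((k : ℝ) + 3) * V1 ^ 2 / V + ((k : ℝ) + 2) * V1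
      + 2 * s * P / Ψ * (Ψ / (V ^ (k + 5) * P ^ (k + 2))) * V / (2 * s) = 0 := by
  have hX : 0 < P ^ k := pow_pos hP k
  have hY : 0 < V ^ k := pow_pos hV k
  rw [pow_add P k 1, pow_add P k 2, pow_add V k 5, pow_add V k 3, pow_add V k 4, pow_one]
  rw [pow_add P k 2, pow_add V k 5] at h1
  generalize P ^ k = X at hX h1 ⊢
  generalize V ^ k = Y at hY h1 ⊢
  generalize (k : ℝ) = c
  have hP1 : P1 = P * (Ψ / (Y * V ^ 5 * (X * P ^ 2)) - 1) / (2 * s) := by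
    rw [eq_div_iff (by positivity)]
    linarith
  subst hP1
  have key : 2 * s * X * (Y * V ^ 3) *
        ((c + 1) * (P * (Ψ / (Y * V ^ 5 * (X * P ^ 2)) - 1) / (2 * s)) * V * V1
          + (c + 3) * P * V1 ^ 2 + P * V * V2)
      + (c + 2) * (X * P) * (Y * V ^ 4) * V1 + 1
      = (X * P * (Y * V ^ 4)) *
        (2 * s * V2 + (c + 1) * (Ψ / (Y * V ^ 5 * (X * P ^ 2)) - 1) * V1
          + 2 * s * (c + 3) * V1 ^ 2 / V + (c + 2) * V1
          + 2 * s * P / Ψ * (Ψ / (Y * V ^ 5 * (X * P ^ 2))) * V / (2 * s)) := by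
    field_simp
    ring
  have hden : 0 < X * P * (Y * V ^ 4) := by positivity
  rw [key]
  constructor
  · intro h
    exact (mul_eq_zero.1 h).resolve_left hden.ne'
  · intro h
    rw [h, mul_zero]

end Vale.Agent.H68.Prof
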