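import Mathlib

/-!
# P252, part B2, row B2-QUAD: the linear quadrature `y' = f y` on `(0, ∞)`

Proof sketch.  `y s = y0 * exp (∫ t in s0..s, f t)`.  For `s > 0` the segment between `s0` and
`s` lies in `Ioi 0`, where `f` is continuous, so `f` is interval integrable there and
`s ↦ ∫ t in s0..s, f t` has derivative `f s` at `s` (`intervalIntegral.integral_hasDerivAt_right`).
Smoothness: the integral has derivative `f` on the open set `Ioi 0`, so it is smooth there
(`contDiffOn_succ_iff_deriv_of_isOpen` with `⊤ + 1 = ⊤`, or by induction on the order); compose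
with `exp`.
-/

namespace Vale.Agent.H68.Prof

theorem exp_quadrature {f : ℝ → ℝ}
    (hf : ContDiffOn ℝ ((⊤ : ℕ∞) : WithTop ℕ∞) f (Set.Ioi 0))
    {s0 y0 : ℝ} (hs0 : 0 < s0) (hy0 : 0 < y0) :
    ∃ y : ℝ → ℝ, y s0 = y0 ∧ (∀ s, 0 < s → 0 < y s) ∧
      (∀ s, 0 < s → HasDerivAt y (f s * y s) s) ∧
      ContDiffOn ℝ ((⊤ : ℕ∞) : WithTop ℕ∞) y (Set.Ioi 0) := by
  have hcont : ContinuousOn f (Set.Ioi 0) := hf.continuousOn
  have hsub : ∀ s : ℝ, 0 < s → Set.uIcc s0 s ⊆ Set.Ioi 0 := by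
    intro s hs x hx
    rw [Set.mem_uIcc] at hx
    rcases hx with ⟨h1, _⟩ | ⟨h1, _⟩
    · exact lt_of_lt_of_le hs0 h1
    · exact lt_of_lt_of_le hs h1
  have hF : ∀ s : ℝ, 0 < s → HasDerivAt (fun u => ∫ t in s0..u, f t) (f s) s := by
    intro s hs
    exact intervalIntegral.integral_hasDerivAt_right
      ((hcont.mono (hsub s hs)).intervalIntegrable)
      (hcont.stronglyMeasurableAtFilter isOpen_Ioi s hs)
      (hcont.continuousAt (Ioi_mem_nhds hs))
  have hFsmooth : ContDiffOn ℝ ((⊤ : ℕ∞) : WithTop ℕ∞) (fun u => ∫ t in s0..u, f t)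
      (Set.Ioi 0) := by
    rw [contDiffOn_infty_iff_deriv_of_isOpen isOpen_Ioi]
    exact ⟨fun s hs => (hF s hs).differentiableAt.differentiableWithinAt,
      hf.congr fun s hs => (hF s hs).deriv⟩
  refine ⟨fun s => y0 * Real.exp (∫ t in s0..s, f t), ?_, ?_, ?_, ?_⟩
  · simp
  · intro s _
    exact mul_pos hy0 (Real.exp_pos _)
  · intro s hs
    have h := ((hF s hs).exp).const_mul y0
    exact h.congr_deriv (by ring)
  · exact contDiffOn_const.mul (Real.contDiff_exp.comp_contDiffOn hFsmooth)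

end Vale.Agent.H68.Prof
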