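import Vale.Agent.H68.P252.B2NF
import Vale.Agent.H68.P252.B2Quad
import Vale.Agent.H68.P252.B2Beta

/-!
# P252, part B2, row B2-RECON: from a solution of the reduced system back to a profile

Proof sketch (`m = k + 2`).  `exp_quadrature` (row B2-QUAD) with `f = a / (2 s)` and base value
`Ψ0` gives `Ψr`; with `f = -(r b) / (2 (k+4) s)` and base value `V0` gives `Vr` (both `f` are
smooth on `Ioi 0`).  On `Ioi 0`: `deriv Ψr = a / (2 s) * Ψr =: P > 0`, `deriv Vr = V1`.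
`hcomp` is the hypothesis of `beta_eq_b` (row B2-BETA) at `s0`, so
`Ψr / (Vr^(k+5) P^(k+2)) = b` on `(0, ∞)`.
* `P1 := deriv (deriv Ψr) s` is the derivative of `t ↦ a t / (2 t) * Ψr t` (the two functions
  agree on the open set `Ioi 0`): `2 s P1 = (fA a b/(2s) - a/s) Ψr + a P = P (b - 1)`.
  So `Eq1G` holds by `nf_eq1`.
* `V2 := deriv (deriv Vr) s` is the derivative of `t ↦ -(r t b t) / (2 (k+4) t) * Vr t`:
  with `c = 2 (k+4)`:
  `2 s V2 = (V/(c s)) (-b fR m a b r - r fB m a b r + 2 r^2 b^2 / c + 2 r b)`.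
  The normal form of `nf_eq2`, multiplied by `c s / V`, is
  `-b fR - r fB + 2 r^2 b^2/c + 2 r b - (m-1)(b-1) r b + 2 (m+1) r^2 b^2/c - m r b + (m+2) a b`,
  which vanishes identically (`ring` after unfolding `fR`, `fB`).  So `Eq2G` holds by `nf_eq2`.
-/

namespace Vale.Agent.H68.Prof

theorem profile_of_abr (k : ℕ) {a b r : ℝ → ℝ}
    (habr : ∀ s, 0 < s → AbrAt ((k : ℝ) + 2) a b r s)
    (ha : ContDiffOn ℝ ((⊤ : ℕ∞) : WithTop ℕ∞) a (Set.Ioi 0))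
    (hb : ContDiffOn ℝ ((⊤ : ℕ∞) : WithTop ℕ∞) b (Set.Ioi 0))
    (hr : ContDiffOn ℝ ((⊤ : ℕ∞) : WithTop ℕ∞) r (Set.Ioi 0))
    (hapos : ∀ s, 0 < s → 0 < a s) (hbpos : ∀ s, 0 < s → 0 < b s)
    {s0 Ψ0 V0 : ℝ} (hs0 : 0 < s0) (hΨ0 : 0 < Ψ0) (hV0 : 0 < V0)
    (hcomp : b s0 * (V0 ^ (k + 5) * (a s0 / (2 * s0) * Ψ0) ^ (k + 2)) = Ψ0) :
    ∃ Ψr Vr : ℝ → ℝ, IsProfileG k Ψr Vr (Set.Ioi 0) ∧ Ψr s0 = Ψ0 ∧ Vr s0 = V0 ∧
      (∀ s, 0 < s → HasDerivAt Ψr (a s / (2 * s) * Ψr s) s) ∧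
      (∀ s, 0 < s →
        HasDerivAt Vr (-(r s * b s) / (2 * ((k : ℝ) + 4) * s) * Vr s) s) := by
  have hk4 : (0 : ℝ) < (k : ℝ) + 4 := by positivity
  have hf1 : ContDiffOn ℝ ((⊤ : ℕ∞) : WithTop ℕ∞) (fun s => a s / (2 * s)) (Set.Ioi 0) :=
    ha.div (contDiffOn_const.mul contDiffOn_id) (fun s hs => by
      have h0 : (0 : ℝ) < s := hs
      positivity)
  have hf2 : ContDiffOn ℝ ((⊤ : ℕ∞) : WithTop ℕ∞)
      (fun s => -(r s * b s) / (2 * ((k : ℝ) + 4) * s)) (Set.Ioi 0) :=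
    (hr.mul hb).neg.div (contDiffOn_const.mul contDiffOn_id) (fun s hs => by
      have h0 : (0 : ℝ) < s := hs
      positivity)
  obtain ⟨Ψr, hΨs0, hΨpos, hΨd, hΨsm⟩ := exp_quadrature hf1 hs0 hΨ0
  obtain ⟨Vr, hVs0, hVpos, hVd, hVsm⟩ := exp_quadrature hf2 hs0 hV0
  have hcomp' : b s0 * (Vr s0 ^ (k + 5) * (a s0 / (2 * s0) * Ψr s0) ^ (k + 2)) = Ψr s0 := by
    rw [hΨs0, hVs0]
    exact hcomp
  have hbeta := beta_eq_b k habr hapos hbpos hΨpos hVpos hΨd hVd hs0 hcomp'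
  refine ⟨Ψr, Vr, ?_, hΨs0, hVs0, hΨd, hVd⟩
  have hP : ∀ s, 0 < s → deriv Ψr s = a s / (2 * s) * Ψr s := fun s hs => (hΨd s hs).deriv
  have hV1 : ∀ s, 0 < s → deriv Vr s = -(r s * b s) / (2 * ((k : ℝ) + 4) * s) * Vr s :=
    fun s hs => (hVd s hs).deriv
  have hPpos : ∀ s, 0 < s → 0 < deriv Ψr s := fun s hs => by
    rw [hP s hs]
    exact mul_pos (div_pos (hapos s hs) (by positivity)) (hΨpos s hs)
  have hP1 : ∀ s, 0 < s → deriv (deriv Ψr) s =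
      ((fA (a s) (b s) / (2 * s)) * (2 * s) - a s * 2) / (2 * s) ^ 2 * Ψr s
        + a s / (2 * s) * (a s / (2 * s) * Ψr s) := by
    intro s hs
    have h2 : HasDerivAt (fun t : ℝ => 2 * t) 2 s := by
      simpa using (hasDerivAt_id s).const_mul (2 : ℝ)
    have h3 := ((habr s hs).1.div h2 (by positivity)).mul (hΨd s hs)
    have h4 : deriv Ψr =ᶠ[nhds s] fun t => a t / (2 * t) * Ψr t := by
      filter_upwards [isOpen_Ioi.mem_nhds (show s ∈ Set.Ioi (0 : ℝ) from hs)] with t ht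
      exact hP t ht
    exact (h3.congr_of_eventuallyEq h4).deriv
  have hV2 : ∀ s, 0 < s → deriv (deriv Vr) s =
      ((-(fR ((k : ℝ) + 2) (a s) (b s) (r s) / (2 * s) * b s
            + r s * (fB ((k : ℝ) + 2) (a s) (b s) (r s) / (2 * s)))) * (2 * ((k : ℝ) + 4) * s)
          - (-(r s * b s)) * (2 * ((k : ℝ) + 4))) / (2 * ((k : ℝ) + 4) * s) ^ 2 * Vr s
        + -(r s * b s) / (2 * ((k : ℝ) + 4) * s)
          * (-(r s * b s) / (2 * ((k : ℝ) + 4) * s) * Vr s) := by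
    intro s hs
    have h2 : HasDerivAt (fun t : ℝ => 2 * ((k : ℝ) + 4) * t) (2 * ((k : ℝ) + 4)) s := by
      simpa using (hasDerivAt_id s).const_mul (2 * ((k : ℝ) + 4))
    have h5 := ((habr s hs).2.2.mul (habr s hs).2.1).neg
    have h3 := (h5.div h2 (by positivity)).mul (hVd s hs)
    have h4 : deriv Vr =ᶠ[nhds s] fun t => -(r t * b t) / (2 * ((k : ℝ) + 4) * t) * Vr t := by
      filter_upwards [isOpen_Ioi.mem_nhds (show s ∈ Set.Ioi (0 : ℝ) from hs)] with t ht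
      exact hV1 t ht
    exact (h3.congr_of_eventuallyEq h4).deriv
  have hB : ∀ s, 0 < s → Ψr s / (Vr s ^ (k + 5) * deriv Ψr s ^ (k + 2)) = b s := by
    intro s hs
    have h1 := hVpos s hs
    have h2 := hΨpos s hs
    have h3 := hapos s hs
    rw [hP s hs, div_eq_iff (by positivity)]
    exact (hbeta s hs).symm
  have hE1 : ∀ s, 0 < s → 2 * s * deriv (deriv Ψr) s =
      deriv Ψr s * (Ψr s / (Vr s ^ (k + 5) * deriv Ψr s ^ (k + 2)) - 1) := by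
    intro s hs
    have hsne : s ≠ 0 := hs.ne'
    rw [hB s hs, hP1 s hs, hP s hs]
    unfold fA
    field_simp
    ring
  refine ⟨hΨsm, hVsm, fun s hs => hΨpos s hs, fun s hs => hVpos s hs, fun s hs => hPpos s hs,
    fun s hs => ?_, fun s hs => ?_⟩
  · have hs' : (0 : ℝ) < s := hs
    exact (nf_eq1 k (hΨpos s hs') (hPpos s hs') (hVpos s hs')).mpr (hE1 s hs')
  · have hs' : (0 : ℝ) < s := hs
    have hsne : s ≠ 0 := hs'.ne'
    have hVne : Vr s ≠ 0 := (hVpos s hs').ne'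
    have hΨne : Ψr s ≠ 0 := (hΨpos s hs').ne'
    have hk4ne : ((k : ℝ) + 4) ≠ 0 := hk4.ne'
    have hm2 : ((k : ℝ) + 2 + 2) ≠ 0 := by positivity
    have hfin : 2 * s * deriv (deriv Vr) s
        + ((k : ℝ) + 1) * (Ψr s / (Vr s ^ (k + 5) * deriv Ψr s ^ (k + 2)) - 1) * deriv Vr s
        + 2 * s * ((k : ℝ) + 3) * deriv Vr s ^ 2 / Vr s + ((k : ℝ) + 2) * deriv Vr s
        + 2 * s * deriv Ψr s / Ψr s * (Ψr s / (Vr s ^ (k + 5) * deriv Ψr s ^ (k + 2)))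
          * Vr s / (2 * s) = 0 := by
      rw [hB s hs', hV2 s hs', hV1 s hs', hP s hs']
      unfold fR fB
      field_simp
      ring
    exact (nf_eq2 k hs' (hΨpos s hs') (hPpos s hs') (hVpos s hs') (hE1 s hs')).mpr hfin

end Vale.Agent.H68.Prof
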