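import Vale.Agent.H68.P252.B2Defs

/-!
# P252, part B2, row B2-START: the local profile enters the box

For a profile on `(-δ, δ)` there is a point `s0 ∈ (0, δ)` where `(a, b, ρ)` lies in the open
box `(0, 69/20) × (0, 12/5) × (0, 4)`.

Proof sketch.  `Ψ, Ψ', V, V'` are continuous on `(-δ, δ)`, so `aOf Ψ`, `bOf k Ψ V`,
`rOf k Ψ V` are continuous at `0` (denominators positive).  At `0`: `aOf Ψ 0 = 0`;
`bOf k Ψ V 0 = 1` by `Eq1G` at `0` (`Ψ'^(k+2) V^(k+5) = Ψ`); `rOf k Ψ V 0 = 0`.  So for all small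
`s`: `aOf < 69/20`, `bOf < 12/5`, `rOf < 4`.  For `s > 0`: `aOf > 0` and `bOf > 0` by
positivity.  `Eq2G` at `0` reads `(k+2) Ψ'(0)^(k+1) V(0)^(k+4) V'(0) + 1 = 0`, so `V'(0) < 0`,
hence `V' < 0` near `0` and `rOf > 0` for small `s > 0`.
-/

namespace Vale.Agent.H68.Prof

theorem exists_start (k : ℕ) {δ : ℝ} (hδ : 0 < δ) {Ψ V : ℝ → ℝ}
    (h : IsProfileG k Ψ V (Set.Ioo (-δ) δ)) :
    ∃ s0 : ℝ, 0 < s0 ∧ s0 < δ ∧ 0 < aOf Ψ s0 ∧ aOf Ψ s0 < 69 / 20 ∧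
      0 < bOf k Ψ V s0 ∧ bOf k Ψ V s0 < 12 / 5 ∧ 0 < rOf k Ψ V s0 ∧ rOf k Ψ V s0 < 4 := by
  have hI : IsOpen (Set.Ioo (-δ) δ) := isOpen_Ioo
  have h0 : (0 : ℝ) ∈ Set.Ioo (-δ) δ := ⟨by linarith, hδ⟩
  have hnhds : Set.Ioo (-δ) δ ∈ nhds (0 : ℝ) := hI.mem_nhds h0
  have cΨ : ContinuousAt Ψ 0 := h.smoothΨ.continuousOn.continuousAt hnhds
  have cV : ContinuousAt V 0 := h.smoothV.continuousOn.continuousAt hnhds
  have cΨ' : ContinuousAt (deriv Ψ) 0 :=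
    (h.smoothΨ.continuousOn_deriv_of_isOpen hI (by simp)).continuousAt hnhds
  have cV' : ContinuousAt (deriv V) 0 :=
    (h.smoothV.continuousOn_deriv_of_isOpen hI (by simp)).continuousAt hnhds
  have pΨ := h.posΨ 0 h0
  have pV := h.posV 0 h0
  have pD := h.posD 0 h0
  have e1 := h.eq1 0 h0
  have e2 := h.eq2 0 h0
  unfold Eq1G at e1
  unfold Eq2G at e2
  simp only [mul_zero, zero_mul, add_zero, zero_add] at e1 e2
  have hV'0 : deriv V 0 < 0 := by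
    by_contra hcon
    have hnn : 0 ≤ deriv V 0 := not_lt.1 hcon
    have : 0 ≤ ((k : ℝ) + 2) * deriv Ψ 0 ^ (k + 1) * V 0 ^ (k + 4) * deriv V 0 := by positivity
    linarith
  have ca : ContinuousAt (aOf Ψ) 0 := by
    unfold aOf
    exact ((continuousAt_const.mul continuousAt_id).mul cΨ').div cΨ pΨ.ne'
  have hbden : 0 < V 0 ^ (k + 5) * deriv Ψ 0 ^ (k + 2) := by positivity
  have cb : ContinuousAt (bOf k Ψ V) 0 := by
    unfold bOf
    exact cΨ.div ((cV.pow _).mul (cΨ'.pow _)) hbden.ne'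
  have vb : bOf k Ψ V 0 = 1 := by
    unfold bOf
    rw [div_eq_one_iff_eq hbden.ne', ← e1]
    ring
  have cr : ContinuousAt (rOf k Ψ V) 0 := by
    unfold rOf
    refine (((continuousAt_const.mul continuousAt_id).mul cV').neg).div (cV.mul cb) ?_
    rw [vb]
    simpa using pV.ne'
  have va : aOf Ψ 0 = 0 := by
    unfold aOf
    simp
  have vr : rOf k Ψ V 0 = 0 := by
    unfold rOf
    simp
  have ea : ∀ᶠ t in nhds (0 : ℝ), aOf Ψ t < 69 / 20 :=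
    ca.eventually_lt continuousAt_const (by rw [va]; norm_num)
  have eb : ∀ᶠ t in nhds (0 : ℝ), bOf k Ψ V t < 12 / 5 :=
    cb.eventually_lt continuousAt_const (by rw [vb]; norm_num)
  have er : ∀ᶠ t in nhds (0 : ℝ), rOf k Ψ V t < 4 :=
    cr.eventually_lt continuousAt_const (by rw [vr]; norm_num)
  have ev : ∀ᶠ t in nhds (0 : ℝ), deriv V t < 0 :=
    cV'.eventually_lt continuousAt_const hV'0
  have eI : ∀ᶠ t in nhds (0 : ℝ), t ∈ Set.Ioo (-δ) δ := hnhds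
  have epos : ∀ᶠ t in nhdsWithin (0 : ℝ) (Set.Ioi 0), t ∈ Set.Ioi (0 : ℝ) :=
    eventually_mem_nhdsWithin
  have hev : ∀ᶠ t in nhdsWithin (0 : ℝ) (Set.Ioi 0),
      0 < t ∧ t ∈ Set.Ioo (-δ) δ ∧ aOf Ψ t < 69 / 20 ∧ bOf k Ψ V t < 12 / 5 ∧
        rOf k Ψ V t < 4 ∧ deriv V t < 0 := by
    filter_upwards [epos, eI.filter_mono nhdsWithin_le_nhds, ea.filter_mono nhdsWithin_le_nhds,
      eb.filter_mono nhdsWithin_le_nhds, er.filter_mono nhdsWithin_le_nhds,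
      ev.filter_mono nhdsWithin_le_nhds] with t h1 h2 h3 h4 h5 h6
    exact ⟨h1, h2, h3, h4, h5, h6⟩
  obtain ⟨s0, hs0, hsI, h3, h4, h5, h6⟩ := hev.exists
  have qΨ := h.posΨ s0 hsI
  have qV := h.posV s0 hsI
  have qD := h.posD s0 hsI
  have hbpos : 0 < bOf k Ψ V s0 := by
    unfold bOf
    positivity
  refine ⟨s0, hs0, hsI.2, ?_, h3, hbpos, h4, ?_, h5⟩
  · unfold aOf
    positivity
  · unfold rOf
    apply div_pos _ (mul_pos qV hbpos)
    have : 0 < 2 * ((k : ℝ) + 4) * s0 * (-deriv V s0) := by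
      have h7 : 0 < -deriv V s0 := by linarith
      positivity
    linarith

end Vale.Agent.H68.Prof
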