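import Mathlib
import Vale.Agent.H68.P252.Avg
import Vale.Agent.H68.P252.DefsG

/-!
# From a continuous fixed point to a smooth solution of the profile equations

`(Ψ, V)` continuous and positive on `[-d, d]` and solving the integral equations
`Ψ = 1 + ∫_0^s X^(1/m)`, `V = 1 + ∫_0^s Z / ((m+2) V^(m+1) X^((m-1)/m))` with
`X = m A_{m-1}[Ψ / V^(m+3)]`, `Z = -(m+2) A_{m-1}[1/V]` (`m = k + 2`) are smooth on `(-d, d)`
and solve the two profile equations there.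
-/

namespace Vale.Agent.H68.Prof

open Set MeasureTheory intervalIntegral Topology

/-- A function given on `[-d,d]` by `c + ∫_0^s φ` with `φ` continuous on `[-d,d]` has derivative
`φ s` at interior points. -/
theorem boot_hasDerivAt {d : ℝ} {F φ : ℝ → ℝ} {c : ℝ} (hφ : ContinuousOn φ (Icc (-d) d))
    (hF : ∀ s ∈ Icc (-d) d, F s = c + ∫ t in (0:ℝ)..s, φ t) {s : ℝ} (hs : s ∈ Ioo (-d) d) :
    HasDerivAt F (φ s) s := by
  have hd : -d ≤ d := by linarith [hs.1, hs.2]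
  have h0 : (0:ℝ) ∈ Icc (-d) d := ⟨by linarith [hs.1, hs.2], by linarith [hs.1, hs.2]⟩
  set G : ℝ → ℝ := IccExtend hd (fun t : Icc (-d) d => φ t) with hG
  have hGc : Continuous G := by
    apply Continuous.Icc_extend'
    exact hφ.domRestrict
  have hGφ : ∀ t ∈ Icc (-d) d, G t = φ t := by
    intro t ht
    rw [hG, IccExtend_of_mem _ _ ht]
  have h1 : HasDerivAt (fun u => c + ∫ t in (0:ℝ)..u, G t) (G s) s :=
    ((hGc.integral_hasStrictDerivAt 0 s).hasDerivAt).const_add c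
  rw [hGφ s (Ioo_subset_Icc_self hs)] at h1
  apply h1.congr_of_eventuallyEq
  filter_upwards [isOpen_Ioo.mem_nhds hs] with u hu
  have hu' := Ioo_subset_Icc_self hu
  rw [hF u hu']
  congr 1
  apply intervalIntegral.integral_congr
  intro t ht
  have : t ∈ Icc (-d) d := (uIcc_subset_Icc h0 hu') ht
  exact (hGφ t this).symm

/-- The average of a positive continuous function is positive. -/
theorem boot_avg_pos {d : ℝ} (j : ℕ) {g : ℝ → ℝ} (hg : ContinuousOn g (Icc (-d) d))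
    (hpos : ∀ t ∈ Icc (-d) d, 0 < g t) {s : ℝ} (hs : s ∈ Icc (-d) d) : 0 < avg j g s := by
  obtain ⟨t0, ht0, hmin⟩ := isCompact_Icc.exists_isMinOn ⟨s, hs⟩ hg
  have h1 : g t0 / ((j:ℝ) + 1) ≤ avg j g s := le_avg j hg (fun t ht => hmin ht) hs
  have h2 : 0 < g t0 / ((j:ℝ) + 1) := div_pos (hpos t0 ht0) (by positivity)
  linarith

theorem boot_rpow_pow {x : ℝ} (hx : 0 < x) (k : ℕ) :
    (x ^ (1 / ((k:ℝ) + 2))) ^ (k + 2) = x := by
  have hk : ((k:ℝ) + 2) ≠ 0 := by positivity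
  rw [← Real.rpow_natCast, ← Real.rpow_mul hx.le]
  have : 1 / ((k:ℝ) + 2) * ((k + 2 : ℕ) : ℝ) = 1 := by
    push_cast
    field_simp
  rw [this, Real.rpow_one]

theorem boot_rpow_pow' {x : ℝ} (hx : 0 < x) (k : ℕ) :
    (x ^ (1 / ((k:ℝ) + 2))) ^ (k + 1) = x ^ (((k:ℝ) + 1) / ((k:ℝ) + 2)) := by
  have hk : ((k:ℝ) + 2) ≠ 0 := by positivity
  rw [← Real.rpow_natCast, ← Real.rpow_mul hx.le]
  congr 1
  push_cast
  field_simp

/-- One step of the smoothness induction. -/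
theorem boot_contDiffOn_succ {d : ℝ} {F φ : ℝ → ℝ} (n : ℕ)
    (hF : ∀ s ∈ Ioo (-d) d, HasDerivAt F (φ s) s) (hφ : ContDiffOn ℝ n φ (Ioo (-d) d)) :
    ContDiffOn ℝ ((n + 1 : ℕ) : WithTop ℕ∞) F (Ioo (-d) d) := by
  have hopen : IsOpen (Ioo (-d) d) := isOpen_Ioo
  have hmain : ContDiffOn ℝ ((n : WithTop ℕ∞) + 1) F (Ioo (-d) d) := by
    rw [contDiffOn_succ_iff_deriv_of_isOpen hopen]
    refine ⟨?_, ?_, ?_⟩
    · intro s hs
      exact (hF s hs).differentiableAt.differentiableWithinAt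
    · intro h
      exact absurd h (by exact_mod_cast WithTop.coe_ne_top)
    · apply hφ.congr
      intro s hs
      exact (hF s hs).deriv
  exact_mod_cast hmain

/-- Bootstrap: a continuous positive solution of the integral equations on `[-d, d]` is smooth on
`(-d, d)`, has `Ψ' > 0` there and solves the two profile equations (`m = k + 2`). -/
theorem boot_profile (k : ℕ) {d : ℝ} {Ψ V : ℝ → ℝ}
    (hΨc : ContinuousOn Ψ (Icc (-d) d)) (hVc : ContinuousOn V (Icc (-d) d))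
    (hΨpos : ∀ s ∈ Icc (-d) d, 0 < Ψ s) (hVpos : ∀ s ∈ Icc (-d) d, 0 < V s)
    (hΨ : ∀ s ∈ Icc (-d) d, Ψ s = 1 + ∫ t in (0:ℝ)..s,
        (((k:ℝ) + 2) * avg (k + 1) (fun τ => Ψ τ / V τ ^ (k + 5)) t) ^ (1 / ((k:ℝ) + 2)))
    (hV : ∀ s ∈ Icc (-d) d, V s = 1 + ∫ t in (0:ℝ)..s,
        (-((k:ℝ) + 4) * avg (k + 1) (fun τ => 1 / V τ) t) /
          (((k:ℝ) + 4) * V t ^ (k + 3) *
            (((k:ℝ) + 2) * avg (k + 1) (fun τ => Ψ τ / V τ ^ (k + 5)) t) ^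
              (((k:ℝ) + 1) / ((k:ℝ) + 2)))) :
    ContDiffOn ℝ ((⊤ : ℕ∞) : WithTop ℕ∞) Ψ (Ioo (-d) d) ∧
    ContDiffOn ℝ ((⊤ : ℕ∞) : WithTop ℕ∞) V (Ioo (-d) d) ∧
    (∀ s ∈ Ioo (-d) d, 0 < deriv Ψ s) ∧
    (∀ s ∈ Ioo (-d) d,
      (deriv Ψ s) ^ (k + 1) * (deriv Ψ s + 2 * s * deriv (deriv Ψ) s) * (V s) ^ (k + 5) = Ψ s) ∧
    (∀ s ∈ Ioo (-d) d,
      2 * s * (deriv Ψ s) ^ k * (V s) ^ (k + 3) *
          (((k:ℝ) + 1) * deriv (deriv Ψ) s * V s * deriv V s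
            + ((k:ℝ) + 3) * deriv Ψ s * (deriv V s) ^ 2
            + deriv Ψ s * V s * deriv (deriv V) s)
        + ((k:ℝ) + 2) * (deriv Ψ s) ^ (k + 1) * (V s) ^ (k + 4) * deriv V s + 1 = 0) := by
  have hopen : IsOpen (Ioo (-d) d) := isOpen_Ioo
  have hIJ : Ioo (-d) d ⊆ Icc (-d) d := Ioo_subset_Icc_self
  have hk2 : (0:ℝ) < (k:ℝ) + 2 := by positivity
  have hk4 : (0:ℝ) < (k:ℝ) + 4 := by positivity
  -- the auxiliary functions
  set g1 : ℝ → ℝ := fun τ => Ψ τ / V τ ^ (k + 5) with hg1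
  set g2 : ℝ → ℝ := fun τ => 1 / V τ with hg2
  set X : ℝ → ℝ := fun t => ((k:ℝ) + 2) * avg (k + 1) g1 t with hX
  set Z : ℝ → ℝ := fun t => -((k:ℝ) + 4) * avg (k + 1) g2 t with hZ
  set Φ1 : ℝ → ℝ := fun t => X t ^ (1 / ((k:ℝ) + 2)) with hΦ1
  set Φ2 : ℝ → ℝ := fun t => Z t / (((k:ℝ) + 4) * V t ^ (k + 3) *
    X t ^ (((k:ℝ) + 1) / ((k:ℝ) + 2))) with hΦ2
  have hVne : ∀ s ∈ Icc (-d) d, V s ≠ 0 := fun s hs => (hVpos s hs).ne'
  -- continuity on the closed interval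
  have hg1c : ContinuousOn g1 (Icc (-d) d) :=
    hΨc.div (hVc.pow _) (fun s hs => pow_ne_zero _ (hVne s hs))
  have hg2c : ContinuousOn g2 (Icc (-d) d) := continuousOn_const.div hVc hVne
  have hg1pos : ∀ s ∈ Icc (-d) d, 0 < g1 s := fun s hs =>
    div_pos (hΨpos s hs) (pow_pos (hVpos s hs) _)
  have hXc : ContinuousOn X (Icc (-d) d) := continuousOn_const.mul (avg_continuousOn _ hg1c)
  have hZc : ContinuousOn Z (Icc (-d) d) := continuousOn_const.mul (avg_continuousOn _ hg2c)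
  have hXpos : ∀ s ∈ Icc (-d) d, 0 < X s := fun s hs =>
    mul_pos hk2 (boot_avg_pos _ hg1c hg1pos hs)
  have hΦ1c : ContinuousOn Φ1 (Icc (-d) d) :=
    hXc.rpow_const (fun s hs => Or.inl (hXpos s hs).ne')
  have hden : ∀ s ∈ Icc (-d) d, ((k:ℝ) + 4) * V s ^ (k + 3) *
      X s ^ (((k:ℝ) + 1) / ((k:ℝ) + 2)) ≠ 0 := fun s hs =>
    (mul_pos (mul_pos hk4 (pow_pos (hVpos s hs) _)) (Real.rpow_pos_of_pos (hXpos s hs) _)).ne'
  have hΦ2c : ContinuousOn Φ2 (Icc (-d) d) :=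
    hZc.div ((continuousOn_const.mul (hVc.pow _)).mul
      (hXc.rpow_const (fun s hs => Or.inl (hXpos s hs).ne'))) hden
  -- first derivatives
  have hdΨ : ∀ s ∈ Ioo (-d) d, HasDerivAt Ψ (Φ1 s) s := fun s hs =>
    boot_hasDerivAt hΦ1c hΨ hs
  have hdV : ∀ s ∈ Ioo (-d) d, HasDerivAt V (Φ2 s) s := fun s hs =>
    boot_hasDerivAt hΦ2c hV hs
  -- smoothness by induction
  have hsm : ∀ n : ℕ, ContDiffOn ℝ n Ψ (Ioo (-d) d) ∧ ContDiffOn ℝ n V (Ioo (-d) d) := by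
    intro n
    induction n with
    | zero =>
      simp only [CharP.cast_eq_zero, contDiffOn_zero]
      exact ⟨hΨc.mono hIJ, hVc.mono hIJ⟩
    | succ n ih =>
      obtain ⟨hΨn, hVn⟩ := ih
      have hg1n : ContDiffOn ℝ n g1 (Ioo (-d) d) :=
        hΨn.div (hVn.pow _) (fun s hs => pow_ne_zero _ (hVne s (hIJ hs)))
      have hg2n : ContDiffOn ℝ n g2 (Ioo (-d) d) :=
        contDiffOn_const.div hVn (fun s hs => hVne s (hIJ hs))
      have hXn : ContDiffOn ℝ n X (Ioo (-d) d) :=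
        contDiffOn_const.mul (avg_contDiffOn_nat n _ hg1n)
      have hZn : ContDiffOn ℝ n Z (Ioo (-d) d) :=
        contDiffOn_const.mul (avg_contDiffOn_nat n _ hg2n)
      have hΦ1n : ContDiffOn ℝ n Φ1 (Ioo (-d) d) :=
        hXn.rpow_const_of_ne (fun s hs => (hXpos s (hIJ hs)).ne')
      have hΦ2n : ContDiffOn ℝ n Φ2 (Ioo (-d) d) :=
        hZn.div ((contDiffOn_const.mul (hVn.pow _)).mul
          (hXn.rpow_const_of_ne (fun s hs => (hXpos s (hIJ hs)).ne')))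
          (fun s hs => hden s (hIJ hs))
      exact ⟨boot_contDiffOn_succ n hdΨ hΦ1n, boot_contDiffOn_succ n hdV hΦ2n⟩
  have hΨtop : ContDiffOn ℝ ((⊤ : ℕ∞) : WithTop ℕ∞) Ψ (Ioo (-d) d) :=
    contDiffOn_infty.2 (fun n => (hsm n).1)
  have hVtop : ContDiffOn ℝ ((⊤ : ℕ∞) : WithTop ℕ∞) V (Ioo (-d) d) :=
    contDiffOn_infty.2 (fun n => (hsm n).2)
  -- second derivatives exist
  have hΨ2 : ∀ s ∈ Ioo (-d) d, HasDerivAt (deriv Ψ) (deriv (deriv Ψ) s) s := by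
    intro s hs
    have h2 : ContDiffOn ℝ ((1 : WithTop ℕ∞) + 1) Ψ (Ioo (-d) d) := by
      have := (hsm 2).1
      exact_mod_cast this
    have h3 := ((contDiffOn_succ_iff_deriv_of_isOpen hopen).1 h2).2.2
    exact ((h3.differentiableOn one_ne_zero).differentiableAt (hopen.mem_nhds hs)).hasDerivAt
  have hV2 : ∀ s ∈ Ioo (-d) d, HasDerivAt (deriv V) (deriv (deriv V) s) s := by
    intro s hs
    have h2 : ContDiffOn ℝ ((1 : WithTop ℕ∞) + 1) V (Ioo (-d) d) := by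
      have := (hsm 2).2
      exact_mod_cast this
    have h3 := ((contDiffOn_succ_iff_deriv_of_isOpen hopen).1 h2).2.2
    exact ((h3.differentiableOn one_ne_zero).differentiableAt (hopen.mem_nhds hs)).hasDerivAt
  have hg1one : ContDiffOn ℝ 1 g1 (Ioo (-d) d) := by
    have h1 := (hsm 1).1
    have h2 := (hsm 1).2
    have : ContDiffOn ℝ ((1 : ℕ) : WithTop ℕ∞) g1 (Ioo (-d) d) :=
      h1.div (h2.pow _) (fun s hs => pow_ne_zero _ (hVne s (hIJ hs)))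
    exact_mod_cast this
  have hg2one : ContDiffOn ℝ 1 g2 (Ioo (-d) d) := by
    have h2 := (hsm 1).2
    have : ContDiffOn ℝ ((1 : ℕ) : WithTop ℕ∞) g2 (Ioo (-d) d) :=
      contDiffOn_const.div h2 (fun s hs => hVne s (hIJ hs))
    exact_mod_cast this
  -- pointwise identities on the open interval
  have hP : ∀ s ∈ Ioo (-d) d, deriv Ψ s = Φ1 s := fun s hs => (hdΨ s hs).deriv
  have hW : ∀ s ∈ Ioo (-d) d, deriv V s = Φ2 s := fun s hs => (hdV s hs).deriv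
  have hPpos : ∀ s ∈ Ioo (-d) d, 0 < deriv Ψ s := by
    intro s hs
    rw [hP s hs]
    exact Real.rpow_pos_of_pos (hXpos s (hIJ hs)) _
  have hPX : ∀ s ∈ Ioo (-d) d, (deriv Ψ s) ^ (k + 2) = X s := by
    intro s hs
    rw [hP s hs]
    exact boot_rpow_pow (hXpos s (hIJ hs)) k
  have hZP : ∀ s ∈ Ioo (-d) d,
      Z s = ((k:ℝ) + 4) * (deriv Ψ s) ^ (k + 1) * V s ^ (k + 3) * deriv V s := by
    intro s hs
    have h1 : (deriv Ψ s) ^ (k + 1) = X s ^ (((k:ℝ) + 1) / ((k:ℝ) + 2)) := by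
      rw [hP s hs]
      exact boot_rpow_pow' (hXpos s (hIJ hs)) k
    rw [hW s hs, h1]
    have hXr : X s ^ (((k:ℝ) + 1) / ((k:ℝ) + 2)) ≠ 0 :=
      (Real.rpow_pos_of_pos (hXpos s (hIJ hs)) _).ne'
    have hVk : V s ^ (k + 3) ≠ 0 := pow_ne_zero _ (hVne s (hIJ hs))
    have hk4' : ((k:ℝ) + 4) ≠ 0 := hk4.ne'
    show Z s = ((k:ℝ) + 4) * X s ^ (((k:ℝ) + 1) / ((k:ℝ) + 2)) * V s ^ (k + 3) *
      (Z s / (((k:ℝ) + 4) * V s ^ (k + 3) * X s ^ (((k:ℝ) + 1) / ((k:ℝ) + 2))))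
    field_simp
  refine ⟨hΨtop, hVtop, hPpos, ?_, ?_⟩
  · -- the first equation
    intro s hs
    have hXd : HasDerivAt X (((k:ℝ) + 2) * (deriv Ψ s) ^ (k + 1) * deriv (deriv Ψ) s) s := by
      have h1 := (hΨ2 s hs).pow (k + 2)
      have h2 : HasDerivAt (fun t => (deriv Ψ t) ^ (k + 2))
          (((k:ℝ) + 2) * (deriv Ψ s) ^ (k + 1) * deriv (deriv Ψ) s) s := by
        refine HasDerivAt.congr_deriv h1 ?_
        have e : k + 2 - 1 = k + 1 := rfl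
        simp only [e, Nat.cast_add, Nat.cast_ofNat]
      apply h2.congr_of_eventuallyEq
      filter_upwards [hopen.mem_nhds hs] with t ht
      exact (hPX t ht).symm
    have hode := avg_ode (k + 1) hg1one hs
    have hXd' : HasDerivAt X (((k:ℝ) + 2) * deriv (avg (k + 1) g1) s) s :=
      ((avg_hasDerivAt (k + 1) hg1one hs).differentiableAt.hasDerivAt).const_mul _
    have hder := hXd.unique hXd'
    have hXs : X s = ((k:ℝ) + 2) * avg (k + 1) g1 s := rfl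
    have hPXs := hPX s hs
    have hVs := hVpos s (hIJ hs)
    have hg1s : g1 s = Ψ s / V s ^ (k + 5) := rfl
    rw [hg1s] at hode
    push_cast at hode
    have hVk : V s ^ (k + 5) ≠ 0 := pow_ne_zero _ hVs.ne'
    rw [eq_div_iff hVk] at hode
    have e1 : (deriv Ψ s) ^ (k + 2) = deriv Ψ s ^ (k + 1) * deriv Ψ s := pow_succ _ _
    have hA : ((k:ℝ) + 2) * avg (k + 1) g1 s = deriv Ψ s ^ (k + 1) * deriv Ψ s := by
      rw [← e1, hPXs]
    have hB : ((k:ℝ) + 2) * deriv (avg (k + 1) g1) s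
        = ((k:ℝ) + 2) * (deriv Ψ s) ^ (k + 1) * deriv (deriv Ψ) s := hder.symm
    have hk2' : ((k:ℝ) + 2) ≠ 0 := hk2.ne'
    have hmul : ((k:ℝ) + 2) * ((deriv Ψ s) ^ (k + 1) * (deriv Ψ s + 2 * s * deriv (deriv Ψ) s)
        * (V s) ^ (k + 5)) = ((k:ℝ) + 2) * Ψ s := by
      linear_combination (-((k:ℝ) + 2) * V s ^ (k + 5)) * hA - (2 * s * V s ^ (k + 5)) * hB
        + ((k:ℝ) + 2) * hode
    exact mul_left_cancel₀ hk2' hmul
  · -- the second equation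
    intro s hs
    have hVd : HasDerivAt V (deriv V s) s := by
      have := hdV s hs
      rwa [← hW s hs] at this
    have hΨd : HasDerivAt (deriv Ψ) (deriv (deriv Ψ) s) s := hΨ2 s hs
    have hZd : HasDerivAt Z (((k:ℝ) + 4) * (((k:ℝ) + 1) * (deriv Ψ s) ^ k * deriv (deriv Ψ) s
        * V s ^ (k + 3) * deriv V s
        + (deriv Ψ s) ^ (k + 1) * (((k:ℝ) + 3) * V s ^ (k + 2) * deriv V s) * deriv V s
        + (deriv Ψ s) ^ (k + 1) * V s ^ (k + 3) * deriv (deriv V) s)) s := by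
      have h1 := (hΨd.pow (k + 1))
      have h2 := (hVd.pow (k + 3))
      have h3 := (((h1.mul h2).mul (hV2 s hs)).const_mul ((k:ℝ) + 4))
      have h4 : HasDerivAt (fun t => ((k:ℝ) + 4) * ((deriv Ψ t) ^ (k + 1) * V t ^ (k + 3)
          * deriv V t))
          (((k:ℝ) + 4) * (((k:ℝ) + 1) * (deriv Ψ s) ^ k * deriv (deriv Ψ) s
            * V s ^ (k + 3) * deriv V s
          + (deriv Ψ s) ^ (k + 1) * (((k:ℝ) + 3) * V s ^ (k + 2) * deriv V s) * deriv V s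
          + (deriv Ψ s) ^ (k + 1) * V s ^ (k + 3) * deriv (deriv V) s)) s := by
        refine HasDerivAt.congr_deriv h3 ?_
        have e : k + 3 - 1 = k + 2 := rfl
        simp only [e, Nat.add_sub_cancel, Nat.cast_add, Nat.cast_ofNat, Nat.cast_one,
          Pi.mul_apply, Pi.pow_apply]
        ring
      apply h4.congr_of_eventuallyEq
      filter_upwards [hopen.mem_nhds hs] with t ht
      rw [hZP t ht]
      ring
    have hode := avg_ode (k + 1) hg2one hs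
    have hZd' : HasDerivAt Z (-((k:ℝ) + 4) * deriv (avg (k + 1) g2) s) s :=
      ((avg_hasDerivAt (k + 1) hg2one hs).differentiableAt.hasDerivAt).const_mul _
    have hder := hZd.unique hZd'
    have hZs := hZP s hs
    have hZs' : Z s = -((k:ℝ) + 4) * avg (k + 1) g2 s := rfl
    have hVs := hVpos s (hIJ hs)
    have hg2s : g2 s = 1 / V s := rfl
    rw [hg2s] at hode
    push_cast at hode
    rw [eq_div_iff hVs.ne'] at hode
    have hk4' : ((k:ℝ) + 4) ≠ 0 := hk4.ne'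
    have hA : ((k:ℝ) + 4) * avg (k + 1) g2 s
        = -(((k:ℝ) + 4) * (deriv Ψ s) ^ (k + 1) * V s ^ (k + 3) * deriv V s) := by
      rw [← hZs, hZs']
      ring
    have hB : ((k:ℝ) + 4) * deriv (avg (k + 1) g2) s
        = -(((k:ℝ) + 4) * (((k:ℝ) + 1) * (deriv Ψ s) ^ k * deriv (deriv Ψ) s
        * V s ^ (k + 3) * deriv V s
        + (deriv Ψ s) ^ (k + 1) * (((k:ℝ) + 3) * V s ^ (k + 2) * deriv V s) * deriv V s
        + (deriv Ψ s) ^ (k + 1) * V s ^ (k + 3) * deriv (deriv V) s)) := by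
      rw [hder]
      ring
    have hmul : ((k:ℝ) + 4) * (2 * s * (deriv Ψ s) ^ k * (V s) ^ (k + 3) *
          (((k:ℝ) + 1) * deriv (deriv Ψ) s * V s * deriv V s
            + ((k:ℝ) + 3) * deriv Ψ s * (deriv V s) ^ 2
            + deriv Ψ s * V s * deriv (deriv V) s)
        + ((k:ℝ) + 2) * (deriv Ψ s) ^ (k + 1) * (V s) ^ (k + 4) * deriv V s + 1)
        = ((k:ℝ) + 4) * 0 := by
      linear_combination (2 * s * V s) * hB + ((k:ℝ) + 2) * V s * hA - ((k:ℝ) + 4) * hode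
    have := mul_left_cancel₀ hk4' hmul
    exact this

/-- The bootstrap in terms of `IsProfileG`: a continuous positive solution of the integral
equations on `[-d, d]` is a profile on `(-d, d)`. -/
theorem boot_isProfileG (k : ℕ) {d : ℝ} {Ψ V : ℝ → ℝ}
    (hΨc : ContinuousOn Ψ (Icc (-d) d)) (hVc : ContinuousOn V (Icc (-d) d))
    (hΨpos : ∀ s ∈ Icc (-d) d, 0 < Ψ s) (hVpos : ∀ s ∈ Icc (-d) d, 0 < V s)
    (hΨ : ∀ s ∈ Icc (-d) d, Ψ s = 1 + ∫ t in (0:ℝ)..s,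
        (((k:ℝ) + 2) * avg (k + 1) (fun τ => Ψ τ / V τ ^ (k + 5)) t) ^ (1 / ((k:ℝ) + 2)))
    (hV : ∀ s ∈ Icc (-d) d, V s = 1 + ∫ t in (0:ℝ)..s,
        (-((k:ℝ) + 4) * avg (k + 1) (fun τ => 1 / V τ) t) /
          (((k:ℝ) + 4) * V t ^ (k + 3) *
            (((k:ℝ) + 2) * avg (k + 1) (fun τ => Ψ τ / V τ ^ (k + 5)) t) ^
              (((k:ℝ) + 1) / ((k:ℝ) + 2)))) :
    IsProfileG k Ψ V (Ioo (-d) d) := by
  obtain ⟨h1, h2, h3, h4, h5⟩ := boot_profile k hΨc hVc hΨpos hVpos hΨ hV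
  exact ⟨h1, h2, fun s hs => hΨpos s (Ioo_subset_Icc_self hs),
    fun s hs => hVpos s (Ioo_subset_Icc_self hs), h3, h4, h5⟩

/-- Local existence of a profile from the existence of a continuous positive fixed point. -/
theorem local_profileG_of_fixed_point (k : ℕ)
    (hfix : ∃ d : ℝ, 0 < d ∧ ∃ Ψ V : ℝ → ℝ,
      ContinuousOn Ψ (Icc (-d) d) ∧ ContinuousOn V (Icc (-d) d) ∧
      (∀ s ∈ Icc (-d) d, 0 < Ψ s) ∧ (∀ s ∈ Icc (-d) d, 0 < V s) ∧
      (∀ s ∈ Icc (-d) d, Ψ s = 1 + ∫ t in (0:ℝ)..s,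
        (((k:ℝ) + 2) * (∫ σ in (0:ℝ)..1, σ ^ (k + 1) * (Ψ (σ ^ 2 * t) / V (σ ^ 2 * t) ^ (k + 5))))
          ^ (1 / ((k:ℝ) + 2))) ∧
      (∀ s ∈ Icc (-d) d, V s = 1 + ∫ t in (0:ℝ)..s,
        (-((k:ℝ) + 4) * (∫ σ in (0:ℝ)..1, σ ^ (k + 1) * (1 / V (σ ^ 2 * t)))) /
          (((k:ℝ) + 4) * V t ^ (k + 3) *
            (((k:ℝ) + 2) * (∫ σ in (0:ℝ)..1,
              σ ^ (k + 1) * (Ψ (σ ^ 2 * t) / V (σ ^ 2 * t) ^ (k + 5)))) ^
              (((k:ℝ) + 1) / ((k:ℝ) + 2))))) :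
    ∃ δ : ℝ, 0 < δ ∧ ∃ Ψ V : ℝ → ℝ, IsProfileG k Ψ V (Set.Ioo (-δ) δ) := by
  obtain ⟨d, hd, Ψ, V, hΨc, hVc, hΨpos, hVpos, hΨ, hV⟩ := hfix
  exact ⟨d, hd, Ψ, V, boot_isProfileG k hΨc hVc hΨpos hVpos hΨ hV⟩

end Vale.Agent.H68.Prof
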