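import Mathlib
import Vale.Agent.H68.P252.DefsG

/-!
# P252, part B2-s: the local profile enters the invariant box

For a profile `(Ψ, V)` on `(-δ, δ)` the scale-invariant variables
`a = 2 s Ψ'/Ψ`, `b = Ψ/(V^(m+3) Ψ'^m)`, `ρ = -2 (m+2) s V'/(V b)` (`m = k + 2`)
lie in the open box `(0, 69/20) × (0, 12/5) × (0, 4)` for all small `s > 0`:
`a → 0+`, `b → 1` (first profile equation at `s = 0`), `ρ → 0+` (`V'(0) < 0` by the second
profile equation at `s = 0`).
-/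

namespace Vale.Agent.H68.Prof

open Set Filter Topology

/-- `a = 2 s Ψ' / Ψ`. -/
noncomputable def locA (Ψ : ℝ → ℝ) (s : ℝ) : ℝ := 2 * s * deriv Ψ s / Ψ s

/-- `b = Ψ / (V^(m+3) Ψ'^m)` with `m = k + 2`. -/
noncomputable def locB (k : ℕ) (Ψ V : ℝ → ℝ) (s : ℝ) : ℝ :=
  Ψ s / (V s ^ (k + 5) * deriv Ψ s ^ (k + 2))

/-- `ρ = -2 (m+2) s V' / (V b)` with `m = k + 2`. -/
noncomputable def locR (k : ℕ) (Ψ V : ℝ → ℝ) (s : ℝ) : ℝ :=
  -(2 * ((k : ℝ) + 4) * s * deriv V s) / (V s * locB k Ψ V s)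

theorem locA_pos {k : ℕ} {I : Set ℝ} {Ψ V : ℝ → ℝ} (h : IsProfileG k Ψ V I) {s : ℝ} (hs : s ∈ I)
    (hs0 : 0 < s) : 0 < locA Ψ s := by
  unfold locA
  have h1 := h.posΨ s hs
  have h2 := h.posD s hs
  positivity

theorem locB_pos {k : ℕ} {I : Set ℝ} {Ψ V : ℝ → ℝ} (h : IsProfileG k Ψ V I) {s : ℝ} (hs : s ∈ I) :
    0 < locB k Ψ V s := by
  unfold locB
  have h1 := h.posΨ s hs
  have h2 := h.posD s hs
  have h3 := h.posV s hs
  positivity

theorem locA_continuousOn {k : ℕ} {I : Set ℝ} (hI : IsOpen I) {Ψ V : ℝ → ℝ}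
    (h : IsProfileG k Ψ V I) : ContinuousOn (locA Ψ) I := by
  have hΨ : ContinuousOn Ψ I := h.smoothΨ.continuousOn
  have hD : ContinuousOn (deriv Ψ) I :=
    h.smoothΨ.continuousOn_deriv_of_isOpen hI (by exact_mod_cast le_top)
  unfold locA
  exact ((continuousOn_const.mul continuousOn_id).mul hD).div hΨ
    (fun s hs => (h.posΨ s hs).ne')

theorem locB_continuousOn {k : ℕ} {I : Set ℝ} (hI : IsOpen I) {Ψ V : ℝ → ℝ}
    (h : IsProfileG k Ψ V I) : ContinuousOn (locB k Ψ V) I := by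
  have hΨ : ContinuousOn Ψ I := h.smoothΨ.continuousOn
  have hV : ContinuousOn V I := h.smoothV.continuousOn
  have hD : ContinuousOn (deriv Ψ) I :=
    h.smoothΨ.continuousOn_deriv_of_isOpen hI (by exact_mod_cast le_top)
  unfold locB
  refine hΨ.div ((hV.pow _).mul (hD.pow _)) (fun s hs => ?_)
  have h2 := h.posD s hs
  have h3 := h.posV s hs
  positivity

theorem locR_continuousOn {k : ℕ} {I : Set ℝ} (hI : IsOpen I) {Ψ V : ℝ → ℝ}
    (h : IsProfileG k Ψ V I) : ContinuousOn (locR k Ψ V) I := by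
  have hV : ContinuousOn V I := h.smoothV.continuousOn
  have hDV : ContinuousOn (deriv V) I :=
    h.smoothV.continuousOn_deriv_of_isOpen hI (by exact_mod_cast le_top)
  have hB := locB_continuousOn hI h
  unfold locR
  refine (((continuousOn_const.mul continuousOn_id).mul hDV).neg).div (hV.mul hB)
    (fun s hs => ?_)
  have h3 := h.posV s hs
  have h4 := locB_pos h hs
  positivity

/-- `b(0) = 1`, from the first profile equation at `s = 0`. -/
theorem locB_zero {k : ℕ} {I : Set ℝ} {Ψ V : ℝ → ℝ} (h : IsProfileG k Ψ V I) (h0 : (0:ℝ) ∈ I) :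
    locB k Ψ V 0 = 1 := by
  have e1 := h.eq1 0 h0
  unfold Eq1G at e1
  have h2 := h.posD 0 h0
  have h3 := h.posV 0 h0
  unfold locB
  rw [div_eq_one_iff_eq (by positivity)]
  rw [← e1]
  ring

/-- `V'(0) < 0`, from the second profile equation at `s = 0`. -/
theorem derivV_zero_neg {k : ℕ} {I : Set ℝ} {Ψ V : ℝ → ℝ} (h : IsProfileG k Ψ V I)
    (h0 : (0:ℝ) ∈ I) : deriv V 0 < 0 := by
  have e2 := h.eq2 0 h0
  unfold Eq2G at e2
  have h2 := h.posD 0 h0
  have h3 := h.posV 0 h0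
  by_contra hcon
  have hcon := not_lt.1 hcon
  have hk : (0:ℝ) ≤ (k:ℝ) := Nat.cast_nonneg k
  have : 0 ≤ ((k : ℝ) + 2) * (deriv Ψ 0) ^ (k + 1) * (V 0) ^ (k + 4) * deriv V 0 := by positivity
  simp only [mul_zero, zero_mul, zero_add] at e2
  linarith

/-- PART B2-s: for all small `s > 0` the local triple `(a, b, ρ)` is in the open box. -/
theorem start_box (k : ℕ) {δ : ℝ} (hδ : 0 < δ) {Ψ V : ℝ → ℝ}
    (h : IsProfileG k Ψ V (Set.Ioo (-δ) δ)) :
    ∃ s1 : ℝ, 0 < s1 ∧ s1 < δ ∧ ∀ s, 0 < s → s ≤ s1 →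
      (0 < locA Ψ s ∧ locA Ψ s < 69 / 20) ∧ (0 < locB k Ψ V s ∧ locB k Ψ V s < 12 / 5) ∧
      (0 < locR k Ψ V s ∧ locR k Ψ V s < 4) := by
  have hI : IsOpen (Ioo (-δ) δ) := isOpen_Ioo
  have h0 : (0:ℝ) ∈ Ioo (-δ) δ := ⟨by linarith, hδ⟩
  have hnhds : Ioo (-δ) δ ∈ 𝓝 (0:ℝ) := hI.mem_nhds h0
  -- continuity at `0`
  have cA : ContinuousAt (locA Ψ) 0 := (locA_continuousOn hI h).continuousAt hnhds
  have cB : ContinuousAt (locB k Ψ V) 0 := (locB_continuousOn hI h).continuousAt hnhds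
  have cR : ContinuousAt (locR k Ψ V) 0 := (locR_continuousOn hI h).continuousAt hnhds
  have cDV : ContinuousAt (deriv V) 0 :=
    (h.smoothV.continuousOn_deriv_of_isOpen hI (by exact_mod_cast le_top)).continuousAt hnhds
  -- values at `0`
  have vA : locA Ψ 0 = 0 := by unfold locA; simp
  have vB : locB k Ψ V 0 = 1 := locB_zero h h0
  have vR : locR k Ψ V 0 = 0 := by unfold locR; simp
  have vDV : deriv V 0 < 0 := derivV_zero_neg h h0
  -- eventual inequalities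
  have eA : ∀ᶠ s in 𝓝 (0:ℝ), locA Ψ s < 69 / 20 :=
    cA.eventually_lt continuousAt_const (by rw [vA]; norm_num)
  have eB : ∀ᶠ s in 𝓝 (0:ℝ), locB k Ψ V s < 12 / 5 :=
    cB.eventually_lt continuousAt_const (by rw [vB]; norm_num)
  have eR : ∀ᶠ s in 𝓝 (0:ℝ), locR k Ψ V s < 4 :=
    cR.eventually_lt continuousAt_const (by rw [vR]; norm_num)
  have eDV : ∀ᶠ s in 𝓝 (0:ℝ), deriv V s < 0 :=
    cDV.eventually_lt continuousAt_const vDV
  have eI : ∀ᶠ s in 𝓝 (0:ℝ), s ∈ Ioo (-δ) δ := hnhds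
  obtain ⟨ε, hε, hball⟩ := Metric.eventually_nhds_iff.1 (eA.and (eB.and (eR.and (eDV.and eI))))
  refine ⟨min ε δ / 2, by positivity, ?_, ?_⟩
  · have := min_le_right ε δ
    linarith
  · intro s hs0 hs1
    have hsε : dist s 0 < ε := by
      rw [Real.dist_eq, sub_zero, abs_of_pos hs0]
      have := min_le_left ε δ
      linarith [lt_min hε hδ]
    obtain ⟨hA, hB, hR, hDV, hsI⟩ := hball hsε
    refine ⟨⟨locA_pos h hsI hs0, hA⟩, ⟨locB_pos h hsI, hB⟩, ?_, hR⟩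
    unfold locR
    have h3 := h.posV s hsI
    have h4 := locB_pos h hsI
    have hk : (0:ℝ) ≤ (k:ℝ) := Nat.cast_nonneg k
    apply div_pos _ (by positivity)
    have : 0 < 2 * ((k:ℝ) + 4) * s * (-deriv V s) := by
      have : 0 < -deriv V s := by linarith
      positivity
    linarith

end Vale.Agent.H68.Prof
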