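import Mathlib
import Vale.Agent.H68.P252.DefsG
import Vale.Agent.H68.P252.Start
import Vale.Agent.H68.P252.AbrGlobal
import Vale.Agent.H68.P252.AbrGlue
import Vale.Agent.H68.P252.AbrWeak

/-!
# P252, part B2: final assembly (from the pieces to `extend_profileG`)

`extend_profileG_aux` proves the global continuation of a local profile from two inputs stated as
hypotheses: the local `(a, b, ρ)` system satisfied by a profile (`hloc`) and the reconstruction of
a profile from a global solution of the `(a, b, ρ)` system (`hrec`). Everything else (entering the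
box, the global solution, the gluing) is taken from `Start.lean`, `AbrGlobal.lean`,
`AbrGlue.lean`.
-/

namespace Vale.Agent.H68.Prof

open Set Filter Topology

/-- A profile on `I` is a profile on every subset of `I`. -/
theorem IsProfileG.mono {k : ℕ} {Ψ V : ℝ → ℝ} {I J : Set ℝ} (h : IsProfileG k Ψ V I)
    (hJ : J ⊆ I) : IsProfileG k Ψ V J :=
  ⟨h.smoothΨ.mono hJ, h.smoothV.mono hJ, fun s hs => h.posΨ s (hJ hs),
    fun s hs => h.posV s (hJ hs), fun s hs => h.posD s (hJ hs), fun s hs => h.eq1 s (hJ hs),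
    fun s hs => h.eq2 s (hJ hs)⟩

/-- Being a profile on an open set only depends on the values of the two functions there. -/
theorem IsProfileG.congr_of_eqOn {k : ℕ} {Ψ V Ψ' V' : ℝ → ℝ} {I : Set ℝ} (hI : IsOpen I)
    (h : IsProfileG k Ψ V I) (hΨ : EqOn Ψ' Ψ I) (hV : EqOn V' V I) : IsProfileG k Ψ' V' I := by
  have eΨ : ∀ s ∈ I, Ψ' =ᶠ[𝓝 s] Ψ := fun s hs => by
    filter_upwards [hI.mem_nhds hs] with u hu using hΨ hu
  have eV : ∀ s ∈ I, V' =ᶠ[𝓝 s] V := fun s hs => by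
    filter_upwards [hI.mem_nhds hs] with u hu using hV hu
  have dΨ : ∀ s ∈ I, deriv Ψ' s = deriv Ψ s := fun s hs => (eΨ s hs).deriv_eq
  have dV : ∀ s ∈ I, deriv V' s = deriv V s := fun s hs => (eV s hs).deriv_eq
  have ddΨ : ∀ s ∈ I, deriv (deriv Ψ') s = deriv (deriv Ψ) s := fun s hs => (eΨ s hs).deriv.deriv_eq
  have ddV : ∀ s ∈ I, deriv (deriv V') s = deriv (deriv V) s := fun s hs => (eV s hs).deriv.deriv_eq
  refine ⟨h.smoothΨ.congr hΨ, h.smoothV.congr hV, fun s hs => ?_, fun s hs => ?_, fun s hs => ?_,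
    fun s hs => ?_, fun s hs => ?_⟩
  · rw [hΨ hs]; exact h.posΨ s hs
  · rw [hV hs]; exact h.posV s hs
  · rw [dΨ s hs]; exact h.posD s hs
  · have := h.eq1 s hs
    unfold Eq1G at this ⊢
    rw [dΨ s hs, ddΨ s hs, hΨ hs, hV hs]
    exact this
  · have := h.eq2 s hs
    unfold Eq2G at this ⊢
    rw [dΨ s hs, ddΨ s hs, dV s hs, ddV s hs, hV hs]
    exact this

/-- Profiles on two open sets give a profile on the union. -/
theorem IsProfileG.union {k : ℕ} {Ψ V : ℝ → ℝ} {I J : Set ℝ} (hI : IsOpen I) (hJ : IsOpen J)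
    (h1 : IsProfileG k Ψ V I) (h2 : IsProfileG k Ψ V J) : IsProfileG k Ψ V (I ∪ J) := by
  refine ⟨fun s hs => ?_, fun s hs => ?_, fun s hs => ?_, fun s hs => ?_, fun s hs => ?_,
    fun s hs => ?_, fun s hs => ?_⟩
  · rcases hs with hs | hs
    · exact (h1.smoothΨ.contDiffAt (hI.mem_nhds hs)).contDiffWithinAt
    · exact (h2.smoothΨ.contDiffAt (hJ.mem_nhds hs)).contDiffWithinAt
  · rcases hs with hs | hs
    · exact (h1.smoothV.contDiffAt (hI.mem_nhds hs)).contDiffWithinAt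
    · exact (h2.smoothV.contDiffAt (hJ.mem_nhds hs)).contDiffWithinAt
  · rcases hs with hs | hs
    · exact h1.posΨ s hs
    · exact h2.posΨ s hs
  · rcases hs with hs | hs
    · exact h1.posV s hs
    · exact h2.posV s hs
  · rcases hs with hs | hs
    · exact h1.posD s hs
    · exact h2.posD s hs
  · rcases hs with hs | hs
    · exact h1.eq1 s hs
    · exact h2.eq1 s hs
  · rcases hs with hs | hs
    · exact h1.eq2 s hs
    · exact h2.eq2 s hs

/-- Two solutions of the same linear equation `y' = c y` on `[x, s0]`, the second one without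
zeros, that agree at `s0` agree at `x`. -/
theorem eq_of_linear_ode {f g c : ℝ → ℝ} {x s0 : ℝ} (hx : x ≤ s0)
    (hf : ∀ s ∈ Icc x s0, HasDerivAt f (c s * f s) s)
    (hg : ∀ s ∈ Icc x s0, HasDerivAt g (c s * g s) s)
    (hg0 : ∀ s ∈ Icc x s0, g s ≠ 0) (h0 : f s0 = g s0) : f x = g x := by
  have hq : ∀ s ∈ Icc x s0, HasDerivAt (fun u => f u / g u) 0 s := by
    intro s hs
    have h1 := (hf s hs).div (hg s hs) (hg0 s hs)
    refine h1.congr_deriv ?_
    have := hg0 s hs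
    field_simp
    ring
  have hcont : ContinuousOn (fun u => f u / g u) (Icc x s0) := fun s hs =>
    (hq s hs).continuousAt.continuousWithinAt
  have hconst := constant_of_has_deriv_right_zero hcont
    (fun s hs => (hq s ⟨hs.1, hs.2.le⟩).hasDerivWithinAt) s0 ⟨hx, le_rfl⟩
  have h1 : f s0 / g s0 = f x / g x := hconst
  have hgs0 := hg0 s0 ⟨hx, le_rfl⟩
  have hgx := hg0 x ⟨le_rfl, hx⟩
  rw [h0, div_self hgs0] at h1
  field_simp at h1
  linarith

/-- The assembly of part B2, with the local system and the reconstruction as hypotheses; the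
invariant box `(0, A) × (0, B) × (0, R)` is a parameter (it must contain the box
`(0, 69/20) × (0, 12/5) × (0, 4)` into which `start_box` puts the local solution). -/
theorem extend_profileG_aux (k : ℕ) {A B R : ℝ} (hp : BoxParams ((k : ℝ) + 2) A B R)
    (hA : 69 / 20 ≤ A) (hB : 12 / 5 ≤ B) (hR : 4 ≤ R) {δ : ℝ} (hδ : 0 < δ) {Ψ V : ℝ → ℝ}
    (h : IsProfileG k Ψ V (Set.Ioo (-δ) δ))
    (hloc : ∀ s, s ∈ Set.Ioo (-δ) δ → 0 < s →
      HasDerivAt (locA Ψ) (gA (locA Ψ s) (locB k Ψ V s) / (2 * s)) s ∧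
      HasDerivAt (locB k Ψ V)
        (gB ((k : ℝ) + 2) (locA Ψ s) (locB k Ψ V s) (locR k Ψ V s) / (2 * s)) s ∧
      HasDerivAt (locR k Ψ V)
        (gR ((k : ℝ) + 2) (locA Ψ s) (locB k Ψ V s) (locR k Ψ V s) / (2 * s)) s)
    (hrec : ∀ (s0 Ψ0 V0 : ℝ), 0 < s0 → 0 < Ψ0 → 0 < V0 → ∀ (a b r : ℝ → ℝ),
      ContDiffOn ℝ ((⊤ : ℕ∞) : WithTop ℕ∞) a (Set.Ioi 0) →
      ContDiffOn ℝ ((⊤ : ℕ∞) : WithTop ℕ∞) b (Set.Ioi 0) →
      ContDiffOn ℝ ((⊤ : ℕ∞) : WithTop ℕ∞) r (Set.Ioi 0) →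
      (∀ s, 0 < s → HasDerivAt a (gA (a s) (b s) / (2 * s)) s ∧
        HasDerivAt b (gB ((k : ℝ) + 2) (a s) (b s) (r s) / (2 * s)) s ∧
        HasDerivAt r (gR ((k : ℝ) + 2) (a s) (b s) (r s) / (2 * s)) s) →
      (∀ s, 0 < s → 0 < a s) → (∀ s, 0 < s → 0 < b s) →
      b s0 * V0 ^ (k + 5) * (a s0 * Ψ0 / (2 * s0)) ^ (k + 2) = Ψ0 →
      ∃ Ψr Vr : ℝ → ℝ, Ψr s0 = Ψ0 ∧ Vr s0 = V0 ∧ IsProfileG k Ψr Vr (Set.Ioi 0) ∧
        (∀ s, 0 < s → HasDerivAt Ψr (Ψr s * a s / (2 * s)) s) ∧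
        (∀ s, 0 < s → HasDerivAt Vr (-(Vr s * r s * b s) / (2 * ((k : ℝ) + 4) * s)) s)) :
    ∃ Ψg Vg : ℝ → ℝ, IsProfileG k Ψg Vg (Set.Ioi (-δ)) := by
  have hk0 : (0 : ℝ) ≤ (k : ℝ) := Nat.cast_nonneg k
  -- base point in the box
  obtain ⟨s0, hs0, hs0δ, hbox⟩ := start_box k hδ h
  have hmemI : ∀ s, 0 < s → s ≤ s0 → s ∈ Set.Ioo (-δ) δ := fun s h1 h2 =>
    ⟨by linarith, lt_of_le_of_lt h2 hs0δ⟩
  obtain ⟨hA0, hB0, hR0⟩ := hbox s0 hs0 le_rfl
  -- global solution of the (a, b, ρ) system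
  obtain ⟨a, b, r, hle, hge, hsys, sa, sb, sr⟩ :=
    abr_extend_weak hp hs0 (al := locA Ψ) (bl := locB k Ψ V) (rl := locR k Ψ V)
      (fun s h1 h2 => hloc s (hmemI s h1 h2) h1) ⟨hA0.1, lt_of_lt_of_le hA0.2 hA⟩
      ⟨hB0.1, lt_of_lt_of_le hB0.2 hB⟩ ⟨hR0.1, lt_of_lt_of_le hR0.2 hR⟩
  have hapos : ∀ s, 0 < s → 0 < a s := by
    intro s hs
    rcases le_total s s0 with h1 | h1
    · rw [(hle s h1).1]
      exact locA_pos h (hmemI s hs h1) hs
    · exact (hge s h1).1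
  have hbpos : ∀ s, 0 < s → 0 < b s := by
    intro s hs
    rcases le_total s s0 with h1 | h1
    · rw [(hle s h1).2.1]
      exact locB_pos h (hmemI s hs h1)
    · exact (hge s h1).2.2.1
  -- facts about the local profile on (0, s0]
  have hΨpos : ∀ s, 0 < s → s ≤ s0 → 0 < Ψ s := fun s h1 h2 => h.posΨ s (hmemI s h1 h2)
  have hVpos : ∀ s, 0 < s → s ≤ s0 → 0 < V s := fun s h1 h2 => h.posV s (hmemI s h1 h2)
  have hDpos : ∀ s, 0 < s → s ≤ s0 → 0 < deriv Ψ s := fun s h1 h2 => h.posD s (hmemI s h1 h2)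
  have hΨd : ∀ s, 0 < s → s ≤ s0 → HasDerivAt Ψ (deriv Ψ s) s := fun s h1 h2 =>
    ((h.smoothΨ.contDiffAt (isOpen_Ioo.mem_nhds (hmemI s h1 h2))).differentiableAt
      (by simp)).hasDerivAt
  have hVd : ∀ s, 0 < s → s ≤ s0 → HasDerivAt V (deriv V s) s := fun s h1 h2 =>
    ((h.smoothV.contDiffAt (isOpen_Ioo.mem_nhds (hmemI s h1 h2))).differentiableAt
      (by simp)).hasDerivAt
  -- reconstruction
  have hinit : b s0 * V s0 ^ (k + 5) * (a s0 * Ψ s0 / (2 * s0)) ^ (k + 2) = Ψ s0 := by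
    rw [(hle s0 le_rfl).1, (hle s0 le_rfl).2.1]
    have h1 := hΨpos s0 hs0 le_rfl
    have h2 := hVpos s0 hs0 le_rfl
    have h3 := hDpos s0 hs0 le_rfl
    have e : locA Ψ s0 * Ψ s0 / (2 * s0) = deriv Ψ s0 := by
      unfold locA
      field_simp
    rw [e]
    unfold locB
    field_simp
  obtain ⟨Ψr, Vr, hΨr0, hVr0, hprof, hΨrd, hVrd⟩ :=
    hrec s0 (Ψ s0) (V s0) hs0 (hΨpos s0 hs0 le_rfl) (hVpos s0 hs0 le_rfl) a b r sa sb sr hsys
      hapos hbpos hinit
  -- agreement on (0, s0]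
  have hΨeq : ∀ x, 0 < x → x ≤ s0 → Ψ x = Ψr x := by
    intro x hx0 hx
    refine eq_of_linear_ode (c := fun s => a s / (2 * s)) hx ?_ ?_ ?_ hΨr0.symm
    · intro s hs
      have hs_pos : 0 < s := lt_of_lt_of_le hx0 hs.1
      refine (hΨd s hs_pos hs.2).congr_deriv ?_
      rw [(hle s hs.2).1]
      have h1 := hΨpos s hs_pos hs.2
      unfold locA
      field_simp
    · intro s hs
      have hs_pos : 0 < s := lt_of_lt_of_le hx0 hs.1
      refine (hΨrd s hs_pos).congr_deriv ?_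
      ring
    · intro s hs
      have hs_pos : 0 < s := lt_of_lt_of_le hx0 hs.1
      exact (hprof.posΨ s hs_pos).ne'
  have hVeq : ∀ x, 0 < x → x ≤ s0 → V x = Vr x := by
    intro x hx0 hx
    refine eq_of_linear_ode (c := fun s => -(r s * b s) / (2 * ((k : ℝ) + 4) * s)) hx ?_ ?_ ?_
      hVr0.symm
    · intro s hs
      have hs_pos : 0 < s := lt_of_lt_of_le hx0 hs.1
      refine (hVd s hs_pos hs.2).congr_deriv ?_
      rw [(hle s hs.2).2.2, (hle s hs.2).2.1]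
      have h2 := hVpos s hs_pos hs.2
      have h4 := locB_pos h (hmemI s hs_pos hs.2)
      unfold locR
      field_simp
    · intro s hs
      have hs_pos : 0 < s := lt_of_lt_of_le hx0 hs.1
      refine (hVrd s hs_pos).congr_deriv ?_
      ring
    · intro s hs
      have hs_pos : 0 < s := lt_of_lt_of_le hx0 hs.1
      exact (hprof.posV s hs_pos).ne'
  -- the glued profile
  refine ⟨fun s => if s ≤ s0 then Ψ s else Ψr s, fun s => if s ≤ s0 then V s else Vr s, ?_⟩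
  have hL : IsProfileG k (fun s => if s ≤ s0 then Ψ s else Ψr s)
      (fun s => if s ≤ s0 then V s else Vr s) (Set.Ioo (-δ) s0) := by
    refine IsProfileG.congr_of_eqOn isOpen_Ioo
      (h.mono (fun s hs => ⟨hs.1, lt_trans hs.2 hs0δ⟩)) ?_ ?_
    · intro s hs
      show (if s ≤ s0 then Ψ s else Ψr s) = Ψ s
      rw [if_pos hs.2.le]
    · intro s hs
      show (if s ≤ s0 then V s else Vr s) = V s
      rw [if_pos hs.2.le]
  have hR : IsProfileG k (fun s => if s ≤ s0 then Ψ s else Ψr s)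
      (fun s => if s ≤ s0 then V s else Vr s) (Set.Ioi 0) := by
    refine IsProfileG.congr_of_eqOn isOpen_Ioi hprof ?_ ?_
    · intro s hs
      show (if s ≤ s0 then Ψ s else Ψr s) = Ψr s
      by_cases h1 : s ≤ s0
      · rw [if_pos h1]
        exact hΨeq s hs h1
      · rw [if_neg h1]
    · intro s hs
      show (if s ≤ s0 then V s else Vr s) = Vr s
      by_cases h1 : s ≤ s0
      · rw [if_pos h1]
        exact hVeq s hs h1
      · rw [if_neg h1]
  have hU := IsProfileG.union isOpen_Ioo isOpen_Ioi hL hR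
  refine hU.mono ?_
  intro s hs
  rcases lt_or_ge s s0 with h1 | h1
  · exact Or.inl ⟨hs, h1⟩
  · exact Or.inr (lt_of_lt_of_le hs0 h1)

end Vale.Agent.H68.Prof
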