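import Mathlib
import Vale.Agent.H68.P252.DefsG

/-!
# P252, part B2-d (RECON): from a solution of the reduced `(a, b, ρ)` system to a profile

If `(a, b, ρ)` solve the reduced system on `(0, ∞)` with `a, b > 0`, and `Ψ`, `V` are positive
solutions of the two linear equations `Ψ' = Ψ a / (2 s)`, `V' = - V ρ b / (2 (m + 2) s)`
(`m = k + 2`) with `b V^(m+3) Ψ'^m = Ψ` at one point `s0 > 0`, then `(Ψ, V)` is a profile on
`(0, ∞)` (`recon_isProfile`). Such `Ψ`, `V` exist with prescribed positive values at `s0`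
(`recon_profile`).
-/

namespace Vale.Agent.H68.Prof

open Set

/-- Fundamental theorem of calculus on `(0, ∞)` for a base point `s0 > 0`. -/
theorem recon_prim_hasDerivAt {f : ℝ → ℝ} (hf : ContinuousOn f (Ioi 0)) {s0 : ℝ} (hs0 : 0 < s0)
    {s : ℝ} (hs : 0 < s) : HasDerivAt (fun u => ∫ τ in s0..u, f τ) (f s) s := by
  have hsub : Set.uIcc s0 s ⊆ Ioi 0 := by
    intro x hx
    rcases Set.mem_uIcc.1 hx with h | h
    · exact lt_of_lt_of_le hs0 h.1
    · exact lt_of_lt_of_le hs h.1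
  exact intervalIntegral.integral_hasDerivAt_right ((hf.mono hsub).intervalIntegrable)
    (hf.stronglyMeasurableAtFilter isOpen_Ioi s hs) (hf.continuousAt (Ioi_mem_nhds hs))

/-- A solution of a linear equation `F' = F c` with smooth coefficient on `(0, ∞)` is smooth. -/
theorem recon_smooth_of_linear {F c : ℝ → ℝ}
    (hc : ContDiffOn ℝ ((⊤ : ℕ∞) : WithTop ℕ∞) c (Ioi 0))
    (hF : ∀ s, 0 < s → HasDerivAt F (F s * c s) s) :
    ContDiffOn ℝ ((⊤ : ℕ∞) : WithTop ℕ∞) F (Ioi 0) := by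
  rw [contDiffOn_infty]
  intro n
  induction n with
  | zero =>
    have hcont : ContinuousOn F (Ioi 0) := fun s hs =>
      (hF s hs).continuousAt.continuousWithinAt
    exact_mod_cast contDiffOn_zero.2 hcont
  | succ n ih =>
    have hcast : ((n + 1 : ℕ) : WithTop ℕ∞) = (n : WithTop ℕ∞) + 1 := by norm_cast
    rw [hcast, contDiffOn_succ_iff_deriv_of_isOpen isOpen_Ioi]
    refine ⟨fun s hs => (hF s hs).differentiableAt.differentiableWithinAt, ?_, ?_⟩
    · intro h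
      exact absurd h (by exact_mod_cast WithTop.coe_ne_top)
    · have hcn : ContDiffOn ℝ (n : WithTop ℕ∞) c (Ioi 0) :=
        hc.of_le (by exact_mod_cast le_top)
      exact (ih.mul hcn).congr (fun s hs => (hF s hs).deriv)

/-- Core algebra of `Eq1G`: the invariant `b V^(k+5) P^(k+2)` has logarithmic derivative
`a / (2 s)`. -/
theorem recon_inv_alg (k : ℕ) (s a b r V P : ℝ) (hs : s ≠ 0) :
    ((b * ((k : ℝ) + 2 + a - b * ((k : ℝ) + 2 - ((k : ℝ) + 5) * r / ((k : ℝ) + 4))) / (2 * s))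
          * V ^ (k + 5)
        + b * (((k + 5 : ℕ) : ℝ) * V ^ (k + 5 - 1) * (-(V * r * b) / (2 * ((k : ℝ) + 4) * s))))
        * P ^ (k + 2)
      + b * V ^ (k + 5) * (((k + 2 : ℕ) : ℝ) * P ^ (k + 2 - 1) * (P * (b - 1) / (2 * s)))
      = b * V ^ (k + 5) * P ^ (k + 2) * (a / (2 * s)) := by
  have hM : (k : ℝ) + 4 ≠ 0 := by positivity
  have e1 : k + 5 - 1 = k + 4 := by omega
  have e2 : k + 2 - 1 = k + 1 := by omega
  rw [e1, e2]
  push_cast
  field_simp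
  ring

/-- Core algebra of `Eq2G`: with `P' = P (b - 1) / (2 s)`, `Q = V' = - V ρ b / (2 (k + 4) s)` and
`Q' = V''` computed from the `ρ`- and `b`-equations, the left-hand side of `Eq2G` with its
constant `1` replaced by `b V^(k+5) P^(k+1) a / (2 s)` vanishes identically. -/
theorem recon_eq2_alg (k : ℕ) (s a b r V P P' Q Q' : ℝ) (hs : s ≠ 0)
    (hP' : P' = P * (b - 1) / (2 * s))
    (hQ : Q = -(V * r * b) / (2 * ((k : ℝ) + 4) * s))
    (hQ' : Q' = (-((Q * r + V * ((((k : ℝ) + 4 - r) * (a + b * r / ((k : ℝ) + 4))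
                    - ((k : ℝ) + 1) * r) / (2 * s))) * b
                  + V * r * (b * ((k : ℝ) + 2 + a
                    - b * ((k : ℝ) + 2 - ((k : ℝ) + 5) * r / ((k : ℝ) + 4))) / (2 * s)))
                * (2 * ((k : ℝ) + 4) * s) - (-(V * r * b)) * (2 * ((k : ℝ) + 4) * 1))
              / (2 * ((k : ℝ) + 4) * s) ^ 2) :
    2 * s * P ^ k * V ^ (k + 3) *
        (((k : ℝ) + 1) * P' * V * Q + ((k : ℝ) + 3) * P * Q ^ 2 + P * V * Q')
      + ((k : ℝ) + 2) * P ^ (k + 1) * V ^ (k + 4) * Q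
      + b * V ^ (k + 5) * P ^ (k + 1) * a / (2 * s) = 0 := by
  have hM : (k : ℝ) + 4 ≠ 0 := by positivity
  subst hQ
  subst hQ'
  subst hP'
  field_simp
  ring

/-- **B2-d (RECON), general form.** If `(a, b, r)` solve the reduced system on `(0, ∞)` with
`a, b > 0`, and `Ψr`, `Vr` are positive solutions of `Ψr' = Ψr a / (2 s)`,
`Vr' = - Vr r b / (2 (k + 4) s)` on `(0, ∞)` with `b Vr^(k+5) Ψr'^(k+2) = Ψr` at one point
`s0 > 0`, then `(Ψr, Vr)` is a profile on `(0, ∞)`. -/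
theorem recon_isProfile (k : ℕ) {s0 : ℝ} (hs0 : 0 < s0) {a b r Ψr Vr : ℝ → ℝ}
    (hsa : ContDiffOn ℝ ((⊤ : ℕ∞) : WithTop ℕ∞) a (Ioi 0))
    (hsb : ContDiffOn ℝ ((⊤ : ℕ∞) : WithTop ℕ∞) b (Ioi 0))
    (hsr : ContDiffOn ℝ ((⊤ : ℕ∞) : WithTop ℕ∞) r (Ioi 0))
    (ha : ∀ s, 0 < s → HasDerivAt a (a s * (1 + b s - a s) / (2 * s)) s)
    (hb : ∀ s, 0 < s → HasDerivAt b (b s * ((k : ℝ) + 2 + a s
      - b s * ((k : ℝ) + 2 - ((k : ℝ) + 5) * r s / ((k : ℝ) + 4))) / (2 * s)) s)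
    (hr : ∀ s, 0 < s → HasDerivAt r ((((k : ℝ) + 4 - r s) * (a s + b s * r s / ((k : ℝ) + 4))
      - ((k : ℝ) + 1) * r s) / (2 * s)) s)
    (hapos : ∀ s, 0 < s → 0 < a s)
    (hΨpos : ∀ s, 0 < s → 0 < Ψr s) (hVpos : ∀ s, 0 < s → 0 < Vr s)
    (hΨd : ∀ s, 0 < s → HasDerivAt Ψr (Ψr s * a s / (2 * s)) s)
    (hVd : ∀ s, 0 < s → HasDerivAt Vr (-(Vr s * r s * b s) / (2 * ((k : ℝ) + 4) * s)) s)
    (hinit : b s0 * Vr s0 ^ (k + 5) * (Ψr s0 * a s0 / (2 * s0)) ^ (k + 2) = Ψr s0) :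
    IsProfileG k Ψr Vr (Ioi 0) := by
  have hM : (k : ℝ) + 4 ≠ 0 := by positivity
  -- smoothness
  have hsΨ : ContDiffOn ℝ ((⊤ : ℕ∞) : WithTop ℕ∞) Ψr (Ioi 0) := by
    refine recon_smooth_of_linear (c := fun s => a s / (2 * s))
      (hsa.div (contDiff_const.mul contDiff_id).contDiffOn ?_) ?_
    · intro s hs
      have : (0 : ℝ) < s := hs
      positivity
    · intro s hs
      have := hΨd s hs
      rwa [mul_div_assoc] at this
  have hsV : ContDiffOn ℝ ((⊤ : ℕ∞) : WithTop ℕ∞) Vr (Ioi 0) := by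
    refine recon_smooth_of_linear (c := fun s => -(r s * b s) / (2 * ((k : ℝ) + 4) * s))
      (((hsr.mul hsb).neg).div (contDiff_const.mul contDiff_id).contDiffOn ?_) ?_
    · intro s hs
      have : (0 : ℝ) < s := hs
      positivity
    · intro s hs
      have := hVd s hs
      convert this using 1
      ring
  -- first derivatives
  have hdΨ : ∀ s, 0 < s → deriv Ψr s = Ψr s * a s / (2 * s) := fun s hs => (hΨd s hs).deriv
  have hdV : ∀ s, 0 < s → deriv Vr s = -(Vr s * r s * b s) / (2 * ((k : ℝ) + 4) * s) :=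
    fun s hs => (hVd s hs).deriv
  have hPpos : ∀ s, 0 < s → 0 < Ψr s * a s / (2 * s) := fun s hs => by
    have h1 := hΨpos s hs
    have h2 := hapos s hs
    positivity
  -- second derivatives
  have hPd : ∀ s, 0 < s → HasDerivAt (fun s => Ψr s * a s / (2 * s))
      (Ψr s * a s / (2 * s) * (b s - 1) / (2 * s)) s := by
    intro s hs
    have hne : (2 : ℝ) * s ≠ 0 := by positivity
    have h := ((hΨd s hs).fun_mul (ha s hs)).fun_div ((hasDerivAt_id' s).const_mul 2) hne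
    refine h.congr_deriv ?_
    field_simp
    ring
  have hQd : ∀ s, 0 < s → HasDerivAt (fun s => -(Vr s * r s * b s) / (2 * ((k : ℝ) + 4) * s))
      ((-((-(Vr s * r s * b s) / (2 * ((k : ℝ) + 4) * s) * r s
            + Vr s * ((((k : ℝ) + 4 - r s) * (a s + b s * r s / ((k : ℝ) + 4))
                    - ((k : ℝ) + 1) * r s) / (2 * s))) * b s
          + Vr s * r s * (b s * ((k : ℝ) + 2 + a s
                    - b s * ((k : ℝ) + 2 - ((k : ℝ) + 5) * r s / ((k : ℝ) + 4))) / (2 * s)))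
          * (2 * ((k : ℝ) + 4) * s) - (-(Vr s * r s * b s)) * (2 * ((k : ℝ) + 4) * 1))
        / (2 * ((k : ℝ) + 4) * s) ^ 2) s := by
    intro s hs
    have hne : 2 * ((k : ℝ) + 4) * s ≠ 0 := by positivity
    exact ((((hVd s hs).fun_mul (hr s hs)).fun_mul (hb s hs)).fun_neg).fun_div
      ((hasDerivAt_id' s).const_mul (2 * ((k : ℝ) + 4))) hne
  have hddΨ : ∀ s, 0 < s →
      deriv (deriv Ψr) s = Ψr s * a s / (2 * s) * (b s - 1) / (2 * s) := by
    intro s hs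
    have hev : deriv Ψr =ᶠ[nhds s] fun s => Ψr s * a s / (2 * s) := by
      filter_upwards [Ioi_mem_nhds hs] with t ht using hdΨ t ht
    rw [hev.deriv_eq]
    exact (hPd s hs).deriv
  have hddV : ∀ s, 0 < s → deriv (deriv Vr) s =
      ((-((-(Vr s * r s * b s) / (2 * ((k : ℝ) + 4) * s) * r s
            + Vr s * ((((k : ℝ) + 4 - r s) * (a s + b s * r s / ((k : ℝ) + 4))
                    - ((k : ℝ) + 1) * r s) / (2 * s))) * b s
          + Vr s * r s * (b s * ((k : ℝ) + 2 + a s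
                    - b s * ((k : ℝ) + 2 - ((k : ℝ) + 5) * r s / ((k : ℝ) + 4))) / (2 * s)))
          * (2 * ((k : ℝ) + 4) * s) - (-(Vr s * r s * b s)) * (2 * ((k : ℝ) + 4) * 1))
        / (2 * ((k : ℝ) + 4) * s) ^ 2) := by
    intro s hs
    have hev : deriv Vr =ᶠ[nhds s] fun s => -(Vr s * r s * b s) / (2 * ((k : ℝ) + 4) * s) := by
      filter_upwards [Ioi_mem_nhds hs] with t ht using hdV t ht
    rw [hev.deriv_eq]
    exact (hQd s hs).deriv
  -- the invariant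
  have hNd : ∀ s, 0 < s → HasDerivAt
      (fun s => b s * Vr s ^ (k + 5) * (Ψr s * a s / (2 * s)) ^ (k + 2))
      (b s * Vr s ^ (k + 5) * (Ψr s * a s / (2 * s)) ^ (k + 2) * (a s / (2 * s))) s := by
    intro s hs
    have h := ((hb s hs).fun_mul ((hVd s hs).fun_pow (k + 5))).fun_mul ((hPd s hs).fun_pow (k + 2))
    exact h.congr_deriv
      (recon_inv_alg k s (a s) (b s) (r s) (Vr s) (Ψr s * a s / (2 * s)) hs.ne')
  have hWd : ∀ s, 0 < s → HasDerivAt
      (fun s => b s * Vr s ^ (k + 5) * (Ψr s * a s / (2 * s)) ^ (k + 2) / Ψr s) 0 s := by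
    intro s hs
    have hΨne := (hΨpos s hs).ne'
    have h := (hNd s hs).fun_div (hΨd s hs) hΨne
    refine h.congr_deriv ?_
    field_simp
    ring
  have hstar : ∀ s, 0 < s →
      b s * Vr s ^ (k + 5) * (Ψr s * a s / (2 * s)) ^ (k + 2) = Ψr s := by
    intro s hs
    have hconst := isOpen_Ioi.is_const_of_deriv_eq_zero (convex_Ioi (0 : ℝ)).isPreconnected
      (fun t ht => (hWd t ht).differentiableAt.differentiableWithinAt)
      (fun t ht => (hWd t ht).deriv) (mem_Ioi.2 hs) (mem_Ioi.2 hs0)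
    have h0 : b s0 * Vr s0 ^ (k + 5) * (Ψr s0 * a s0 / (2 * s0)) ^ (k + 2) / Ψr s0 = 1 :=
      (div_eq_one_iff_eq (hΨpos s0 hs0).ne').2 hinit
    have h1 : b s * Vr s ^ (k + 5) * (Ψr s * a s / (2 * s)) ^ (k + 2) / Ψr s = 1 := by
      rw [← h0]
      exact hconst
    exact (div_eq_one_iff_eq (hΨpos s hs).ne').1 h1
  refine ⟨hsΨ, hsV, fun s hs => hΨpos s hs, fun s hs => hVpos s hs, ?_, ?_, ?_⟩
  · intro s hs
    rw [hdΨ s hs]
    exact hPpos s hs
  · intro s hs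
    have hs' : (0 : ℝ) < s := hs
    unfold Eq1G
    rw [hdΨ s hs', hddΨ s hs']
    have hne : (2 : ℝ) * s ≠ 0 := by positivity
    have h1 : Ψr s * a s / (2 * s) + 2 * s * (Ψr s * a s / (2 * s) * (b s - 1) / (2 * s))
        = Ψr s * a s / (2 * s) * b s := by
      field_simp
      ring
    rw [h1]
    calc (Ψr s * a s / (2 * s)) ^ (k + 1) * (Ψr s * a s / (2 * s) * b s) * Vr s ^ (k + 5)
        = b s * Vr s ^ (k + 5) * (Ψr s * a s / (2 * s)) ^ (k + 2) := by ring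
      _ = Ψr s := hstar s hs'
  · intro s hs
    have hs' : (0 : ℝ) < s := hs
    unfold Eq2G
    rw [hdΨ s hs', hddΨ s hs', hdV s hs', hddV s hs']
    have hne : (2 : ℝ) * s ≠ 0 := by positivity
    have hP := hPpos s hs'
    have hss : b s * Vr s ^ (k + 5) * (Ψr s * a s / (2 * s)) ^ (k + 1) * a s = 2 * s := by
      have h2 : b s * Vr s ^ (k + 5) * (Ψr s * a s / (2 * s)) ^ (k + 1) * a s
            * (Ψr s * a s / (2 * s)) = 2 * s * (Ψr s * a s / (2 * s)) := by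
        calc b s * Vr s ^ (k + 5) * (Ψr s * a s / (2 * s)) ^ (k + 1) * a s
              * (Ψr s * a s / (2 * s))
            = (b s * Vr s ^ (k + 5) * (Ψr s * a s / (2 * s)) ^ (k + 2)) * a s := by ring
          _ = Ψr s * a s := by rw [hstar s hs']
          _ = 2 * s * (Ψr s * a s / (2 * s)) := by field_simp
      exact mul_right_cancel₀ hP.ne' h2
    have core := recon_eq2_alg k s (a s) (b s) (r s) (Vr s) (Ψr s * a s / (2 * s)) _ _ _ hs'.ne'
      rfl rfl rfl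
    rw [hss, div_self hne] at core
    exact core

/-- **B2-d (RECON), existence form.** If `(a, b, r)` solve the reduced system on `(0, ∞)` with
`a > 0`, then for every base point `s0 > 0` and all `Ψ0, V0 > 0` with
`b(s0) V0^(k+5) (a(s0) Ψ0 / (2 s0))^(k+2) = Ψ0` there is a profile `(Ψr, Vr)` on `(0, ∞)` with
`Ψr s0 = Ψ0`, `Vr s0 = V0`, `Ψr' = Ψr a / (2 s)` and `Vr' = - Vr r b / (2 (k + 4) s)`. -/
theorem recon_profile (k : ℕ) {s0 Ψ0 V0 : ℝ} (hs0 : 0 < s0) (hΨ0 : 0 < Ψ0) (hV0 : 0 < V0)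
    {a b r : ℝ → ℝ}
    (hsa : ContDiffOn ℝ ((⊤ : ℕ∞) : WithTop ℕ∞) a (Ioi 0))
    (hsb : ContDiffOn ℝ ((⊤ : ℕ∞) : WithTop ℕ∞) b (Ioi 0))
    (hsr : ContDiffOn ℝ ((⊤ : ℕ∞) : WithTop ℕ∞) r (Ioi 0))
    (ha : ∀ s, 0 < s → HasDerivAt a (a s * (1 + b s - a s) / (2 * s)) s)
    (hb : ∀ s, 0 < s → HasDerivAt b (b s * ((k : ℝ) + 2 + a s
      - b s * ((k : ℝ) + 2 - ((k : ℝ) + 5) * r s / ((k : ℝ) + 4))) / (2 * s)) s)
    (hr : ∀ s, 0 < s → HasDerivAt r ((((k : ℝ) + 4 - r s) * (a s + b s * r s / ((k : ℝ) + 4))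
      - ((k : ℝ) + 1) * r s) / (2 * s)) s)
    (hapos : ∀ s, 0 < s → 0 < a s)
    (hinit : b s0 * V0 ^ (k + 5) * (a s0 * Ψ0 / (2 * s0)) ^ (k + 2) = Ψ0) :
    ∃ Ψr Vr : ℝ → ℝ, Ψr s0 = Ψ0 ∧ Vr s0 = V0 ∧ IsProfileG k Ψr Vr (Ioi 0) ∧
      (∀ s, 0 < s → 0 < Ψr s) ∧ (∀ s, 0 < s → 0 < Vr s) ∧
      (∀ s, 0 < s → HasDerivAt Ψr (Ψr s * a s / (2 * s)) s) ∧
      (∀ s, 0 < s → HasDerivAt Vr (-(Vr s * r s * b s) / (2 * ((k : ℝ) + 4) * s)) s) := by
  have hM : (k : ℝ) + 4 ≠ 0 := by positivity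
  have hca : ContinuousOn (fun τ => a τ / (2 * τ)) (Ioi 0) := by
    refine hsa.continuousOn.div (by fun_prop) ?_
    intro s hs
    have : (0 : ℝ) < s := hs
    positivity
  have hcv : ContinuousOn (fun τ => -(r τ * b τ) / (2 * ((k : ℝ) + 4) * τ)) (Ioi 0) := by
    refine ((hsr.continuousOn.mul hsb.continuousOn).neg).div (by fun_prop) ?_
    intro s hs
    have : (0 : ℝ) < s := hs
    positivity
  refine ⟨fun s => Ψ0 * Real.exp (∫ τ in s0..s, a τ / (2 * τ)),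
    fun s => V0 * Real.exp (∫ τ in s0..s, -(r τ * b τ) / (2 * ((k : ℝ) + 4) * τ)), ?_, ?_, ?_⟩
  · simp
  · simp
  have hΨd : ∀ s, 0 < s → HasDerivAt (fun s => Ψ0 * Real.exp (∫ τ in s0..s, a τ / (2 * τ)))
      (Ψ0 * Real.exp (∫ τ in s0..s, a τ / (2 * τ)) * a s / (2 * s)) s := by
    intro s hs
    have h := ((recon_prim_hasDerivAt hca hs0 hs).exp).const_mul Ψ0
    refine h.congr_deriv ?_
    ring
  have hVd : ∀ s, 0 < s → HasDerivAt
      (fun s => V0 * Real.exp (∫ τ in s0..s, -(r τ * b τ) / (2 * ((k : ℝ) + 4) * τ)))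
      (-(V0 * Real.exp (∫ τ in s0..s, -(r τ * b τ) / (2 * ((k : ℝ) + 4) * τ)) * r s * b s)
        / (2 * ((k : ℝ) + 4) * s)) s := by
    intro s hs
    have h := ((recon_prim_hasDerivAt hcv hs0 hs).exp).const_mul V0
    refine h.congr_deriv ?_
    ring
  have hΨpos : ∀ s, 0 < s → 0 < Ψ0 * Real.exp (∫ τ in s0..s, a τ / (2 * τ)) :=
    fun s _ => mul_pos hΨ0 (Real.exp_pos _)
  have hVpos : ∀ s, 0 < s →
      0 < V0 * Real.exp (∫ τ in s0..s, -(r τ * b τ) / (2 * ((k : ℝ) + 4) * τ)) :=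
    fun s _ => mul_pos hV0 (Real.exp_pos _)
  refine ⟨?_, hΨpos, hVpos, hΨd, hVd⟩
  refine recon_isProfile k hs0 hsa hsb hsr ha hb hr hapos hΨpos hVpos hΨd hVd ?_
  simp only [intervalIntegral.integral_same, Real.exp_zero, mul_one]
  rw [mul_comm Ψ0 (a s0)]
  exact hinit

end Vale.Agent.H68.Prof
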