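import Mathlib
import Vale.Agent.H68.P252.DefsG
import Vale.Agent.H68.P252.Start
import Vale.Agent.H68.P252.AbrGlobal
import Vale.Agent.H68.P252.AbrGlue
import Vale.Agent.H68.P252.AbrWeak
import Vale.Agent.H68.P252.B2Defs
import Vale.Agent.H68.P252.B2Loc
import Vale.Agent.H68.P252.Recon
import Vale.Agent.H68.P252.GlobalAux

/-!
# P252, part B2: global continuation of a local profile

`extend_profileG k (hk : 8 ≤ k)`: a profile on `(-δ, δ)` extends to a profile on `(-δ, ∞)`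
(`m = k + 2 ≥ 10`), and the same for `k = 7` (`m = 9`, weak invariant box with a stationary
corner): `extend_profileG7 k (hk : 7 ≤ k)`.

Pieces: `start_box` (`Start.lean`), `abr_of_profile` (`B2Loc.lean`), `abr_extend_weak`
(`AbrWeak.lean`), `recon_profile` (`Recon.lean`), and the assembly `extend_profileG_aux`
(`GlobalAux.lean`).
-/

namespace Vale.Agent.H68.Prof

open Set Filter Topology

/-- Global continuation for any admissible box containing `(0, 69/20) × (0, 12/5) × (0, 4)`. -/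
theorem extend_profileG_box (k : ℕ) {A B R : ℝ} (hp : BoxParams ((k : ℝ) + 2) A B R)
    (hA : 69 / 20 ≤ A) (hB : 12 / 5 ≤ B) (hR : 4 ≤ R) {δ : ℝ} (hδ : 0 < δ) {Ψ V : ℝ → ℝ}
    (h : IsProfileG k Ψ V (Set.Ioo (-δ) δ)) :
    ∃ Ψg Vg : ℝ → ℝ, IsProfileG k Ψg Vg (Set.Ioi (-δ)) := by
  refine extend_profileG_aux k hp hA hB hR hδ h ?_ ?_
  · intro s hs hs0
    exact abr_of_profile k isOpen_Ioo h hs hs0
  · intro s0 Ψ0 V0 hs0 hΨ0 hV0 a b r sa sb sr hsys hapos hbpos hinit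
    obtain ⟨Ψr, Vr, e1, e2, hprof, -, -, d1, d2⟩ :=
      recon_profile k hs0 hΨ0 hV0 sa sb sr
        (fun s hs => ((hsys s hs).1).congr_deriv (by unfold gA; ring))
        (fun s hs => ((hsys s hs).2.1).congr_deriv (by unfold gB; ring))
        (fun s hs => ((hsys s hs).2.2).congr_deriv (by unfold gR; ring))
        hapos hinit
    exact ⟨Ψr, Vr, e1, e2, hprof, d1, d2⟩

/-- PART B2 for `m = k + 2 ≥ 9`. -/
theorem extend_profileG7 (k : ℕ) (hk : 7 ≤ k) {δ : ℝ} (hδ : 0 < δ) {Ψ V : ℝ → ℝ}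
    (h : IsProfileG k Ψ V (Set.Ioo (-δ) δ)) :
    ∃ Ψg Vg : ℝ → ℝ, IsProfileG k Ψg Vg (Set.Ioi (-δ)) := by
  rcases eq_or_lt_of_le hk with rfl | hk'
  · have hp : BoxParams (((7 : ℕ) : ℝ) + 2) (9 / 2) (7 / 2) (33 / 7) := by
      have e : ((7 : ℕ) : ℝ) + 2 = 9 := by norm_num
      rw [e]
      exact boxParams_nine
    exact extend_profileG_box 7 hp (by norm_num) (by norm_num) (by norm_num) hδ h
  · have hkR : (10 : ℝ) ≤ (k : ℝ) + 2 := by
      have : (8 : ℝ) ≤ (k : ℝ) := by exact_mod_cast hk'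
      linarith
    exact extend_profileG_box k (boxParams_ten hkR) le_rfl le_rfl le_rfl hδ h

/-- PART B2 (global continuation by the invariant box), `k ≥ 8` i.e. `m ≥ 10`. -/
theorem extend_profileG (k : ℕ) (hk : 8 ≤ k) {δ : ℝ} (hδ : 0 < δ) {Ψ V : ℝ → ℝ}
    (h : IsProfileG k Ψ V (Set.Ioo (-δ) δ)) :
    ∃ Ψg Vg : ℝ → ℝ, IsProfileG k Ψg Vg (Set.Ioi (-δ)) :=
  extend_profileG7 k (by omega) hδ h

end Vale.Agent.H68.Prof
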