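import Mathlib

/-!
# P252, part B1-fix: a continuous solution of the integral form of the profile equations

Banach fixed point on pairs of bounded continuous functions; all nonlinearities are composed
with clamps, which are inactive at the fixed point.
-/

namespace Vale.Agent.H68.Prof

open Set MeasureTheory
open scoped BoundedContinuousFunction

/-- The averaging functional `∫_0^1 σ^9 φ(σ² t) dσ`. -/
noncomputable def fixAvg (φ : ℝ → ℝ) (t : ℝ) : ℝ := ∫ σ in (0:ℝ)..1, σ ^ 9 * φ (σ ^ 2 * t)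

theorem fix_avg_continuous {φ : ℝ → ℝ} (hφ : Continuous φ) : Continuous (fixAvg φ) := by
  unfold fixAvg
  have h : Continuous (Function.uncurry (fun (t σ : ℝ) => σ ^ 9 * φ (σ ^ 2 * t))) := by
    have h1 : (Function.uncurry (fun (t σ : ℝ) => σ ^ 9 * φ (σ ^ 2 * t))) =
        fun p : ℝ × ℝ => p.2 ^ 9 * φ (p.2 ^ 2 * p.1) := by
      funext p
      rfl
    rw [h1]
    fun_prop
  exact intervalIntegral.continuous_parametric_intervalIntegral_of_continuous' h 0 1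

theorem fix_avg_const (c t : ℝ) : fixAvg (fun _ => c) t = c / 10 := by
  unfold fixAvg
  rw [intervalIntegral.integral_mul_const, integral_pow]
  norm_num
  ring

theorem fix_avg_sub_le {φ φ' : ℝ → ℝ} (hφ : Continuous φ) (hφ' : Continuous φ') {ε : ℝ}
    (h : ∀ τ, |φ τ - φ' τ| ≤ ε) (t : ℝ) : |fixAvg φ t - fixAvg φ' t| ≤ ε := by
  unfold fixAvg
  rw [← intervalIntegral.integral_sub]
  · have h2 := intervalIntegral.norm_integral_le_of_norm_le_const (a := 0) (b := 1) (C := ε)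
      (f := fun σ => σ ^ 9 * φ (σ ^ 2 * t) - σ ^ 9 * φ' (σ ^ 2 * t)) (by
        intro σ hσ
        rw [Set.uIoc_of_le zero_le_one] at hσ
        rw [Real.norm_eq_abs, ← mul_sub, abs_mul]
        have h1 : |σ ^ 9| ≤ 1 := by
          rw [abs_of_nonneg (pow_nonneg hσ.1.le 9)]
          exact pow_le_one₀ hσ.1.le hσ.2
        calc |σ ^ 9| * |φ (σ ^ 2 * t) - φ' (σ ^ 2 * t)| ≤ 1 * ε :=
              mul_le_mul h1 (h _) (abs_nonneg _) zero_le_one
          _ = ε := one_mul _)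
    rw [Real.norm_eq_abs] at h2
    simpa using h2
  · exact (by fun_prop : Continuous fun σ => σ ^ 9 * φ (σ ^ 2 * t)).intervalIntegrable _ _
  · exact (by fun_prop : Continuous fun σ => σ ^ 9 * φ' (σ ^ 2 * t)).intervalIntegrable _ _

/-- Clamp of `x` to the interval `[a, b]`. -/
noncomputable def fixCl (a b x : ℝ) : ℝ := max a (min b x)

theorem fix_cl_continuous (a b : ℝ) : Continuous (fixCl a b) := by
  unfold fixCl
  fun_prop

theorem fix_cl_mem {a b : ℝ} (hab : a ≤ b) (x : ℝ) : fixCl a b x ∈ Icc a b := by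
  unfold fixCl
  exact ⟨le_max_left _ _, max_le hab (min_le_left _ _)⟩

theorem fix_cl_eq {a b x : ℝ} (hx : x ∈ Icc a b) : fixCl a b x = x := by
  unfold fixCl
  rw [min_eq_right hx.2, max_eq_right hx.1]

theorem fix_cl_sub_le (a b x y : ℝ) : |fixCl a b x - fixCl a b y| ≤ |x - y| := by
  unfold fixCl
  calc |max a (min b x) - max a (min b y)| ≤ |min b x - min b y| := by
        rw [max_comm a, max_comm a]
        exact abs_max_sub_max_le_abs _ _ _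
    _ ≤ max |b - b| |x - y| := abs_min_sub_min_le_max _ _ _ _
    _ = |x - y| := by simp

theorem fix_cl_abs_le (d s : ℝ) : |fixCl (-d) d s| ≤ |d| := by
  unfold fixCl
  rw [abs_le]
  constructor
  · exact le_trans (neg_le_neg (le_abs_self d)) (by
      rcases le_total 0 d with h | h
      · exact le_trans (by linarith [abs_of_nonneg h]) (le_max_left _ _)
      · exact le_trans (by linarith [abs_of_nonpos h]) (le_max_left _ _))
  · apply max_le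
    · exact neg_le_abs d
    · exact le_trans (min_le_left _ _) (le_abs_self d)

/-- A `C^1` function on a neighbourhood of a compact convex set is Lipschitz on it. -/
theorem fix_lip_of_contDiffOn {E : Type*} [NormedAddCommGroup E] [NormedSpace ℝ E] {h : E → ℝ}
    {U K : Set E} (hU : IsOpen U) (hh : ContDiffOn ℝ 1 h U) (hK : IsCompact K)
    (hKc : Convex ℝ K) (hKU : K ⊆ U) :
    ∃ L : ℝ, 0 ≤ L ∧ ∀ x ∈ K, ∀ y ∈ K, |h x - h y| ≤ L * dist x y := by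
  have hcont : ContinuousOn (fderiv ℝ h) U := hh.continuousOn_fderiv_of_isOpen hU le_rfl
  obtain ⟨C, hC⟩ := hK.exists_bound_of_continuousOn (hcont.mono hKU)
  refine ⟨max C 0, le_max_right _ _, fun x hx y hy => ?_⟩
  have h1 := Convex.norm_image_sub_le_of_norm_fderiv_le (𝕜 := ℝ) (f := h) (s := K)
    (C := max C 0)
    (fun z hz => (hh.differentiableOn one_ne_zero).differentiableAt (hU.mem_nhds (hKU hz)))
    (fun z hz => (hC z hz).trans (le_max_left _ _)) hKc hy hx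
  rw [Real.norm_eq_abs, ← dist_eq_norm] at h1
  exact h1

/-- The data of the abstract fixed point problem: globally Lipschitz, bounded nonlinearities. -/
structure FixData where
  f1 : ℝ → ℝ → ℝ
  f2 : ℝ → ℝ → ℝ
  G1 : ℝ → ℝ → ℝ → ℝ
  G2 : ℝ → ℝ → ℝ → ℝ
  Lf : ℝ
  Lg : ℝ
  M : ℝ
  hLf : 0 ≤ Lf
  hLg : 0 ≤ Lg
  hM : 0 ≤ M
  f1c : Continuous (fun p : ℝ × ℝ => f1 p.1 p.2)
  f2c : Continuous (fun p : ℝ × ℝ => f2 p.1 p.2)
  G1c : Continuous (fun p : ℝ × ℝ × ℝ => G1 p.1 p.2.1 p.2.2)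
  G2c : Continuous (fun p : ℝ × ℝ × ℝ => G2 p.1 p.2.1 p.2.2)
  f1l : ∀ a b a' b', |f1 a b - f1 a' b'| ≤ Lf * (|a - a'| + |b - b'|)
  f2l : ∀ a b a' b', |f2 a b - f2 a' b'| ≤ Lf * (|a - a'| + |b - b'|)
  G1l : ∀ x z v x' z' v', |G1 x z v - G1 x' z' v'| ≤ Lg * (|x - x'| + |z - z'| + |v - v'|)
  G2l : ∀ x z v x' z' v', |G2 x z v - G2 x' z' v'| ≤ Lg * (|x - x'| + |z - z'| + |v - v'|)
  G1b : ∀ x z v, |G1 x z v| ≤ M
  G2b : ∀ x z v, |G2 x z v| ≤ M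

namespace FixData

variable (D : FixData)

/-- The function `X` of a pair. -/
noncomputable def X (u : (ℝ →ᵇ ℝ) × (ℝ →ᵇ ℝ)) (t : ℝ) : ℝ :=
  10 * fixAvg (fun τ => D.f1 (u.1 τ) (u.2 τ)) t

/-- The function `Z` of a pair. -/
noncomputable def Z (u : (ℝ →ᵇ ℝ) × (ℝ →ᵇ ℝ)) (t : ℝ) : ℝ :=
  -12 * fixAvg (fun τ => D.f2 (u.1 τ) (u.2 τ)) t

/-- The first integrand. -/
noncomputable def I1 (u : (ℝ →ᵇ ℝ) × (ℝ →ᵇ ℝ)) (t : ℝ) : ℝ := D.G1 (D.X u t) (D.Z u t) (u.2 t)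

/-- The second integrand. -/
noncomputable def I2 (u : (ℝ →ᵇ ℝ) × (ℝ →ᵇ ℝ)) (t : ℝ) : ℝ := D.G2 (D.X u t) (D.Z u t) (u.2 t)

theorem f1_comp_continuous (u : (ℝ →ᵇ ℝ) × (ℝ →ᵇ ℝ)) :
    Continuous (fun τ => D.f1 (u.1 τ) (u.2 τ)) :=
  D.f1c.comp (u.1.continuous.prodMk u.2.continuous)

theorem f2_comp_continuous (u : (ℝ →ᵇ ℝ) × (ℝ →ᵇ ℝ)) :
    Continuous (fun τ => D.f2 (u.1 τ) (u.2 τ)) :=
  D.f2c.comp (u.1.continuous.prodMk u.2.continuous)

theorem X_continuous (u : (ℝ →ᵇ ℝ) × (ℝ →ᵇ ℝ)) : Continuous (D.X u) :=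
  continuous_const.mul (fix_avg_continuous (D.f1_comp_continuous u))

theorem Z_continuous (u : (ℝ →ᵇ ℝ) × (ℝ →ᵇ ℝ)) : Continuous (D.Z u) :=
  continuous_const.mul (fix_avg_continuous (D.f2_comp_continuous u))

theorem I1_continuous (u : (ℝ →ᵇ ℝ) × (ℝ →ᵇ ℝ)) : Continuous (D.I1 u) :=
  D.G1c.comp ((D.X_continuous u).prodMk ((D.Z_continuous u).prodMk u.2.continuous))

theorem I2_continuous (u : (ℝ →ᵇ ℝ) × (ℝ →ᵇ ℝ)) : Continuous (D.I2 u) :=
  D.G2c.comp ((D.X_continuous u).prodMk ((D.Z_continuous u).prodMk u.2.continuous))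

theorem fst_sub_le (u w : (ℝ →ᵇ ℝ) × (ℝ →ᵇ ℝ)) (τ : ℝ) : |u.1 τ - w.1 τ| ≤ dist u w := by
  have h1 := BoundedContinuousFunction.dist_coe_le_dist (f := u.1) (g := w.1) τ
  rw [Real.dist_eq] at h1
  exact h1.trans (le_max_left _ _)

theorem snd_sub_le (u w : (ℝ →ᵇ ℝ) × (ℝ →ᵇ ℝ)) (τ : ℝ) : |u.2 τ - w.2 τ| ≤ dist u w := by
  have h1 := BoundedContinuousFunction.dist_coe_le_dist (f := u.2) (g := w.2) τ
  rw [Real.dist_eq] at h1
  exact h1.trans (le_max_right _ _)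

theorem X_sub_le (u w : (ℝ →ᵇ ℝ) × (ℝ →ᵇ ℝ)) (t : ℝ) :
    |D.X u t - D.X w t| ≤ 20 * D.Lf * dist u w := by
  unfold X
  have h1 := fix_avg_sub_le (D.f1_comp_continuous u) (D.f1_comp_continuous w)
    (ε := D.Lf * (dist u w + dist u w)) (fun τ => (D.f1l _ _ _ _).trans
      (mul_le_mul_of_nonneg_left (add_le_add (fst_sub_le u w τ) (snd_sub_le u w τ)) D.hLf)) t
  rw [← mul_sub, abs_mul]
  norm_num
  linarith

theorem Z_sub_le (u w : (ℝ →ᵇ ℝ) × (ℝ →ᵇ ℝ)) (t : ℝ) :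
    |D.Z u t - D.Z w t| ≤ 24 * D.Lf * dist u w := by
  unfold Z
  have h1 := fix_avg_sub_le (D.f2_comp_continuous u) (D.f2_comp_continuous w)
    (ε := D.Lf * (dist u w + dist u w)) (fun τ => (D.f2l _ _ _ _).trans
      (mul_le_mul_of_nonneg_left (add_le_add (fst_sub_le u w τ) (snd_sub_le u w τ)) D.hLf)) t
  rw [← mul_sub, abs_mul]
  norm_num
  linarith

theorem I1_sub_le (u w : (ℝ →ᵇ ℝ) × (ℝ →ᵇ ℝ)) (t : ℝ) :
    |D.I1 u t - D.I1 w t| ≤ D.Lg * (44 * D.Lf + 1) * dist u w := by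
  unfold I1
  refine (D.G1l _ _ _ _ _ _).trans ?_
  have h1 := D.X_sub_le u w t
  have h2 := D.Z_sub_le u w t
  have h3 := snd_sub_le u w t
  have h4 : |D.X u t - D.X w t| + |D.Z u t - D.Z w t| + |u.2 t - w.2 t| ≤
      (44 * D.Lf + 1) * dist u w := by linarith
  calc D.Lg * (|D.X u t - D.X w t| + |D.Z u t - D.Z w t| + |u.2 t - w.2 t|)
      ≤ D.Lg * ((44 * D.Lf + 1) * dist u w) := mul_le_mul_of_nonneg_left h4 D.hLg
    _ = D.Lg * (44 * D.Lf + 1) * dist u w := by ring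

theorem I2_sub_le (u w : (ℝ →ᵇ ℝ) × (ℝ →ᵇ ℝ)) (t : ℝ) :
    |D.I2 u t - D.I2 w t| ≤ D.Lg * (44 * D.Lf + 1) * dist u w := by
  unfold I2
  refine (D.G2l _ _ _ _ _ _).trans ?_
  have h1 := D.X_sub_le u w t
  have h2 := D.Z_sub_le u w t
  have h3 := snd_sub_le u w t
  have h4 : |D.X u t - D.X w t| + |D.Z u t - D.Z w t| + |u.2 t - w.2 t| ≤
      (44 * D.Lf + 1) * dist u w := by linarith
  calc D.Lg * (|D.X u t - D.X w t| + |D.Z u t - D.Z w t| + |u.2 t - w.2 t|)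
      ≤ D.Lg * ((44 * D.Lf + 1) * dist u w) := mul_le_mul_of_nonneg_left h4 D.hLg
    _ = D.Lg * (44 * D.Lf + 1) * dist u w := by ring

end FixData

/-- The primitive of a continuous bounded integrand along the clamped variable, as a bounded
continuous function. -/
noncomputable def fixPrim (d : ℝ) (I : ℝ → ℝ) (hI : Continuous I) (M : ℝ)
    (hM : ∀ t, |I t| ≤ M) : ℝ →ᵇ ℝ :=
  BoundedContinuousFunction.ofNormedAddCommGroup
    (fun s => 1 + ∫ t in (0:ℝ)..fixCl (-d) d s, I t)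
    (continuous_const.add ((intervalIntegral.continuous_primitive
      (fun a b => hI.intervalIntegrable a b) 0).comp (fix_cl_continuous (-d) d)))
    (1 + M * |d|)
    (fun s => by
      refine (norm_add_le _ _).trans ?_
      have h1 := intervalIntegral.norm_integral_le_of_norm_le_const (a := 0)
        (b := fixCl (-d) d s) (C := M) (f := I) (fun x _ => by
          rw [Real.norm_eq_abs]
          exact hM x)
      have h2 := fix_cl_abs_le d s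
      have hM0 : 0 ≤ M := (abs_nonneg (I 0)).trans (hM 0)
      rw [sub_zero] at h1
      have h3 : M * |fixCl (-d) d s| ≤ M * |d| := mul_le_mul_of_nonneg_left h2 hM0
      rw [norm_one]
      linarith)

theorem fix_prim_apply (d : ℝ) (I : ℝ → ℝ) (hI : Continuous I) (M : ℝ)
    (hM : ∀ t, |I t| ≤ M) (s : ℝ) :
    fixPrim d I hI M hM s = 1 + ∫ t in (0:ℝ)..fixCl (-d) d s, I t := rfl

theorem fix_prim_dist_le (d : ℝ) (I J : ℝ → ℝ) (hI : Continuous I) (hJ : Continuous J)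
    (M : ℝ) (hMI : ∀ t, |I t| ≤ M) (hMJ : ∀ t, |J t| ≤ M) (ε : ℝ)
    (h : ∀ t, |I t - J t| ≤ ε) :
    dist (fixPrim d I hI M hMI) (fixPrim d J hJ M hMJ) ≤ |d| * ε := by
  have hε : 0 ≤ ε := (abs_nonneg _).trans (h 0)
  rw [BoundedContinuousFunction.dist_le (mul_nonneg (abs_nonneg d) hε)]
  intro s
  rw [fix_prim_apply, fix_prim_apply, Real.dist_eq]
  have h0 : (1 + ∫ t in (0:ℝ)..fixCl (-d) d s, I t) - (1 + ∫ t in (0:ℝ)..fixCl (-d) d s, J t) =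
      ∫ t in (0:ℝ)..fixCl (-d) d s, (I t - J t) := by
    rw [intervalIntegral.integral_sub (hI.intervalIntegrable _ _) (hJ.intervalIntegrable _ _)]
    ring
  rw [h0]
  have h1 := intervalIntegral.norm_integral_le_of_norm_le_const (a := 0)
    (b := fixCl (-d) d s) (C := ε) (f := fun t => I t - J t) (fun x _ => by
      rw [Real.norm_eq_abs]
      exact h x)
  rw [sub_zero, Real.norm_eq_abs] at h1
  have h2 := fix_cl_abs_le d s
  calc |∫ t in (0:ℝ)..fixCl (-d) d s, (I t - J t)| ≤ ε * |fixCl (-d) d s| := h1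
    _ ≤ ε * |d| := mul_le_mul_of_nonneg_left h2 hε
    _ = |d| * ε := mul_comm _ _

namespace FixData

variable (D : FixData)

/-- The fixed point map. -/
noncomputable def T (d : ℝ) (u : (ℝ →ᵇ ℝ) × (ℝ →ᵇ ℝ)) : (ℝ →ᵇ ℝ) × (ℝ →ᵇ ℝ) :=
  (fixPrim d (D.I1 u) (D.I1_continuous u) D.M (fun _ => D.G1b _ _ _),
   fixPrim d (D.I2 u) (D.I2_continuous u) D.M (fun _ => D.G2b _ _ _))

theorem T_dist_le (d : ℝ) (u w : (ℝ →ᵇ ℝ) × (ℝ →ᵇ ℝ)) :
    dist (D.T d u) (D.T d w) ≤ |d| * (D.Lg * (44 * D.Lf + 1)) * dist u w := by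
  rw [Prod.dist_eq]
  apply max_le
  · have h1 := fix_prim_dist_le d (D.I1 u) (D.I1 w) (D.I1_continuous u) (D.I1_continuous w)
      D.M (fun t => D.G1b _ _ _) (fun t => D.G1b _ _ _) _ (D.I1_sub_le u w)
    calc dist (D.T d u).1 (D.T d w).1 ≤ |d| * (D.Lg * (44 * D.Lf + 1) * dist u w) := h1
      _ = |d| * (D.Lg * (44 * D.Lf + 1)) * dist u w := by ring
  · have h1 := fix_prim_dist_le d (D.I2 u) (D.I2 w) (D.I2_continuous u) (D.I2_continuous w)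
      D.M (fun t => D.G2b _ _ _) (fun t => D.G2b _ _ _) _ (D.I2_sub_le u w)
    calc dist (D.T d u).2 (D.T d w).2 ≤ |d| * (D.Lg * (44 * D.Lf + 1) * dist u w) := h1
      _ = |d| * (D.Lg * (44 * D.Lf + 1)) * dist u w := by ring

/-- The abstract fixed point. -/
theorem exists_fixed (d : ℝ) (hd : |d| * (D.Lg * (44 * D.Lf + 1)) < 1) :
    ∃ u : (ℝ →ᵇ ℝ) × (ℝ →ᵇ ℝ),
      (∀ s, u.1 s = 1 + ∫ t in (0:ℝ)..fixCl (-d) d s, D.I1 u t) ∧
      (∀ s, u.2 s = 1 + ∫ t in (0:ℝ)..fixCl (-d) d s, D.I2 u t) := by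
  have hK0 : 0 ≤ |d| * (D.Lg * (44 * D.Lf + 1)) :=
    mul_nonneg (abs_nonneg d) (mul_nonneg D.hLg (by linarith [D.hLf]))
  have hc : ContractingWith (Real.toNNReal (|d| * (D.Lg * (44 * D.Lf + 1)))) (D.T d) := by
    refine ⟨?_, LipschitzWith.of_dist_le_mul fun u w => ?_⟩
    · rw [← NNReal.coe_lt_coe, Real.coe_toNNReal _ hK0]
      exact hd
    · rw [Real.coe_toNNReal _ hK0]
      exact D.T_dist_le d u w
  have hfix := hc.fixedPoint_isFixedPt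
  refine ⟨ContractingWith.fixedPoint (D.T d) hc, fun s => ?_, fun s => ?_⟩
  · have h1 : (D.T d (ContractingWith.fixedPoint (D.T d) hc)).1 s =
        (ContractingWith.fixedPoint (D.T d) hc).1 s := by rw [hfix.eq]
    rw [← h1]
    rfl
  · have h1 : (D.T d (ContractingWith.fixedPoint (D.T d) hc)).2 s =
        (ContractingWith.fixedPoint (D.T d) hc).2 s := by rw [hfix.eq]
    rw [← h1]
    rfl

end FixData

theorem fix_int_abs_le (d : ℝ) (I : ℝ → ℝ) (M : ℝ) (hM : ∀ t, |I t| ≤ M) (s : ℝ) :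
    |∫ t in (0:ℝ)..fixCl (-d) d s, I t| ≤ M * |d| := by
  have h1 := intervalIntegral.norm_integral_le_of_norm_le_const (a := 0)
    (b := fixCl (-d) d s) (C := M) (f := I) (fun x _ => by
      rw [Real.norm_eq_abs]
      exact hM x)
  have h2 := fix_cl_abs_le d s
  have hM0 : 0 ≤ M := (abs_nonneg (I 0)).trans (hM 0)
  rw [sub_zero, Real.norm_eq_abs] at h1
  exact h1.trans (mul_le_mul_of_nonneg_left h2 hM0)

/-- Lipschitz on a box, composed with clamps: two variables. -/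
theorem fix_lip2 {h : ℝ × ℝ → ℝ} {a1 b1 a2 b2 L : ℝ} (h1 : a1 ≤ b1) (h2 : a2 ≤ b2) (hL : 0 ≤ L)
    (hh : ∀ x ∈ Icc a1 b1 ×ˢ Icc a2 b2, ∀ y ∈ Icc a1 b1 ×ˢ Icc a2 b2,
      |h x - h y| ≤ L * dist x y) (a b a' b' : ℝ) :
    |h (fixCl a1 b1 a, fixCl a2 b2 b) - h (fixCl a1 b1 a', fixCl a2 b2 b')| ≤
      L * (|a - a'| + |b - b'|) := by
  have h3 := hh (fixCl a1 b1 a, fixCl a2 b2 b) ⟨fix_cl_mem h1 a, fix_cl_mem h2 b⟩
    (fixCl a1 b1 a', fixCl a2 b2 b') ⟨fix_cl_mem h1 a', fix_cl_mem h2 b'⟩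
  refine h3.trans (mul_le_mul_of_nonneg_left ?_ hL)
  rw [Prod.dist_eq, Real.dist_eq, Real.dist_eq]
  exact max_le ((fix_cl_sub_le _ _ a a').trans (le_add_of_nonneg_right (abs_nonneg _)))
    ((fix_cl_sub_le _ _ b b').trans (le_add_of_nonneg_left (abs_nonneg _)))

/-- Lipschitz on a box, composed with clamps: three variables. -/
theorem fix_lip3 {h : ℝ × ℝ × ℝ → ℝ} {a1 b1 a2 b2 a3 b3 L : ℝ} (h1 : a1 ≤ b1) (h2 : a2 ≤ b2)
    (h3 : a3 ≤ b3) (hL : 0 ≤ L)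
    (hh : ∀ x ∈ Icc a1 b1 ×ˢ Icc a2 b2 ×ˢ Icc a3 b3, ∀ y ∈ Icc a1 b1 ×ˢ Icc a2 b2 ×ˢ Icc a3 b3,
      |h x - h y| ≤ L * dist x y) (x z v x' z' v' : ℝ) :
    |h (fixCl a1 b1 x, fixCl a2 b2 z, fixCl a3 b3 v) -
        h (fixCl a1 b1 x', fixCl a2 b2 z', fixCl a3 b3 v')| ≤
      L * (|x - x'| + |z - z'| + |v - v'|) := by
  have h4 := hh (fixCl a1 b1 x, fixCl a2 b2 z, fixCl a3 b3 v)
    ⟨fix_cl_mem h1 x, fix_cl_mem h2 z, fix_cl_mem h3 v⟩
    (fixCl a1 b1 x', fixCl a2 b2 z', fixCl a3 b3 v')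
    ⟨fix_cl_mem h1 x', fix_cl_mem h2 z', fix_cl_mem h3 v'⟩
  refine h4.trans (mul_le_mul_of_nonneg_left ?_ hL)
  rw [Prod.dist_eq, Prod.dist_eq, Real.dist_eq, Real.dist_eq, Real.dist_eq]
  have e1 := fix_cl_sub_le a1 b1 x x'
  have e2 := fix_cl_sub_le a2 b2 z z'
  have e3 := fix_cl_sub_le a3 b3 v v'
  have n1 := abs_nonneg (x - x')
  have n2 := abs_nonneg (z - z')
  have n3 := abs_nonneg (v - v')
  exact max_le (by linarith) (max_le (by linarith) (by linarith))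

theorem fix_box2_subset :
    Icc (1 / 2 : ℝ) (3 / 2) ×ˢ Icc (1 / 2 : ℝ) (3 / 2) ⊆ {p : ℝ × ℝ | 0 < p.2} := by
  intro p hp
  exact lt_of_lt_of_le (by norm_num) hp.2.1

theorem fix_box3_subset :
    Icc (1 / 2 : ℝ) (3 / 2) ×ˢ Icc (-24 : ℝ) 24 ×ˢ Icc (1 / 2 : ℝ) (3 / 2) ⊆
      {p : ℝ × ℝ × ℝ | 0 < p.1 ∧ 0 < p.2.2} := by
  intro p hp
  exact ⟨lt_of_lt_of_le (by norm_num) hp.1.1, lt_of_lt_of_le (by norm_num) hp.2.2.1⟩

theorem fix_open2 : IsOpen {p : ℝ × ℝ | 0 < p.2} := isOpen_lt continuous_const continuous_snd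

theorem fix_open3 : IsOpen {p : ℝ × ℝ × ℝ | 0 < p.1 ∧ 0 < p.2.2} :=
  (isOpen_lt continuous_const continuous_fst).and
    (isOpen_lt continuous_const (continuous_snd.comp continuous_snd))

theorem fix_contDiffOn_F1 :
    ContDiffOn ℝ 1 (fun p : ℝ × ℝ => p.1 / p.2 ^ 13) {p : ℝ × ℝ | 0 < p.2} :=
  ContDiffOn.div contDiff_fst.contDiffOn (contDiff_snd.pow 13).contDiffOn
    (fun _ hp => (pow_pos hp 13).ne')

theorem fix_contDiffOn_F2 :
    ContDiffOn ℝ 1 (fun p : ℝ × ℝ => 1 / p.2) {p : ℝ × ℝ | 0 < p.2} :=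
  ContDiffOn.div contDiffOn_const contDiff_snd.contDiffOn (fun _ hp => (ne_of_gt hp))

theorem fix_contDiffOn_H1 :
    ContDiffOn ℝ 1 (fun p : ℝ × ℝ × ℝ => p.1 ^ ((1 : ℝ) / 10))
      {p : ℝ × ℝ × ℝ | 0 < p.1 ∧ 0 < p.2.2} :=
  ContDiffOn.rpow_const_of_ne contDiff_fst.contDiffOn (fun _ hp => ne_of_gt hp.1)

theorem fix_contDiffOn_H2 :
    ContDiffOn ℝ 1 (fun p : ℝ × ℝ × ℝ => p.2.1 / (12 * p.2.2 ^ 11 * p.1 ^ ((9 : ℝ) / 10)))
      {p : ℝ × ℝ × ℝ | 0 < p.1 ∧ 0 < p.2.2} := by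
  refine ContDiffOn.div (contDiff_fst.comp contDiff_snd).contDiffOn ?_ ?_
  · exact (contDiffOn_const.mul ((contDiff_snd.comp contDiff_snd).pow 11).contDiffOn).mul
      (ContDiffOn.rpow_const_of_ne contDiff_fst.contDiffOn (fun p hp => ne_of_gt hp.1))
  · intro p hp
    have h1 : 0 < p.2.2 ^ 11 := pow_pos hp.2 11
    have h2 : 0 < p.1 ^ ((9 : ℝ) / 10) := Real.rpow_pos_of_pos hp.1 _
    positivity

/-- The concrete data: the nonlinearities of the profile equations composed with clamps. -/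
theorem fix_data : ∃ D : FixData,
    (∀ a b, D.f1 a b = fixCl (1 / 2) (3 / 2) a / fixCl (1 / 2) (3 / 2) b ^ 13) ∧
    (∀ a b, D.f2 a b = 1 / fixCl (1 / 2) (3 / 2) b) ∧
    (∀ x z v, D.G1 x z v = fixCl (1 / 2) (3 / 2) x ^ ((1 : ℝ) / 10)) ∧
    (∀ x z v, D.G2 x z v = fixCl (-24) 24 z /
      (12 * fixCl (1 / 2) (3 / 2) v ^ 11 * fixCl (1 / 2) (3 / 2) x ^ ((9 : ℝ) / 10))) := by
  have hK2 : IsCompact (Icc (1 / 2 : ℝ) (3 / 2) ×ˢ Icc (1 / 2 : ℝ) (3 / 2)) :=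
    isCompact_Icc.prod isCompact_Icc
  have hK2c : Convex ℝ (Icc (1 / 2 : ℝ) (3 / 2) ×ˢ Icc (1 / 2 : ℝ) (3 / 2)) :=
    (convex_Icc _ _).prod (convex_Icc _ _)
  have hK3 : IsCompact (Icc (1 / 2 : ℝ) (3 / 2) ×ˢ Icc (-24 : ℝ) 24 ×ˢ Icc (1 / 2 : ℝ) (3 / 2)) :=
    isCompact_Icc.prod (isCompact_Icc.prod isCompact_Icc)
  have hK3c : Convex ℝ
      (Icc (1 / 2 : ℝ) (3 / 2) ×ˢ Icc (-24 : ℝ) 24 ×ˢ Icc (1 / 2 : ℝ) (3 / 2)) :=
    (convex_Icc _ _).prod ((convex_Icc _ _).prod (convex_Icc _ _))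
  obtain ⟨L1, hL1, hF1⟩ :=
    fix_lip_of_contDiffOn fix_open2 fix_contDiffOn_F1 hK2 hK2c fix_box2_subset
  obtain ⟨L2, hL2, hF2⟩ :=
    fix_lip_of_contDiffOn fix_open2 fix_contDiffOn_F2 hK2 hK2c fix_box2_subset
  obtain ⟨L3, hL3, hH1⟩ :=
    fix_lip_of_contDiffOn fix_open3 fix_contDiffOn_H1 hK3 hK3c fix_box3_subset
  obtain ⟨L4, hL4, hH2⟩ :=
    fix_lip_of_contDiffOn fix_open3 fix_contDiffOn_H2 hK3 hK3c fix_box3_subset
  obtain ⟨M1, hM1⟩ := hK3.exists_bound_of_continuousOn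
    (fix_contDiffOn_H1.continuousOn.mono fix_box3_subset)
  obtain ⟨M2, hM2⟩ := hK3.exists_bound_of_continuousOn
    (fix_contDiffOn_H2.continuousOn.mono fix_box3_subset)
  have hhalf : (1 / 2 : ℝ) ≤ 3 / 2 := by norm_num
  have h24 : (-24 : ℝ) ≤ 24 := by norm_num
  have hpos : ∀ x, 0 < fixCl (1 / 2) (3 / 2) x := fun x =>
    lt_of_lt_of_le (by norm_num) (fix_cl_mem hhalf x).1
  have c1 : Continuous (fun p : ℝ × ℝ =>
      fixCl (1 / 2) (3 / 2) p.1 / fixCl (1 / 2) (3 / 2) p.2 ^ 13) :=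
    Continuous.div ((fix_cl_continuous _ _).comp continuous_fst)
      (((fix_cl_continuous _ _).comp continuous_snd).pow 13)
      (fun p => (pow_pos (hpos p.2) 13).ne')
  have c2 : Continuous (fun p : ℝ × ℝ => 1 / fixCl (1 / 2) (3 / 2) p.2) :=
    Continuous.div continuous_const ((fix_cl_continuous _ _).comp continuous_snd)
      (fun p => (hpos p.2).ne')
  have c3 : Continuous (fun p : ℝ × ℝ × ℝ => fixCl (1 / 2) (3 / 2) p.1 ^ ((1 : ℝ) / 10)) :=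
    Continuous.rpow_const ((fix_cl_continuous _ _).comp continuous_fst)
      (fun p => Or.inl (hpos p.1).ne')
  have c4 : Continuous (fun p : ℝ × ℝ × ℝ => fixCl (-24) 24 p.2.1 /
      (12 * fixCl (1 / 2) (3 / 2) p.2.2 ^ 11 * fixCl (1 / 2) (3 / 2) p.1 ^ ((9 : ℝ) / 10))) :=
    Continuous.div ((fix_cl_continuous _ _).comp (continuous_fst.comp continuous_snd))
      ((continuous_const.mul
        (((fix_cl_continuous _ _).comp (continuous_snd.comp continuous_snd)).pow 11)).mul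
        (Continuous.rpow_const ((fix_cl_continuous _ _).comp continuous_fst)
          (fun p => Or.inl (hpos p.1).ne')))
      (fun p => by
        have h1 := pow_pos (hpos p.2.2) 11
        have h2 := Real.rpow_pos_of_pos (hpos p.1) ((9 : ℝ) / 10)
        positivity)
  have l1 : ∀ a b a' b', |fixCl (1 / 2) (3 / 2) a / fixCl (1 / 2) (3 / 2) b ^ 13 -
      fixCl (1 / 2) (3 / 2) a' / fixCl (1 / 2) (3 / 2) b' ^ 13| ≤
      (L1 + L2) * (|a - a'| + |b - b'|) := by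
    intro a b a' b'
    have h := fix_lip2 hhalf hhalf hL1 hF1 a b a' b'
    have hn : 0 ≤ |a - a'| + |b - b'| := by positivity
    have h5 : L1 * (|a - a'| + |b - b'|) ≤ (L1 + L2) * (|a - a'| + |b - b'|) := by nlinarith
    exact h.trans h5
  have l2 : ∀ a b a' b', |1 / fixCl (1 / 2) (3 / 2) b - 1 / fixCl (1 / 2) (3 / 2) b'| ≤
      (L1 + L2) * (|a - a'| + |b - b'|) := by
    intro a b a' b'
    have h := fix_lip2 hhalf hhalf hL2 hF2 a b a' b'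
    have hn : 0 ≤ |a - a'| + |b - b'| := by positivity
    have h5 : L2 * (|a - a'| + |b - b'|) ≤ (L1 + L2) * (|a - a'| + |b - b'|) := by nlinarith
    exact h.trans h5
  have l3 : ∀ x z v x' z' v', |fixCl (1 / 2) (3 / 2) x ^ ((1 : ℝ) / 10) -
      fixCl (1 / 2) (3 / 2) x' ^ ((1 : ℝ) / 10)| ≤
      (L3 + L4) * (|x - x'| + |z - z'| + |v - v'|) := by
    intro x z v x' z' v'
    have h := fix_lip3 hhalf h24 hhalf hL3 hH1 x z v x' z' v'
    have hn : 0 ≤ |x - x'| + |z - z'| + |v - v'| := by positivity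
    have h5 : L3 * (|x - x'| + |z - z'| + |v - v'|) ≤
        (L3 + L4) * (|x - x'| + |z - z'| + |v - v'|) := by nlinarith
    exact h.trans h5
  have l4 : ∀ x z v x' z' v', |fixCl (-24) 24 z /
        (12 * fixCl (1 / 2) (3 / 2) v ^ 11 * fixCl (1 / 2) (3 / 2) x ^ ((9 : ℝ) / 10)) -
      fixCl (-24) 24 z' /
        (12 * fixCl (1 / 2) (3 / 2) v' ^ 11 * fixCl (1 / 2) (3 / 2) x' ^ ((9 : ℝ) / 10))| ≤
      (L3 + L4) * (|x - x'| + |z - z'| + |v - v'|) := by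
    intro x z v x' z' v'
    have h := fix_lip3 hhalf h24 hhalf hL4 hH2 x z v x' z' v'
    have hn : 0 ≤ |x - x'| + |z - z'| + |v - v'| := by positivity
    have h5 : L4 * (|x - x'| + |z - z'| + |v - v'|) ≤
        (L3 + L4) * (|x - x'| + |z - z'| + |v - v'|) := by nlinarith
    exact h.trans h5
  have b1 : ∀ x z v : ℝ, |fixCl (1 / 2) (3 / 2) x ^ ((1 : ℝ) / 10)| ≤ |M1| + |M2| := by
    intro x z v
    have h := hM1 (fixCl (1 / 2) (3 / 2) x, fixCl (-24) 24 z, fixCl (1 / 2) (3 / 2) v)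
      ⟨fix_cl_mem hhalf x, fix_cl_mem h24 z, fix_cl_mem hhalf v⟩
    rw [Real.norm_eq_abs] at h
    have h6 := le_abs_self M1
    have h7 := abs_nonneg M2
    exact h.trans (by linarith)
  have b2 : ∀ x z v : ℝ, |fixCl (-24) 24 z /
        (12 * fixCl (1 / 2) (3 / 2) v ^ 11 * fixCl (1 / 2) (3 / 2) x ^ ((9 : ℝ) / 10))| ≤
      |M1| + |M2| := by
    intro x z v
    have h := hM2 (fixCl (1 / 2) (3 / 2) x, fixCl (-24) 24 z, fixCl (1 / 2) (3 / 2) v)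
      ⟨fix_cl_mem hhalf x, fix_cl_mem h24 z, fix_cl_mem hhalf v⟩
    rw [Real.norm_eq_abs] at h
    have h6 := le_abs_self M2
    have h7 := abs_nonneg M1
    exact h.trans (by linarith)
  exact ⟨{ f1 := fun a b => fixCl (1 / 2) (3 / 2) a / fixCl (1 / 2) (3 / 2) b ^ 13
           f2 := fun _ b => 1 / fixCl (1 / 2) (3 / 2) b
           G1 := fun x _ _ => fixCl (1 / 2) (3 / 2) x ^ ((1 : ℝ) / 10)
           G2 := fun x z v => fixCl (-24) 24 z /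
             (12 * fixCl (1 / 2) (3 / 2) v ^ 11 * fixCl (1 / 2) (3 / 2) x ^ ((9 : ℝ) / 10))
           Lf := L1 + L2
           Lg := L3 + L4
           M := |M1| + |M2|
           hLf := by linarith
           hLg := by linarith
           hM := by positivity
           f1c := c1
           f2c := c2
           G1c := c3
           G2c := c4
           f1l := l1
           f2l := l2
           G1l := l3
           G2l := l4
           G1b := b1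
           G2b := b2 }, fun _ _ => rfl, fun _ _ => rfl, fun _ _ _ => rfl, fun _ _ _ => rfl⟩

/-- B1-fix: a continuous solution of the integral form of the profile equations near `s = 0`. -/
theorem fix_exists : ∃ d : ℝ, 0 < d ∧ ∃ Ψ V : ℝ → ℝ, Continuous Ψ ∧ Continuous V ∧
    (∀ s, |Ψ s - 1| ≤ 1 / 2) ∧ (∀ s, |V s - 1| ≤ 1 / 2) ∧
    (∀ s, |10 * (∫ σ in (0:ℝ)..1, σ ^ 9 * (Ψ (σ ^ 2 * s) / V (σ ^ 2 * s) ^ 13)) - 1| ≤ 1 / 2) ∧
    (∀ s ∈ Set.Icc (-d) d, Ψ s = 1 + ∫ t in (0:ℝ)..s,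
        (10 * ∫ σ in (0:ℝ)..1, σ ^ 9 * (Ψ (σ ^ 2 * t) / V (σ ^ 2 * t) ^ 13)) ^ ((1:ℝ) / 10)) ∧
    (∀ s ∈ Set.Icc (-d) d, V s = 1 + ∫ t in (0:ℝ)..s,
        (-12 * ∫ σ in (0:ℝ)..1, σ ^ 9 * (1 / V (σ ^ 2 * t))) /
          (12 * V t ^ 11 *
            (10 * ∫ σ in (0:ℝ)..1, σ ^ 9 * (Ψ (σ ^ 2 * t) / V (σ ^ 2 * t) ^ 13)) ^ ((9:ℝ) / 10)))
    := by
  obtain ⟨D, hf1, hf2, hG1, hG2⟩ := fix_data
  have hLf := D.hLf
  have hLg := D.hLg
  have hM := D.hM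
  have hB : 1 ≤ 44 * D.Lf + 1 := by linarith
  have hC : 1 ≤ D.Lg + 1 := by linarith
  have hBC : 1 ≤ (44 * D.Lf + 1) * (D.Lg + 1) := one_le_mul_of_one_le_of_one_le hB hC
  have hQpos : 0 < (D.M + 1) * (44 * D.Lf + 1) * (D.Lg + 1) := by positivity
  have hQ1 : D.M ≤ (D.M + 1) * (44 * D.Lf + 1) * (D.Lg + 1) := by nlinarith
  have hQ2 : 20 * D.Lf * D.M ≤ (D.M + 1) * (44 * D.Lf + 1) * (D.Lg + 1) := by
    have h1 : 20 * D.Lf * D.M ≤ (D.M + 1) * (44 * D.Lf + 1) := by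
      nlinarith [mul_nonneg hLf hM]
    have h2 : 0 ≤ (D.M + 1) * (44 * D.Lf + 1) := by positivity
    nlinarith
  have hQ3 : D.Lg * (44 * D.Lf + 1) ≤ (D.M + 1) * (44 * D.Lf + 1) * (D.Lg + 1) := by
    have h1 : D.Lg * (44 * D.Lf + 1) ≤ (44 * D.Lf + 1) * (D.Lg + 1) := by nlinarith
    have h2 : 0 ≤ (44 * D.Lf + 1) * (D.Lg + 1) := by positivity
    nlinarith
  generalize (D.M + 1) * (44 * D.Lf + 1) * (D.Lg + 1) = Q at hQpos hQ1 hQ2 hQ3
  have hd : 0 < 1 / (2 * Q) := by positivity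
  have hdabs : |1 / (2 * Q)| = 1 / (2 * Q) := abs_of_pos hd
  have hMd : D.M * (1 / (2 * Q)) ≤ 1 / 2 := by
    rw [mul_one_div, div_le_div_iff₀ (by positivity) (by norm_num)]
    linarith
  have hXd : 20 * D.Lf * D.M * (1 / (2 * Q)) ≤ 1 / 2 := by
    rw [mul_one_div, div_le_div_iff₀ (by positivity) (by norm_num)]
    linarith
  have hK : |1 / (2 * Q)| * (D.Lg * (44 * D.Lf + 1)) < 1 := by
    rw [hdabs, one_div_mul_eq_div, div_lt_one (by positivity)]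
    linarith
  obtain ⟨u, hu1, hu2⟩ := D.exists_fixed (1 / (2 * Q)) hK
  have hd1 : ∀ s, |u.1 s - 1| ≤ D.M * (1 / (2 * Q)) := by
    intro s
    rw [hu1 s, add_sub_cancel_left]
    have h1 := fix_int_abs_le (1 / (2 * Q)) (D.I1 u) D.M (fun t => D.G1b _ _ _) s
    rwa [hdabs] at h1
  have hd2 : ∀ s, |u.2 s - 1| ≤ D.M * (1 / (2 * Q)) := by
    intro s
    rw [hu2 s, add_sub_cancel_left]
    have h1 := fix_int_abs_le (1 / (2 * Q)) (D.I2 u) D.M (fun t => D.G2b _ _ _) s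
    rwa [hdabs] at h1
  have hb1 : ∀ s, |u.1 s - 1| ≤ 1 / 2 := fun s => (hd1 s).trans hMd
  have hb2 : ∀ s, |u.2 s - 1| ≤ 1 / 2 := fun s => (hd2 s).trans hMd
  have hmem1 : ∀ s, u.1 s ∈ Icc (1 / 2 : ℝ) (3 / 2) := fun s => by
    have h1 := abs_le.mp (hb1 s)
    constructor <;> linarith [h1.1, h1.2]
  have hmem2 : ∀ s, u.2 s ∈ Icc (1 / 2 : ℝ) (3 / 2) := fun s => by
    have h1 := abs_le.mp (hb2 s)
    constructor <;> linarith [h1.1, h1.2]
  have hf1u : ∀ τ, D.f1 (u.1 τ) (u.2 τ) = u.1 τ / u.2 τ ^ 13 := fun τ => by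
    rw [hf1, fix_cl_eq (hmem1 τ), fix_cl_eq (hmem2 τ)]
  have hf2u : ∀ τ, D.f2 (u.1 τ) (u.2 τ) = 1 / u.2 τ := fun τ => by
    rw [hf2, fix_cl_eq (hmem2 τ)]
  have hX : ∀ t, D.X u t =
      10 * ∫ σ in (0:ℝ)..1, σ ^ 9 * (u.1 (σ ^ 2 * t) / u.2 (σ ^ 2 * t) ^ 13) := by
    intro t
    unfold FixData.X fixAvg
    simp only [hf1u]
  have hZ : ∀ t, D.Z u t = -12 * ∫ σ in (0:ℝ)..1, σ ^ 9 * (1 / u.2 (σ ^ 2 * t)) := by
    intro t
    unfold FixData.Z fixAvg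
    simp only [hf2u]
  have hXb : ∀ t, |D.X u t - 1| ≤ 1 / 2 := by
    intro t
    have h1 : ∀ τ, |D.f1 (u.1 τ) (u.2 τ) - 1| ≤
        D.Lf * (D.M * (1 / (2 * Q)) + D.M * (1 / (2 * Q))) := by
      intro τ
      have e : D.f1 1 1 = 1 := by
        rw [hf1, fix_cl_eq ⟨by norm_num, by norm_num⟩]
        norm_num
      have h2 := D.f1l (u.1 τ) (u.2 τ) 1 1
      rw [e] at h2
      exact h2.trans (mul_le_mul_of_nonneg_left (add_le_add (hd1 τ) (hd2 τ)) hLf)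
    have h3 := fix_avg_sub_le (D.f1_comp_continuous u)
      (continuous_const : Continuous fun _ : ℝ => (1 : ℝ)) h1 t
    rw [fix_avg_const] at h3
    have e2 : D.X u t - 1 = 10 * (fixAvg (fun τ => D.f1 (u.1 τ) (u.2 τ)) t - 1 / 10) := by
      unfold FixData.X
      ring
    rw [e2, abs_mul, abs_of_pos (by norm_num : (0 : ℝ) < 10)]
    linarith
  have hZb : ∀ t, |D.Z u t| ≤ 24 := by
    intro t
    have h1 : ∀ τ, |D.f2 (u.1 τ) (u.2 τ) - 0| ≤ 2 := by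
      intro τ
      have h5 := (hmem2 τ).1
      have h6 : 0 < u.2 τ := by linarith
      rw [sub_zero, hf2u, abs_of_pos (by positivity), div_le_iff₀ h6]
      linarith
    have h3 := fix_avg_sub_le (D.f2_comp_continuous u)
      (continuous_const : Continuous fun _ : ℝ => (0 : ℝ)) h1 t
    rw [fix_avg_const] at h3
    unfold FixData.Z
    rw [abs_mul]
    norm_num at h3 ⊢
    linarith
  have hXmem : ∀ t, D.X u t ∈ Icc (1 / 2 : ℝ) (3 / 2) := fun t => by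
    have h1 := abs_le.mp (hXb t)
    constructor <;> linarith [h1.1, h1.2]
  have hZmem : ∀ t, D.Z u t ∈ Icc (-24 : ℝ) 24 := fun t => abs_le.mp (hZb t)
  have hI1 : ∀ t, D.I1 u t = (D.X u t) ^ ((1 : ℝ) / 10) := fun t => by
    unfold FixData.I1
    rw [hG1, fix_cl_eq (hXmem t)]
  have hI2 : ∀ t, D.I2 u t = D.Z u t / (12 * u.2 t ^ 11 * (D.X u t) ^ ((9 : ℝ) / 10)) :=
    fun t => by
      unfold FixData.I2
      rw [hG2, fix_cl_eq (hXmem t), fix_cl_eq (hZmem t), fix_cl_eq (hmem2 t)]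
  refine ⟨1 / (2 * Q), hd, ⇑u.1, ⇑u.2, u.1.continuous, u.2.continuous, hb1, hb2,
    fun s => ?_, fun s hs => ?_, fun s hs => ?_⟩
  · rw [← hX]
    exact hXb s
  · rw [hu1 s, fix_cl_eq hs]
    simp only [hI1, hX]
  · rw [hu2 s, fix_cl_eq hs]
    simp only [hI2, hX, hZ]

end Vale.Agent.H68.Prof
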