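import Mathlib
import Vale.Agent.H68.P252.Fix

/-!
# P252, part B1-fix, generic in `k` (`m = k + 2`): a continuous solution of the integral form of
the profile equations

Same route as `Fix.lean` (Banach fixed point on pairs of bounded continuous functions, clamped
nonlinearities), with the numerals `10, 9, 13, 12, 11` replaced by `k + 2, k + 1, k + 5, k + 4,
k + 3`.
-/

namespace Vale.Agent.H68.Prof

open Set MeasureTheory
open scoped BoundedContinuousFunction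

/-- The averaging functional `∫_0^1 σ^j φ(σ² t) dσ`. -/
noncomputable def fixAvgG (j : ℕ) (φ : ℝ → ℝ) (t : ℝ) : ℝ :=
  ∫ σ in (0:ℝ)..1, σ ^ j * φ (σ ^ 2 * t)

theorem fixg_avg_continuous (j : ℕ) {φ : ℝ → ℝ} (hφ : Continuous φ) :
    Continuous (fixAvgG j φ) := by
  unfold fixAvgG
  have h : Continuous (Function.uncurry (fun (t σ : ℝ) => σ ^ j * φ (σ ^ 2 * t))) := by
    have h1 : (Function.uncurry (fun (t σ : ℝ) => σ ^ j * φ (σ ^ 2 * t))) =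
        fun p : ℝ × ℝ => p.2 ^ j * φ (p.2 ^ 2 * p.1) := by
      funext p
      rfl
    rw [h1]
    fun_prop
  exact intervalIntegral.continuous_parametric_intervalIntegral_of_continuous' h 0 1

theorem fixg_avg_const (j : ℕ) (c t : ℝ) : fixAvgG j (fun _ => c) t = c / ((j : ℝ) + 1) := by
  unfold fixAvgG
  rw [intervalIntegral.integral_mul_const, integral_pow]
  simp
  ring

theorem fixg_avg_sub_le (j : ℕ) {φ φ' : ℝ → ℝ} (hφ : Continuous φ) (hφ' : Continuous φ')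
    {ε : ℝ} (h : ∀ τ, |φ τ - φ' τ| ≤ ε) (t : ℝ) : |fixAvgG j φ t - fixAvgG j φ' t| ≤ ε := by
  unfold fixAvgG
  rw [← intervalIntegral.integral_sub]
  · have h2 := intervalIntegral.norm_integral_le_of_norm_le_const (a := 0) (b := 1) (C := ε)
      (f := fun σ => σ ^ j * φ (σ ^ 2 * t) - σ ^ j * φ' (σ ^ 2 * t)) (by
        intro σ hσ
        rw [Set.uIoc_of_le zero_le_one] at hσ
        rw [Real.norm_eq_abs, ← mul_sub, abs_mul]
        have h1 : |σ ^ j| ≤ 1 := by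
          rw [abs_of_nonneg (pow_nonneg hσ.1.le j)]
          exact pow_le_one₀ hσ.1.le hσ.2
        calc |σ ^ j| * |φ (σ ^ 2 * t) - φ' (σ ^ 2 * t)| ≤ 1 * ε :=
              mul_le_mul h1 (h _) (abs_nonneg _) zero_le_one
          _ = ε := one_mul _)
    rw [Real.norm_eq_abs] at h2
    simpa using h2
  · exact (by fun_prop : Continuous fun σ => σ ^ j * φ (σ ^ 2 * t)).intervalIntegrable _ _
  · exact (by fun_prop : Continuous fun σ => σ ^ j * φ' (σ ^ 2 * t)).intervalIntegrable _ _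

/-- The data of the abstract fixed point problem: globally Lipschitz, bounded nonlinearities,
an exponent and two constants. -/
structure FixGData where
  j : ℕ
  cX : ℝ
  cZ : ℝ
  f1 : ℝ → ℝ → ℝ
  f2 : ℝ → ℝ → ℝ
  G1 : ℝ → ℝ → ℝ → ℝ
  G2 : ℝ → ℝ → ℝ → ℝ
  Lf : ℝ
  Lg : ℝ
  M : ℝ
  hLf : 0 ≤ Lf
  hLg : 0 ≤ Lg
  hM : 0 ≤ M
  f1c : Continuous (fun p : ℝ × ℝ => f1 p.1 p.2)
  f2c : Continuous (fun p : ℝ × ℝ => f2 p.1 p.2)
  G1c : Continuous (fun p : ℝ × ℝ × ℝ => G1 p.1 p.2.1 p.2.2)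
  G2c : Continuous (fun p : ℝ × ℝ × ℝ => G2 p.1 p.2.1 p.2.2)
  f1l : ∀ a b a' b', |f1 a b - f1 a' b'| ≤ Lf * (|a - a'| + |b - b'|)
  f2l : ∀ a b a' b', |f2 a b - f2 a' b'| ≤ Lf * (|a - a'| + |b - b'|)
  G1l : ∀ x z v x' z' v', |G1 x z v - G1 x' z' v'| ≤ Lg * (|x - x'| + |z - z'| + |v - v'|)
  G2l : ∀ x z v x' z' v', |G2 x z v - G2 x' z' v'| ≤ Lg * (|x - x'| + |z - z'| + |v - v'|)
  G1b : ∀ x z v, |G1 x z v| ≤ M
  G2b : ∀ x z v, |G2 x z v| ≤ M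

namespace FixGData

variable (D : FixGData)

/-- The function `X` of a pair. -/
noncomputable def X (u : (ℝ →ᵇ ℝ) × (ℝ →ᵇ ℝ)) (t : ℝ) : ℝ :=
  D.cX * fixAvgG D.j (fun τ => D.f1 (u.1 τ) (u.2 τ)) t

/-- The function `Z` of a pair. -/
noncomputable def Z (u : (ℝ →ᵇ ℝ) × (ℝ →ᵇ ℝ)) (t : ℝ) : ℝ :=
  D.cZ * fixAvgG D.j (fun τ => D.f2 (u.1 τ) (u.2 τ)) t

/-- The first integrand. -/
noncomputable def I1 (u : (ℝ →ᵇ ℝ) × (ℝ →ᵇ ℝ)) (t : ℝ) : ℝ := D.G1 (D.X u t) (D.Z u t) (u.2 t)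

/-- The second integrand. -/
noncomputable def I2 (u : (ℝ →ᵇ ℝ) × (ℝ →ᵇ ℝ)) (t : ℝ) : ℝ := D.G2 (D.X u t) (D.Z u t) (u.2 t)

theorem f1_comp_continuous (u : (ℝ →ᵇ ℝ) × (ℝ →ᵇ ℝ)) :
    Continuous (fun τ => D.f1 (u.1 τ) (u.2 τ)) :=
  D.f1c.comp (u.1.continuous.prodMk u.2.continuous)

theorem f2_comp_continuous (u : (ℝ →ᵇ ℝ) × (ℝ →ᵇ ℝ)) :
    Continuous (fun τ => D.f2 (u.1 τ) (u.2 τ)) :=
  D.f2c.comp (u.1.continuous.prodMk u.2.continuous)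

theorem X_continuous (u : (ℝ →ᵇ ℝ) × (ℝ →ᵇ ℝ)) : Continuous (D.X u) :=
  continuous_const.mul (fixg_avg_continuous D.j (D.f1_comp_continuous u))

theorem Z_continuous (u : (ℝ →ᵇ ℝ) × (ℝ →ᵇ ℝ)) : Continuous (D.Z u) :=
  continuous_const.mul (fixg_avg_continuous D.j (D.f2_comp_continuous u))

theorem I1_continuous (u : (ℝ →ᵇ ℝ) × (ℝ →ᵇ ℝ)) : Continuous (D.I1 u) :=
  D.G1c.comp ((D.X_continuous u).prodMk ((D.Z_continuous u).prodMk u.2.continuous))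

theorem I2_continuous (u : (ℝ →ᵇ ℝ) × (ℝ →ᵇ ℝ)) : Continuous (D.I2 u) :=
  D.G2c.comp ((D.X_continuous u).prodMk ((D.Z_continuous u).prodMk u.2.continuous))

theorem X_sub_le (u w : (ℝ →ᵇ ℝ) × (ℝ →ᵇ ℝ)) (t : ℝ) :
    |D.X u t - D.X w t| ≤ 2 * |D.cX| * D.Lf * dist u w := by
  unfold X
  have h1 := fixg_avg_sub_le D.j (D.f1_comp_continuous u) (D.f1_comp_continuous w)
    (ε := D.Lf * (dist u w + dist u w)) (fun τ => (D.f1l _ _ _ _).trans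
      (mul_le_mul_of_nonneg_left
        (add_le_add (FixData.fst_sub_le u w τ) (FixData.snd_sub_le u w τ)) D.hLf)) t
  rw [← mul_sub, abs_mul]
  calc |D.cX| * |fixAvgG D.j (fun τ => D.f1 (u.1 τ) (u.2 τ)) t -
        fixAvgG D.j (fun τ => D.f1 (w.1 τ) (w.2 τ)) t|
      ≤ |D.cX| * (D.Lf * (dist u w + dist u w)) := mul_le_mul_of_nonneg_left h1 (abs_nonneg _)
    _ = 2 * |D.cX| * D.Lf * dist u w := by ring

theorem Z_sub_le (u w : (ℝ →ᵇ ℝ) × (ℝ →ᵇ ℝ)) (t : ℝ) :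
    |D.Z u t - D.Z w t| ≤ 2 * |D.cZ| * D.Lf * dist u w := by
  unfold Z
  have h1 := fixg_avg_sub_le D.j (D.f2_comp_continuous u) (D.f2_comp_continuous w)
    (ε := D.Lf * (dist u w + dist u w)) (fun τ => (D.f2l _ _ _ _).trans
      (mul_le_mul_of_nonneg_left
        (add_le_add (FixData.fst_sub_le u w τ) (FixData.snd_sub_le u w τ)) D.hLf)) t
  rw [← mul_sub, abs_mul]
  calc |D.cZ| * |fixAvgG D.j (fun τ => D.f2 (u.1 τ) (u.2 τ)) t -
        fixAvgG D.j (fun τ => D.f2 (w.1 τ) (w.2 τ)) t|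
      ≤ |D.cZ| * (D.Lf * (dist u w + dist u w)) := mul_le_mul_of_nonneg_left h1 (abs_nonneg _)
    _ = 2 * |D.cZ| * D.Lf * dist u w := by ring

/-- The Lipschitz constant of the integrands. -/
noncomputable def K : ℝ := D.Lg * ((2 * |D.cX| + 2 * |D.cZ|) * D.Lf + 1)

theorem K_nonneg : 0 ≤ D.K := by
  unfold K
  have h1 : 0 ≤ (2 * |D.cX| + 2 * |D.cZ|) * D.Lf :=
    mul_nonneg (by positivity) D.hLf
  exact mul_nonneg D.hLg (by linarith)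

theorem I1_sub_le (u w : (ℝ →ᵇ ℝ) × (ℝ →ᵇ ℝ)) (t : ℝ) :
    |D.I1 u t - D.I1 w t| ≤ D.K * dist u w := by
  unfold I1 K
  refine (D.G1l _ _ _ _ _ _).trans ?_
  have h1 := D.X_sub_le u w t
  have h2 := D.Z_sub_le u w t
  have h3 := FixData.snd_sub_le u w t
  have h4 : |D.X u t - D.X w t| + |D.Z u t - D.Z w t| + |u.2 t - w.2 t| ≤
      ((2 * |D.cX| + 2 * |D.cZ|) * D.Lf + 1) * dist u w := by linarith
  calc D.Lg * (|D.X u t - D.X w t| + |D.Z u t - D.Z w t| + |u.2 t - w.2 t|)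
      ≤ D.Lg * (((2 * |D.cX| + 2 * |D.cZ|) * D.Lf + 1) * dist u w) :=
        mul_le_mul_of_nonneg_left h4 D.hLg
    _ = D.Lg * ((2 * |D.cX| + 2 * |D.cZ|) * D.Lf + 1) * dist u w := by ring

theorem I2_sub_le (u w : (ℝ →ᵇ ℝ) × (ℝ →ᵇ ℝ)) (t : ℝ) :
    |D.I2 u t - D.I2 w t| ≤ D.K * dist u w := by
  unfold I2 K
  refine (D.G2l _ _ _ _ _ _).trans ?_
  have h1 := D.X_sub_le u w t
  have h2 := D.Z_sub_le u w t
  have h3 := FixData.snd_sub_le u w t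
  have h4 : |D.X u t - D.X w t| + |D.Z u t - D.Z w t| + |u.2 t - w.2 t| ≤
      ((2 * |D.cX| + 2 * |D.cZ|) * D.Lf + 1) * dist u w := by linarith
  calc D.Lg * (|D.X u t - D.X w t| + |D.Z u t - D.Z w t| + |u.2 t - w.2 t|)
      ≤ D.Lg * (((2 * |D.cX| + 2 * |D.cZ|) * D.Lf + 1) * dist u w) :=
        mul_le_mul_of_nonneg_left h4 D.hLg
    _ = D.Lg * ((2 * |D.cX| + 2 * |D.cZ|) * D.Lf + 1) * dist u w := by ring

/-- The fixed point map. -/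
noncomputable def T (d : ℝ) (u : (ℝ →ᵇ ℝ) × (ℝ →ᵇ ℝ)) : (ℝ →ᵇ ℝ) × (ℝ →ᵇ ℝ) :=
  (fixPrim d (D.I1 u) (D.I1_continuous u) D.M (fun _ => D.G1b _ _ _),
   fixPrim d (D.I2 u) (D.I2_continuous u) D.M (fun _ => D.G2b _ _ _))

theorem T_dist_le (d : ℝ) (u w : (ℝ →ᵇ ℝ) × (ℝ →ᵇ ℝ)) :
    dist (D.T d u) (D.T d w) ≤ |d| * D.K * dist u w := by
  rw [Prod.dist_eq]
  apply max_le
  · have h1 := fix_prim_dist_le d (D.I1 u) (D.I1 w) (D.I1_continuous u) (D.I1_continuous w)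
      D.M (fun _ => D.G1b _ _ _) (fun _ => D.G1b _ _ _) _ (D.I1_sub_le u w)
    calc dist (D.T d u).1 (D.T d w).1 ≤ |d| * (D.K * dist u w) := h1
      _ = |d| * D.K * dist u w := by ring
  · have h1 := fix_prim_dist_le d (D.I2 u) (D.I2 w) (D.I2_continuous u) (D.I2_continuous w)
      D.M (fun _ => D.G2b _ _ _) (fun _ => D.G2b _ _ _) _ (D.I2_sub_le u w)
    calc dist (D.T d u).2 (D.T d w).2 ≤ |d| * (D.K * dist u w) := h1
      _ = |d| * D.K * dist u w := by ring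

/-- The abstract fixed point. -/
theorem exists_fixed (d : ℝ) (hd : |d| * D.K < 1) :
    ∃ u : (ℝ →ᵇ ℝ) × (ℝ →ᵇ ℝ),
      (∀ s, u.1 s = 1 + ∫ t in (0:ℝ)..fixCl (-d) d s, D.I1 u t) ∧
      (∀ s, u.2 s = 1 + ∫ t in (0:ℝ)..fixCl (-d) d s, D.I2 u t) := by
  have hK0 : 0 ≤ |d| * D.K := mul_nonneg (abs_nonneg d) D.K_nonneg
  have hc : ContractingWith (Real.toNNReal (|d| * D.K)) (D.T d) := by
    refine ⟨?_, LipschitzWith.of_dist_le_mul fun u w => ?_⟩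
    · rw [← NNReal.coe_lt_coe, Real.coe_toNNReal _ hK0]
      exact hd
    · rw [Real.coe_toNNReal _ hK0]
      exact D.T_dist_le d u w
  have hfix := hc.fixedPoint_isFixedPt
  refine ⟨ContractingWith.fixedPoint (D.T d) hc, fun s => ?_, fun s => ?_⟩
  · have h1 : (D.T d (ContractingWith.fixedPoint (D.T d) hc)).1 s =
        (ContractingWith.fixedPoint (D.T d) hc).1 s := by rw [hfix.eq]
    rw [← h1]
    rfl
  · have h1 : (D.T d (ContractingWith.fixedPoint (D.T d) hc)).2 s =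
        (ContractingWith.fixedPoint (D.T d) hc).2 s := by rw [hfix.eq]
    rw [← h1]
    rfl

end FixGData

theorem fixg_box3_subset (zb : ℝ) :
    Icc (1 / 2 : ℝ) (3 / 2) ×ˢ Icc (-zb) zb ×ˢ Icc (1 / 2 : ℝ) (3 / 2) ⊆
      {p : ℝ × ℝ × ℝ | 0 < p.1 ∧ 0 < p.2.2} := by
  intro p hp
  exact ⟨lt_of_lt_of_le (by norm_num) hp.1.1, lt_of_lt_of_le (by norm_num) hp.2.2.1⟩

theorem fixg_contDiffOn_F1 (n : ℕ) :
    ContDiffOn ℝ 1 (fun p : ℝ × ℝ => p.1 / p.2 ^ n) {p : ℝ × ℝ | 0 < p.2} :=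
  ContDiffOn.div contDiff_fst.contDiffOn (contDiff_snd.pow n).contDiffOn
    (fun _ hp => (pow_pos hp n).ne')

theorem fixg_contDiffOn_H1 (e : ℝ) :
    ContDiffOn ℝ 1 (fun p : ℝ × ℝ × ℝ => p.1 ^ e) {p : ℝ × ℝ × ℝ | 0 < p.1 ∧ 0 < p.2.2} :=
  ContDiffOn.rpow_const_of_ne contDiff_fst.contDiffOn (fun _ hp => ne_of_gt hp.1)

theorem fixg_contDiffOn_H2 (c : ℝ) (hc : 0 < c) (n : ℕ) (e : ℝ) :
    ContDiffOn ℝ 1 (fun p : ℝ × ℝ × ℝ => p.2.1 / (c * p.2.2 ^ n * p.1 ^ e))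
      {p : ℝ × ℝ × ℝ | 0 < p.1 ∧ 0 < p.2.2} := by
  refine ContDiffOn.div (contDiff_fst.comp contDiff_snd).contDiffOn ?_ ?_
  · exact (contDiffOn_const.mul ((contDiff_snd.comp contDiff_snd).pow n).contDiffOn).mul
      (ContDiffOn.rpow_const_of_ne contDiff_fst.contDiffOn (fun _ hp => ne_of_gt hp.1))
  · intro p hp
    have h1 : 0 < p.2.2 ^ n := pow_pos hp.2 n
    have h2 : 0 < p.1 ^ e := Real.rpow_pos_of_pos hp.1 _
    positivity

/-- The concrete data: the nonlinearities of the profile equations composed with clamps. -/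
theorem fixg_data (k : ℕ) : ∃ D : FixGData,
    D.j = k + 1 ∧ D.cX = (k : ℝ) + 2 ∧ D.cZ = -((k : ℝ) + 4) ∧
    (∀ a b, D.f1 a b = fixCl (1 / 2) (3 / 2) a / fixCl (1 / 2) (3 / 2) b ^ (k + 5)) ∧
    (∀ a b, D.f2 a b = 1 / fixCl (1 / 2) (3 / 2) b) ∧
    (∀ x z v, D.G1 x z v = fixCl (1 / 2) (3 / 2) x ^ (1 / ((k : ℝ) + 2))) ∧
    (∀ x z v, D.G2 x z v = fixCl (-(2 * ((k : ℝ) + 4))) (2 * ((k : ℝ) + 4)) z /
      (((k : ℝ) + 4) * fixCl (1 / 2) (3 / 2) v ^ (k + 3) *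
        fixCl (1 / 2) (3 / 2) x ^ (((k : ℝ) + 1) / ((k : ℝ) + 2)))) := by
  have hk4 : (0 : ℝ) < (k : ℝ) + 4 := by positivity
  have hK2 : IsCompact (Icc (1 / 2 : ℝ) (3 / 2) ×ˢ Icc (1 / 2 : ℝ) (3 / 2)) :=
    isCompact_Icc.prod isCompact_Icc
  have hK2c : Convex ℝ (Icc (1 / 2 : ℝ) (3 / 2) ×ˢ Icc (1 / 2 : ℝ) (3 / 2)) :=
    (convex_Icc _ _).prod (convex_Icc _ _)
  have hK3 : IsCompact (Icc (1 / 2 : ℝ) (3 / 2) ×ˢ
      Icc (-(2 * ((k : ℝ) + 4))) (2 * ((k : ℝ) + 4)) ×ˢ Icc (1 / 2 : ℝ) (3 / 2)) :=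
    isCompact_Icc.prod (isCompact_Icc.prod isCompact_Icc)
  have hK3c : Convex ℝ (Icc (1 / 2 : ℝ) (3 / 2) ×ˢ
      Icc (-(2 * ((k : ℝ) + 4))) (2 * ((k : ℝ) + 4)) ×ˢ Icc (1 / 2 : ℝ) (3 / 2)) :=
    (convex_Icc _ _).prod ((convex_Icc _ _).prod (convex_Icc _ _))
  obtain ⟨L1, hL1, hF1⟩ :=
    fix_lip_of_contDiffOn fix_open2 (fixg_contDiffOn_F1 (k + 5)) hK2 hK2c fix_box2_subset
  obtain ⟨L2, hL2, hF2⟩ :=
    fix_lip_of_contDiffOn fix_open2 fix_contDiffOn_F2 hK2 hK2c fix_box2_subset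
  obtain ⟨L3, hL3, hH1⟩ :=
    fix_lip_of_contDiffOn fix_open3 (fixg_contDiffOn_H1 (1 / ((k : ℝ) + 2))) hK3 hK3c
      (fixg_box3_subset _)
  obtain ⟨L4, hL4, hH2⟩ :=
    fix_lip_of_contDiffOn fix_open3
      (fixg_contDiffOn_H2 ((k : ℝ) + 4) hk4 (k + 3) (((k : ℝ) + 1) / ((k : ℝ) + 2))) hK3 hK3c
      (fixg_box3_subset _)
  obtain ⟨M1, hM1⟩ := hK3.exists_bound_of_continuousOn
    ((fixg_contDiffOn_H1 (1 / ((k : ℝ) + 2))).continuousOn.mono (fixg_box3_subset _))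
  obtain ⟨M2, hM2⟩ := hK3.exists_bound_of_continuousOn
    ((fixg_contDiffOn_H2 ((k : ℝ) + 4) hk4 (k + 3)
      (((k : ℝ) + 1) / ((k : ℝ) + 2))).continuousOn.mono (fixg_box3_subset _))
  have hhalf : (1 / 2 : ℝ) ≤ 3 / 2 := by norm_num
  have hzb : -(2 * ((k : ℝ) + 4)) ≤ 2 * ((k : ℝ) + 4) := by linarith
  have hpos : ∀ x, 0 < fixCl (1 / 2) (3 / 2) x := fun x =>
    lt_of_lt_of_le (by norm_num) (fix_cl_mem hhalf x).1
  have c1 : Continuous (fun p : ℝ × ℝ =>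
      fixCl (1 / 2) (3 / 2) p.1 / fixCl (1 / 2) (3 / 2) p.2 ^ (k + 5)) :=
    Continuous.div ((fix_cl_continuous _ _).comp continuous_fst)
      (((fix_cl_continuous _ _).comp continuous_snd).pow (k + 5))
      (fun p => (pow_pos (hpos p.2) (k + 5)).ne')
  have c2 : Continuous (fun p : ℝ × ℝ => 1 / fixCl (1 / 2) (3 / 2) p.2) :=
    Continuous.div continuous_const ((fix_cl_continuous _ _).comp continuous_snd)
      (fun p => (hpos p.2).ne')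
  have c3 : Continuous (fun p : ℝ × ℝ × ℝ =>
      fixCl (1 / 2) (3 / 2) p.1 ^ (1 / ((k : ℝ) + 2))) :=
    Continuous.rpow_const ((fix_cl_continuous _ _).comp continuous_fst)
      (fun p => Or.inl (hpos p.1).ne')
  have c4 : Continuous (fun p : ℝ × ℝ × ℝ =>
      fixCl (-(2 * ((k : ℝ) + 4))) (2 * ((k : ℝ) + 4)) p.2.1 /
      (((k : ℝ) + 4) * fixCl (1 / 2) (3 / 2) p.2.2 ^ (k + 3) *
        fixCl (1 / 2) (3 / 2) p.1 ^ (((k : ℝ) + 1) / ((k : ℝ) + 2)))) :=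
    Continuous.div ((fix_cl_continuous _ _).comp (continuous_fst.comp continuous_snd))
      ((continuous_const.mul
        (((fix_cl_continuous _ _).comp (continuous_snd.comp continuous_snd)).pow (k + 3))).mul
        (Continuous.rpow_const ((fix_cl_continuous _ _).comp continuous_fst)
          (fun p => Or.inl (hpos p.1).ne')))
      (fun p => by
        have h1 := pow_pos (hpos p.2.2) (k + 3)
        have h2 := Real.rpow_pos_of_pos (hpos p.1) (((k : ℝ) + 1) / ((k : ℝ) + 2))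
        positivity)
  have l1 : ∀ a b a' b', |fixCl (1 / 2) (3 / 2) a / fixCl (1 / 2) (3 / 2) b ^ (k + 5) -
      fixCl (1 / 2) (3 / 2) a' / fixCl (1 / 2) (3 / 2) b' ^ (k + 5)| ≤
      (L1 + L2) * (|a - a'| + |b - b'|) := by
    intro a b a' b'
    have h := fix_lip2 hhalf hhalf hL1 hF1 a b a' b'
    have hn : 0 ≤ |a - a'| + |b - b'| := by positivity
    have h5 : L1 * (|a - a'| + |b - b'|) ≤ (L1 + L2) * (|a - a'| + |b - b'|) := by nlinarith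
    exact h.trans h5
  have l2 : ∀ a b a' b', |1 / fixCl (1 / 2) (3 / 2) b - 1 / fixCl (1 / 2) (3 / 2) b'| ≤
      (L1 + L2) * (|a - a'| + |b - b'|) := by
    intro a b a' b'
    have h := fix_lip2 hhalf hhalf hL2 hF2 a b a' b'
    have hn : 0 ≤ |a - a'| + |b - b'| := by positivity
    have h5 : L2 * (|a - a'| + |b - b'|) ≤ (L1 + L2) * (|a - a'| + |b - b'|) := by nlinarith
    exact h.trans h5
  have l3 : ∀ x z v x' z' v', |fixCl (1 / 2) (3 / 2) x ^ (1 / ((k : ℝ) + 2)) -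
      fixCl (1 / 2) (3 / 2) x' ^ (1 / ((k : ℝ) + 2))| ≤
      (L3 + L4) * (|x - x'| + |z - z'| + |v - v'|) := by
    intro x z v x' z' v'
    have h := fix_lip3 hhalf hzb hhalf hL3 hH1 x z v x' z' v'
    have hn : 0 ≤ |x - x'| + |z - z'| + |v - v'| := by positivity
    have h5 : L3 * (|x - x'| + |z - z'| + |v - v'|) ≤
        (L3 + L4) * (|x - x'| + |z - z'| + |v - v'|) := by nlinarith
    exact h.trans h5
  have l4 : ∀ x z v x' z' v', |fixCl (-(2 * ((k : ℝ) + 4))) (2 * ((k : ℝ) + 4)) z /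
        (((k : ℝ) + 4) * fixCl (1 / 2) (3 / 2) v ^ (k + 3) *
          fixCl (1 / 2) (3 / 2) x ^ (((k : ℝ) + 1) / ((k : ℝ) + 2))) -
      fixCl (-(2 * ((k : ℝ) + 4))) (2 * ((k : ℝ) + 4)) z' /
        (((k : ℝ) + 4) * fixCl (1 / 2) (3 / 2) v' ^ (k + 3) *
          fixCl (1 / 2) (3 / 2) x' ^ (((k : ℝ) + 1) / ((k : ℝ) + 2)))| ≤
      (L3 + L4) * (|x - x'| + |z - z'| + |v - v'|) := by
    intro x z v x' z' v'
    have h := fix_lip3 hhalf hzb hhalf hL4 hH2 x z v x' z' v'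
    have hn : 0 ≤ |x - x'| + |z - z'| + |v - v'| := by positivity
    have h5 : L4 * (|x - x'| + |z - z'| + |v - v'|) ≤
        (L3 + L4) * (|x - x'| + |z - z'| + |v - v'|) := by nlinarith
    exact h.trans h5
  have b1 : ∀ x z v : ℝ, |fixCl (1 / 2) (3 / 2) x ^ (1 / ((k : ℝ) + 2))| ≤ |M1| + |M2| := by
    intro x z v
    have h := hM1 (fixCl (1 / 2) (3 / 2) x,
      fixCl (-(2 * ((k : ℝ) + 4))) (2 * ((k : ℝ) + 4)) z, fixCl (1 / 2) (3 / 2) v)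
      ⟨fix_cl_mem hhalf x, fix_cl_mem hzb z, fix_cl_mem hhalf v⟩
    rw [Real.norm_eq_abs] at h
    have h6 := le_abs_self M1
    have h7 := abs_nonneg M2
    exact h.trans (by linarith)
  have b2 : ∀ x z v : ℝ, |fixCl (-(2 * ((k : ℝ) + 4))) (2 * ((k : ℝ) + 4)) z /
        (((k : ℝ) + 4) * fixCl (1 / 2) (3 / 2) v ^ (k + 3) *
          fixCl (1 / 2) (3 / 2) x ^ (((k : ℝ) + 1) / ((k : ℝ) + 2)))| ≤
      |M1| + |M2| := by
    intro x z v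
    have h := hM2 (fixCl (1 / 2) (3 / 2) x,
      fixCl (-(2 * ((k : ℝ) + 4))) (2 * ((k : ℝ) + 4)) z, fixCl (1 / 2) (3 / 2) v)
      ⟨fix_cl_mem hhalf x, fix_cl_mem hzb z, fix_cl_mem hhalf v⟩
    rw [Real.norm_eq_abs] at h
    have h6 := le_abs_self M2
    have h7 := abs_nonneg M1
    exact h.trans (by linarith)
  exact ⟨{ j := k + 1
           cX := (k : ℝ) + 2
           cZ := -((k : ℝ) + 4)
           f1 := fun a b => fixCl (1 / 2) (3 / 2) a / fixCl (1 / 2) (3 / 2) b ^ (k + 5)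
           f2 := fun _ b => 1 / fixCl (1 / 2) (3 / 2) b
           G1 := fun x _ _ => fixCl (1 / 2) (3 / 2) x ^ (1 / ((k : ℝ) + 2))
           G2 := fun x z v => fixCl (-(2 * ((k : ℝ) + 4))) (2 * ((k : ℝ) + 4)) z /
             (((k : ℝ) + 4) * fixCl (1 / 2) (3 / 2) v ^ (k + 3) *
               fixCl (1 / 2) (3 / 2) x ^ (((k : ℝ) + 1) / ((k : ℝ) + 2)))
           Lf := L1 + L2
           Lg := L3 + L4
           M := |M1| + |M2|
           hLf := by linarith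
           hLg := by linarith
           hM := by positivity
           f1c := c1
           f2c := c2
           G1c := c3
           G2c := c4
           f1l := l1
           f2l := l2
           G1l := l3
           G2l := l4
           G1b := b1
           G2b := b2 }, rfl, rfl, rfl, fun _ _ => rfl, fun _ _ => rfl, fun _ _ _ => rfl,
           fun _ _ _ => rfl⟩

/-- B1-fix, generic in `k`: a continuous positive solution of the integral form of the profile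
equations near `s = 0` (exactly the hypothesis of `local_profileG_of_fixed_point`). -/
theorem fix_existsG (k : ℕ) : ∃ d : ℝ, 0 < d ∧ ∃ Ψ V : ℝ → ℝ,
    ContinuousOn Ψ (Icc (-d) d) ∧ ContinuousOn V (Icc (-d) d) ∧
    (∀ s ∈ Icc (-d) d, 0 < Ψ s) ∧ (∀ s ∈ Icc (-d) d, 0 < V s) ∧
    (∀ s ∈ Icc (-d) d, Ψ s = 1 + ∫ t in (0:ℝ)..s,
      (((k:ℝ) + 2) * (∫ σ in (0:ℝ)..1, σ ^ (k + 1) * (Ψ (σ ^ 2 * t) / V (σ ^ 2 * t) ^ (k + 5))))
        ^ (1 / ((k:ℝ) + 2))) ∧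
    (∀ s ∈ Icc (-d) d, V s = 1 + ∫ t in (0:ℝ)..s,
      (-((k:ℝ) + 4) * (∫ σ in (0:ℝ)..1, σ ^ (k + 1) * (1 / V (σ ^ 2 * t)))) /
        (((k:ℝ) + 4) * V t ^ (k + 3) *
          (((k:ℝ) + 2) * (∫ σ in (0:ℝ)..1,
            σ ^ (k + 1) * (Ψ (σ ^ 2 * t) / V (σ ^ 2 * t) ^ (k + 5)))) ^
            (((k:ℝ) + 1) / ((k:ℝ) + 2)))) := by
  obtain ⟨D, hj, hcX, hcZ, hf1, hf2, hG1, hG2⟩ := fixg_data k
  have hLf := D.hLf
  have hLg := D.hLg
  have hM := D.hM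
  have hk2 : (0 : ℝ) < (k : ℝ) + 2 := by positivity
  have hk4 : (0 : ℝ) < (k : ℝ) + 4 := by positivity
  have habsX : |D.cX| = (k : ℝ) + 2 := by rw [hcX, abs_of_pos hk2]
  have habsZ : |D.cZ| = (k : ℝ) + 4 := by rw [hcZ, abs_neg, abs_of_pos hk4]
  have hKdef : D.K = D.Lg * ((2 * ((k : ℝ) + 2) + 2 * ((k : ℝ) + 4)) * D.Lf + 1) := by
    unfold FixGData.K
    rw [habsX, habsZ]
  have p1 : 0 ≤ ((k : ℝ) + 2) * D.Lf := mul_nonneg hk2.le hLf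
  have p2 : 0 ≤ ((k : ℝ) + 4) * D.Lf := mul_nonneg hk4.le hLf
  have hB : 1 ≤ (2 * ((k : ℝ) + 2) + 2 * ((k : ℝ) + 4)) * D.Lf + 1 := by nlinarith
  have hC : 1 ≤ D.Lg + 1 := by linarith
  have hX2 : 2 * ((k : ℝ) + 2) * D.Lf * D.M ≤
      (D.M + 1) * ((2 * ((k : ℝ) + 2) + 2 * ((k : ℝ) + 4)) * D.Lf + 1) := by
    nlinarith [mul_nonneg p1 hM, mul_nonneg p2 hM]
  generalize (2 * ((k : ℝ) + 2) + 2 * ((k : ℝ) + 4)) * D.Lf + 1 = B at hKdef hB hX2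
  have hBC : 1 ≤ B * (D.Lg + 1) := one_le_mul_of_one_le_of_one_le hB hC
  have hQpos : 0 < (D.M + 1) * B * (D.Lg + 1) := by positivity
  have hQ1 : D.M ≤ (D.M + 1) * B * (D.Lg + 1) := by nlinarith
  have hQ2 : 2 * ((k : ℝ) + 2) * D.Lf * D.M ≤ (D.M + 1) * B * (D.Lg + 1) := by
    have h2 : 0 ≤ (D.M + 1) * B := by positivity
    nlinarith
  have hQ3 : D.K ≤ (D.M + 1) * B * (D.Lg + 1) := by
    rw [hKdef]
    have h1 : D.Lg * B ≤ B * (D.Lg + 1) := by nlinarith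
    have h2 : 0 ≤ B * (D.Lg + 1) := by positivity
    nlinarith
  generalize (D.M + 1) * B * (D.Lg + 1) = Q at hQpos hQ1 hQ2 hQ3
  have hd : 0 < 1 / (2 * Q) := by positivity
  have hdabs : |1 / (2 * Q)| = 1 / (2 * Q) := abs_of_pos hd
  have hMd : D.M * (1 / (2 * Q)) ≤ 1 / 2 := by
    rw [mul_one_div, div_le_div_iff₀ (by positivity) (by norm_num)]
    linarith
  have hXd : 2 * ((k : ℝ) + 2) * D.Lf * D.M * (1 / (2 * Q)) ≤ 1 / 2 := by
    rw [mul_one_div, div_le_div_iff₀ (by positivity) (by norm_num)]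
    linarith
  have hK : |1 / (2 * Q)| * D.K < 1 := by
    rw [hdabs, one_div_mul_eq_div, div_lt_one (by positivity)]
    linarith [D.K_nonneg]
  obtain ⟨u, hu1, hu2⟩ := D.exists_fixed (1 / (2 * Q)) hK
  have hd1 : ∀ s, |u.1 s - 1| ≤ D.M * (1 / (2 * Q)) := by
    intro s
    rw [hu1 s, add_sub_cancel_left]
    have h1 := fix_int_abs_le (1 / (2 * Q)) (D.I1 u) D.M (fun t => D.G1b _ _ _) s
    rwa [hdabs] at h1
  have hd2 : ∀ s, |u.2 s - 1| ≤ D.M * (1 / (2 * Q)) := by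
    intro s
    rw [hu2 s, add_sub_cancel_left]
    have h1 := fix_int_abs_le (1 / (2 * Q)) (D.I2 u) D.M (fun t => D.G2b _ _ _) s
    rwa [hdabs] at h1
  have hb1 : ∀ s, |u.1 s - 1| ≤ 1 / 2 := fun s => (hd1 s).trans hMd
  have hb2 : ∀ s, |u.2 s - 1| ≤ 1 / 2 := fun s => (hd2 s).trans hMd
  have hmem1 : ∀ s, u.1 s ∈ Icc (1 / 2 : ℝ) (3 / 2) := fun s => by
    have h1 := abs_le.mp (hb1 s)
    constructor <;> linarith [h1.1, h1.2]
  have hmem2 : ∀ s, u.2 s ∈ Icc (1 / 2 : ℝ) (3 / 2) := fun s => by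
    have h1 := abs_le.mp (hb2 s)
    constructor <;> linarith [h1.1, h1.2]
  have hf1u : ∀ τ, D.f1 (u.1 τ) (u.2 τ) = u.1 τ / u.2 τ ^ (k + 5) := fun τ => by
    rw [hf1, fix_cl_eq (hmem1 τ), fix_cl_eq (hmem2 τ)]
  have hf2u : ∀ τ, D.f2 (u.1 τ) (u.2 τ) = 1 / u.2 τ := fun τ => by
    rw [hf2, fix_cl_eq (hmem2 τ)]
  have hX : ∀ t, D.X u t = ((k:ℝ) + 2) *
      ∫ σ in (0:ℝ)..1, σ ^ (k + 1) * (u.1 (σ ^ 2 * t) / u.2 (σ ^ 2 * t) ^ (k + 5)) := by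
    intro t
    unfold FixGData.X fixAvgG
    rw [hcX, hj]
    simp only [hf1u]
  have hZ : ∀ t, D.Z u t = -((k:ℝ) + 4) *
      ∫ σ in (0:ℝ)..1, σ ^ (k + 1) * (1 / u.2 (σ ^ 2 * t)) := by
    intro t
    unfold FixGData.Z fixAvgG
    rw [hcZ, hj]
    simp only [hf2u]
  have hXb : ∀ t, |D.X u t - 1| ≤ 1 / 2 := by
    intro t
    have h1 : ∀ τ, |D.f1 (u.1 τ) (u.2 τ) - 1| ≤
        D.Lf * (D.M * (1 / (2 * Q)) + D.M * (1 / (2 * Q))) := by
      intro τ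
      have e : D.f1 1 1 = 1 := by
        rw [hf1, fix_cl_eq ⟨by norm_num, by norm_num⟩]
        simp
      have h2 := D.f1l (u.1 τ) (u.2 τ) 1 1
      rw [e] at h2
      exact h2.trans (mul_le_mul_of_nonneg_left (add_le_add (hd1 τ) (hd2 τ)) hLf)
    have h3 := fixg_avg_sub_le D.j (D.f1_comp_continuous u)
      (continuous_const : Continuous fun _ : ℝ => (1 : ℝ)) h1 t
    rw [fixg_avg_const] at h3
    have hc1 : D.cX * (1 / ((D.j : ℝ) + 1)) = 1 := by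
      rw [hcX, hj]
      push_cast
      have e3 : (k : ℝ) + 1 + 1 = (k : ℝ) + 2 := by ring
      rw [e3]
      field_simp
    have e2 : D.X u t - 1 =
        D.cX * (fixAvgG D.j (fun τ => D.f1 (u.1 τ) (u.2 τ)) t - 1 / ((D.j : ℝ) + 1)) := by
      unfold FixGData.X
      rw [mul_sub, hc1]
    rw [e2, abs_mul, habsX]
    have h4 : ((k : ℝ) + 2) * |fixAvgG D.j (fun τ => D.f1 (u.1 τ) (u.2 τ)) t -
        1 / ((D.j : ℝ) + 1)| ≤
        ((k : ℝ) + 2) * (D.Lf * (D.M * (1 / (2 * Q)) + D.M * (1 / (2 * Q)))) :=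
      mul_le_mul_of_nonneg_left h3 hk2.le
    linarith
  have hZb : ∀ t, |D.Z u t| ≤ 2 * ((k : ℝ) + 4) := by
    intro t
    have h1 : ∀ τ, |D.f2 (u.1 τ) (u.2 τ) - 0| ≤ 2 := by
      intro τ
      have h5 := (hmem2 τ).1
      have h6 : 0 < u.2 τ := by linarith
      rw [sub_zero, hf2u, abs_of_pos (by positivity), div_le_iff₀ h6]
      linarith
    have h3 := fixg_avg_sub_le D.j (D.f2_comp_continuous u)
      (continuous_const : Continuous fun _ : ℝ => (0 : ℝ)) h1 t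
    rw [fixg_avg_const, zero_div, sub_zero] at h3
    unfold FixGData.Z
    rw [abs_mul, habsZ]
    have h4 : ((k : ℝ) + 4) * |fixAvgG D.j (fun τ => D.f2 (u.1 τ) (u.2 τ)) t| ≤
        ((k : ℝ) + 4) * 2 := mul_le_mul_of_nonneg_left h3 hk4.le
    linarith
  have hXmem : ∀ t, D.X u t ∈ Icc (1 / 2 : ℝ) (3 / 2) := fun t => by
    have h1 := abs_le.mp (hXb t)
    constructor <;> linarith [h1.1, h1.2]
  have hZmem : ∀ t, D.Z u t ∈ Icc (-(2 * ((k : ℝ) + 4))) (2 * ((k : ℝ) + 4)) := fun t =>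
    abs_le.mp (hZb t)
  have hI1 : ∀ t, D.I1 u t = (D.X u t) ^ (1 / ((k : ℝ) + 2)) := fun t => by
    unfold FixGData.I1
    rw [hG1, fix_cl_eq (hXmem t)]
  have hI2 : ∀ t, D.I2 u t = D.Z u t / (((k : ℝ) + 4) * u.2 t ^ (k + 3) *
      (D.X u t) ^ (((k : ℝ) + 1) / ((k : ℝ) + 2))) :=
    fun t => by
      unfold FixGData.I2
      rw [hG2, fix_cl_eq (hXmem t), fix_cl_eq (hZmem t), fix_cl_eq (hmem2 t)]
  refine ⟨1 / (2 * Q), hd, ⇑u.1, ⇑u.2, u.1.continuous.continuousOn, u.2.continuous.continuousOn,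
    fun s _ => ?_, fun s _ => ?_, fun s hs => ?_, fun s hs => ?_⟩
  · have h1 := (hmem1 s).1
    linarith
  · have h1 := (hmem2 s).1
    linarith
  · rw [hu1 s, fix_cl_eq hs]
    simp only [hI1, hX]
  · rw [hu2 s, fix_cl_eq hs]
    simp only [hI2, hX, hZ]

end Vale.Agent.H68.Prof
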