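import Mathlib
import Vale.Agent.H68.P252.DefsG
import Vale.Agent.H68.P252.Boot
import Vale.Agent.H68.P252.Fix
import Vale.Agent.H68.P252.FixG

/-!
# P252, part B1: local profile at the axis (assembly)

`local_profileG k` is PART B1 for every `k` (`m = k + 2`): the fixed point of `FixG.lean` fed into
the bootstrap of `Boot.lean`. `local_profile` is the concrete case `m = 10` (`k = 8`), from the
fixed point of `Fix.lean`.
-/

namespace Vale.Agent.H68.Prof

open Set

/-- PART B1 (local existence at the axis, two-sided), every `k`: the statement of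
`local_profileG_stub` in `StubsG.lean`. -/
theorem local_profileG (k : ℕ) :
    ∃ δ : ℝ, 0 < δ ∧ ∃ Ψ V : ℝ → ℝ, IsProfileG k Ψ V (Set.Ioo (-δ) δ) :=
  local_profileG_of_fixed_point k (fix_existsG k)

/-- PART B1 for `k = 8` in the generic form. -/
theorem local_profileG_eight :
    ∃ δ : ℝ, 0 < δ ∧ ∃ Ψ V : ℝ → ℝ, IsProfileG 8 Ψ V (Set.Ioo (-δ) δ) := by
  apply local_profileG_of_fixed_point 8
  obtain ⟨d, hd, Ψ, V, hΨc, hVc, hΨb, hVb, -, hΨ, hV⟩ := fix_exists
  refine ⟨d, hd, Ψ, V, hΨc.continuousOn, hVc.continuousOn, ?_, ?_, ?_, ?_⟩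
  · intro s _
    have := abs_le.1 (hΨb s)
    linarith
  · intro s _
    have := abs_le.1 (hVb s)
    linarith
  · intro s hs
    have h := hΨ s hs
    norm_num at h ⊢
    exact h
  · intro s hs
    have h := hV s hs
    norm_num at h ⊢
    exact h

/-- PART B1 (local existence at the axis, two-sided), concrete form of `Stubs.lean`. -/
theorem local_profile :
    ∃ δ : ℝ, 0 < δ ∧ ∃ Ψ V : ℝ → ℝ, IsProfile Ψ V (Set.Ioo (-δ) δ) := by
  obtain ⟨δ, hδ, Ψ, V, h⟩ := local_profileG_eight
  exact ⟨δ, hδ, Ψ, V, (isProfileG_eight_iff Ψ V _).1 h⟩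

end Vale.Agent.H68.Prof
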