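import Mathlib
import Vale.Agent.H68.AMDefs
import Vale.Agent.H68.P252.DefsG
import Vale.Agent.H68.P252.LocalG
import Vale.Agent.H68.P252.GlobalG
import Vale.Agent.H68.P252.AssembleG

/-! P252: counterexamples to the affine Bernstein problem (half-space form) in every dimension
`n ≥ 10`: local profile (`LocalG.lean`) + global continuation (`GlobalG.lean`) + the hypersurface
(`AssembleG.lean`). -/

namespace Vale.Agent.H68.Prof

/-- Counterexamples in every dimension `n ≥ 10`. -/
theorem counterexample_all (n : ℕ) (hn : 10 ≤ n) : CounterexampleAt n := by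
  obtain ⟨k, rfl⟩ : ∃ k, n = k + 3 := ⟨n - 3, by omega⟩
  obtain ⟨δ, hδ, Ψ, V, h⟩ := local_profileG k
  obtain ⟨Ψg, Vg, hg⟩ := extend_profileG7 k (by omega) hδ h
  exact counterexample_of_profileG k hδ hg

/-- Counterexamples in every dimension `n ≥ 11` (strict invariant box only). -/
theorem counterexample_ge11 (n : ℕ) (hn : 11 ≤ n) : CounterexampleAt n := by
  obtain ⟨k, rfl⟩ : ∃ k, n = k + 3 := ⟨n - 3, by omega⟩
  obtain ⟨δ, hδ, Ψ, V, h⟩ := local_profileG k
  obtain ⟨Ψg, Vg, hg⟩ := extend_profileG k (by omega) hδ h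
  exact counterexample_of_profileG k hδ hg

end Vale.Agent.H68.Prof
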