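import Mathlib
import Vale.Agent.H68.P252.GlobalG

/-!
# P252, part B2: `extend_profileG_h41`

Originally (helper41) a direct derivation of the global continuation from `extend_profileG_aux`,
`abr_of_profile` and `recon_profile`.  After `extend_profileG_aux` was generalised to arbitrary
admissible boxes (`BoxParams`), that derivation lives in `GlobalG.lean` (`extend_profileG_box`);
this file keeps the old name as a restatement.  It is imported by no hand-in.
-/

namespace Vale.Agent.H68.Prof

/-- PART B2 (global continuation by the invariant box), `k ≥ 8` i.e. `m ≥ 10`. -/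
theorem extend_profileG_h41 (k : ℕ) (hk : 8 ≤ k) {δ : ℝ} (hδ : 0 < δ) {Ψ V : ℝ → ℝ}
    (h : IsProfileG k Ψ V (Set.Ioo (-δ) δ)) :
    ∃ Ψg Vg : ℝ → ℝ, IsProfileG k Ψg Vg (Set.Ioi (-δ)) :=
  extend_profileG k hk hδ h

end Vale.Agent.H68.Prof
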