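import Mathlib
import Vale.Agent.H68.P252.DefsG
import Vale.Agent.H68.P252.Start
import Vale.Agent.H68.P252.AbrGlobal
import Vale.Agent.H68.P252.AbrGlue
import Vale.Agent.H68.P252.AbrWeak
import Vale.Agent.H68.P252.GlobalAux
import Vale.Agent.H68.P252.B2Defs
import Vale.Agent.H68.P252.B2Loc
import Vale.Agent.H68.P252.Recon

/-!
# P252, part B2: global continuation of a local profile for every box with weak face inequalities

`extend_profileG_box` is the global continuation `IsProfileG k Ψ V (Ioo (-δ) δ) → ∃ Ψg Vg,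
IsProfileG k Ψg Vg (Ioi (-δ))` for every `k` for which some box `(0, A) × (0, B) × (0, R)`
containing the starting box satisfies `BoxParams (k + 2) A B R`. Instances: `k = 7` (`m = 9`,
box `(0, 9/2) × (0, 7/2) × (0, 33/7)`, all three face conditions are equalities) and `k ≥ 8`
(box `(0, 69/20) × (0, 12/5) × (0, 4)`).
-/

namespace Vale.Agent.H68.Prof

open Set Filter Topology

/-- The assembly of part B2 (copy of `extend_profileG_aux` of `GlobalAux.lean`), for an arbitrary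
box with weak face inequalities that contains the starting box. -/
theorem extend_profileG_aux_box (k : ℕ) {A B R : ℝ} (hp : BoxParams ((k : ℝ) + 2) A B R)
    (hA : 69 / 20 ≤ A) (hB : 12 / 5 ≤ B) (hR : 4 ≤ R) {δ : ℝ} (hδ : 0 < δ) {Ψ V : ℝ → ℝ}
    (h : IsProfileG k Ψ V (Set.Ioo (-δ) δ))
    (hloc : ∀ s, s ∈ Set.Ioo (-δ) δ → 0 < s →
      HasDerivAt (locA Ψ) (gA (locA Ψ s) (locB k Ψ V s) / (2 * s)) s ∧
      HasDerivAt (locB k Ψ V)
        (gB ((k : ℝ) + 2) (locA Ψ s) (locB k Ψ V s) (locR k Ψ V s) / (2 * s)) s ∧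
      HasDerivAt (locR k Ψ V)
        (gR ((k : ℝ) + 2) (locA Ψ s) (locB k Ψ V s) (locR k Ψ V s) / (2 * s)) s)
    (hrec : ∀ (s0 Ψ0 V0 : ℝ), 0 < s0 → 0 < Ψ0 → 0 < V0 → ∀ (a b r : ℝ → ℝ),
      ContDiffOn ℝ ((⊤ : ℕ∞) : WithTop ℕ∞) a (Set.Ioi 0) →
      ContDiffOn ℝ ((⊤ : ℕ∞) : WithTop ℕ∞) b (Set.Ioi 0) →
      ContDiffOn ℝ ((⊤ : ℕ∞) : WithTop ℕ∞) r (Set.Ioi 0) →
      (∀ s, 0 < s → HasDerivAt a (gA (a s) (b s) / (2 * s)) s ∧
        HasDerivAt b (gB ((k : ℝ) + 2) (a s) (b s) (r s) / (2 * s)) s ∧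
        HasDerivAt r (gR ((k : ℝ) + 2) (a s) (b s) (r s) / (2 * s)) s) →
      (∀ s, 0 < s → 0 < a s) → (∀ s, 0 < s → 0 < b s) →
      b s0 * V0 ^ (k + 5) * (a s0 * Ψ0 / (2 * s0)) ^ (k + 2) = Ψ0 →
      ∃ Ψr Vr : ℝ → ℝ, Ψr s0 = Ψ0 ∧ Vr s0 = V0 ∧ IsProfileG k Ψr Vr (Set.Ioi 0) ∧
        (∀ s, 0 < s → HasDerivAt Ψr (Ψr s * a s / (2 * s)) s) ∧
        (∀ s, 0 < s → HasDerivAt Vr (-(Vr s * r s * b s) / (2 * ((k : ℝ) + 4) * s)) s)) :
    ∃ Ψg Vg : ℝ → ℝ, IsProfileG k Ψg Vg (Set.Ioi (-δ)) := by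
  have hk0 : (0 : ℝ) ≤ (k : ℝ) := Nat.cast_nonneg k
  -- base point in the box
  obtain ⟨s0, hs0, hs0δ, hbox⟩ := start_box k hδ h
  have hmemI : ∀ s, 0 < s → s ≤ s0 → s ∈ Set.Ioo (-δ) δ := fun s h1 h2 =>
    ⟨by linarith, lt_of_le_of_lt h2 hs0δ⟩
  obtain ⟨hA0, hB0, hR0⟩ := hbox s0 hs0 le_rfl
  -- global solution of the (a, b, ρ) system
  obtain ⟨a, b, r, hle, hge, hsys, sa, sb, sr⟩ :=
    abr_extend_weak (m := (k : ℝ) + 2) hp hs0 (al := locA Ψ) (bl := locB k Ψ V)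
      (rl := locR k Ψ V) (fun s h1 h2 => hloc s (hmemI s h1 h2) h1)
      ⟨hA0.1, lt_of_lt_of_le hA0.2 hA⟩ ⟨hB0.1, lt_of_lt_of_le hB0.2 hB⟩
      ⟨hR0.1, lt_of_lt_of_le hR0.2 hR⟩
  have hapos : ∀ s, 0 < s → 0 < a s := by
    intro s hs
    rcases le_total s s0 with h1 | h1
    · rw [(hle s h1).1]
      exact locA_pos h (hmemI s hs h1) hs
    · exact (hge s h1).1
  have hbpos : ∀ s, 0 < s → 0 < b s := by
    intro s hs
    rcases le_total s s0 with h1 | h1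
    · rw [(hle s h1).2.1]
      exact locB_pos h (hmemI s hs h1)
    · exact (hge s h1).2.2.1
  -- facts about the local profile on (0, s0]
  have hΨpos : ∀ s, 0 < s → s ≤ s0 → 0 < Ψ s := fun s h1 h2 => h.posΨ s (hmemI s h1 h2)
  have hVpos : ∀ s, 0 < s → s ≤ s0 → 0 < V s := fun s h1 h2 => h.posV s (hmemI s h1 h2)
  have hDpos : ∀ s, 0 < s → s ≤ s0 → 0 < deriv Ψ s := fun s h1 h2 => h.posD s (hmemI s h1 h2)
  have hΨd : ∀ s, 0 < s → s ≤ s0 → HasDerivAt Ψ (deriv Ψ s) s := fun s h1 h2 =>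
    ((h.smoothΨ.contDiffAt (isOpen_Ioo.mem_nhds (hmemI s h1 h2))).differentiableAt
      (by simp)).hasDerivAt
  have hVd : ∀ s, 0 < s → s ≤ s0 → HasDerivAt V (deriv V s) s := fun s h1 h2 =>
    ((h.smoothV.contDiffAt (isOpen_Ioo.mem_nhds (hmemI s h1 h2))).differentiableAt
      (by simp)).hasDerivAt
  -- reconstruction
  have hinit : b s0 * V s0 ^ (k + 5) * (a s0 * Ψ s0 / (2 * s0)) ^ (k + 2) = Ψ s0 := by
    rw [(hle s0 le_rfl).1, (hle s0 le_rfl).2.1]
    have h1 := hΨpos s0 hs0 le_rfl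
    have h2 := hVpos s0 hs0 le_rfl
    have h3 := hDpos s0 hs0 le_rfl
    have e : locA Ψ s0 * Ψ s0 / (2 * s0) = deriv Ψ s0 := by
      unfold locA
      field_simp
    rw [e]
    unfold locB
    field_simp
  obtain ⟨Ψr, Vr, hΨr0, hVr0, hprof, hΨrd, hVrd⟩ :=
    hrec s0 (Ψ s0) (V s0) hs0 (hΨpos s0 hs0 le_rfl) (hVpos s0 hs0 le_rfl) a b r sa sb sr hsys
      hapos hbpos hinit
  -- agreement on (0, s0]
  have hΨeq : ∀ x, 0 < x → x ≤ s0 → Ψ x = Ψr x := by
    intro x hx0 hx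
    refine eq_of_linear_ode (c := fun s => a s / (2 * s)) hx ?_ ?_ ?_ hΨr0.symm
    · intro s hs
      have hs_pos : 0 < s := lt_of_lt_of_le hx0 hs.1
      refine (hΨd s hs_pos hs.2).congr_deriv ?_
      rw [(hle s hs.2).1]
      have h1 := hΨpos s hs_pos hs.2
      unfold locA
      field_simp
    · intro s hs
      have hs_pos : 0 < s := lt_of_lt_of_le hx0 hs.1
      refine (hΨrd s hs_pos).congr_deriv ?_
      ring
    · intro s hs
      have hs_pos : 0 < s := lt_of_lt_of_le hx0 hs.1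
      exact (hprof.posΨ s hs_pos).ne'
  have hVeq : ∀ x, 0 < x → x ≤ s0 → V x = Vr x := by
    intro x hx0 hx
    refine eq_of_linear_ode (c := fun s => -(r s * b s) / (2 * ((k : ℝ) + 4) * s)) hx ?_ ?_ ?_
      hVr0.symm
    · intro s hs
      have hs_pos : 0 < s := lt_of_lt_of_le hx0 hs.1
      refine (hVd s hs_pos hs.2).congr_deriv ?_
      rw [(hle s hs.2).2.2, (hle s hs.2).2.1]
      have h2 := hVpos s hs_pos hs.2
      have h4 := locB_pos h (hmemI s hs_pos hs.2)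
      unfold locR
      field_simp
    · intro s hs
      have hs_pos : 0 < s := lt_of_lt_of_le hx0 hs.1
      refine (hVrd s hs_pos).congr_deriv ?_
      ring
    · intro s hs
      have hs_pos : 0 < s := lt_of_lt_of_le hx0 hs.1
      exact (hprof.posV s hs_pos).ne'
  -- the glued profile
  refine ⟨fun s => if s ≤ s0 then Ψ s else Ψr s, fun s => if s ≤ s0 then V s else Vr s, ?_⟩
  have hL : IsProfileG k (fun s => if s ≤ s0 then Ψ s else Ψr s)
      (fun s => if s ≤ s0 then V s else Vr s) (Set.Ioo (-δ) s0) := by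
    refine IsProfileG.congr_of_eqOn isOpen_Ioo
      (h.mono (fun s hs => ⟨hs.1, lt_trans hs.2 hs0δ⟩)) ?_ ?_
    · intro s hs
      show (if s ≤ s0 then Ψ s else Ψr s) = Ψ s
      rw [if_pos hs.2.le]
    · intro s hs
      show (if s ≤ s0 then V s else Vr s) = V s
      rw [if_pos hs.2.le]
  have hR : IsProfileG k (fun s => if s ≤ s0 then Ψ s else Ψr s)
      (fun s => if s ≤ s0 then V s else Vr s) (Set.Ioi 0) := by
    refine IsProfileG.congr_of_eqOn isOpen_Ioi hprof ?_ ?_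
    · intro s hs
      show (if s ≤ s0 then Ψ s else Ψr s) = Ψr s
      by_cases h1 : s ≤ s0
      · rw [if_pos h1]
        exact hΨeq s hs h1
      · rw [if_neg h1]
    · intro s hs
      show (if s ≤ s0 then V s else Vr s) = Vr s
      by_cases h1 : s ≤ s0
      · rw [if_pos h1]
        exact hVeq s hs h1
      · rw [if_neg h1]
  have hU := IsProfileG.union isOpen_Ioo isOpen_Ioi hL hR
  refine hU.mono ?_
  intro s hs
  rcases lt_or_ge s s0 with h1 | h1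
  · exact Or.inl ⟨hs, h1⟩
  · exact Or.inr (lt_of_lt_of_le hs0 h1)


/-- **Global continuation for a general box.** -/
theorem extend_profileG_box (k : ℕ) {A B R : ℝ} (hp : BoxParams ((k : ℝ) + 2) A B R)
    (hA : 69 / 20 ≤ A) (hB : 12 / 5 ≤ B) (hR : 4 ≤ R) {δ : ℝ} (hδ : 0 < δ) {Ψ V : ℝ → ℝ}
    (h : IsProfileG k Ψ V (Set.Ioo (-δ) δ)) :
    ∃ Ψg Vg : ℝ → ℝ, IsProfileG k Ψg Vg (Set.Ioi (-δ)) := by
  refine extend_profileG_aux_box k hp hA hB hR hδ h ?_ ?_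
  · intro s hs hs0
    exact abr_of_profile k isOpen_Ioo h hs hs0
  · intro s0 Ψ0 V0 hs0 hΨ0 hV0 a b r sa sb sr hsys hapos _ hinit
    have e5 : (k : ℝ) + 2 + 3 = (k : ℝ) + 5 := by ring
    have e4 : (k : ℝ) + 2 + 2 = (k : ℝ) + 4 := by ring
    have e1 : (k : ℝ) + 2 - 1 = (k : ℝ) + 1 := by ring
    obtain ⟨Ψr, Vr, h1, h2, h3, -, -, h6, h7⟩ :=
      recon_profile k hs0 hΨ0 hV0 sa sb sr
        (fun s hs => by
          have := (hsys s hs).1
          unfold gA at this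
          exact this)
        (fun s hs => by
          have := (hsys s hs).2.1
          unfold gB at this
          rw [e5, e4] at this
          exact this)
        (fun s hs => by
          have := (hsys s hs).2.2
          unfold gR at this
          rw [e4, e1] at this
          exact this)
        hapos hinit
    exact ⟨Ψr, Vr, h1, h2, h3, h6, h7⟩

/-- **The case `k = 7`, i.e. `m = 9`, dimension `n = 10`.** -/
theorem extend_profileG_seven {δ : ℝ} (hδ : 0 < δ) {Ψ V : ℝ → ℝ}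
    (h : IsProfileG 7 Ψ V (Set.Ioo (-δ) δ)) :
    ∃ Ψg Vg : ℝ → ℝ, IsProfileG 7 Ψg Vg (Set.Ioi (-δ)) := by
  have hp : BoxParams (((7 : ℕ) : ℝ) + 2) (9 / 2) (7 / 2) (33 / 7) := by
    have e : ((7 : ℕ) : ℝ) + 2 = 9 := by norm_num
    rw [e]
    exact boxParams_nine
  exact extend_profileG_box 7 hp (by norm_num) (by norm_num) (by norm_num) hδ h

/-- **Global continuation for every `k ≥ 7`** (dimensions `n = k + 3 ≥ 10`). -/
theorem extend_profileG_ge_seven (k : ℕ) (hk : 7 ≤ k) {δ : ℝ} (hδ : 0 < δ) {Ψ V : ℝ → ℝ}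
    (h : IsProfileG k Ψ V (Set.Ioo (-δ) δ)) :
    ∃ Ψg Vg : ℝ → ℝ, IsProfileG k Ψg Vg (Set.Ioi (-δ)) := by
  rcases Nat.eq_or_lt_of_le hk with h7 | h8
  · subst h7
    exact extend_profileG_seven hδ h
  · have hkR : (10 : ℝ) ≤ (k : ℝ) + 2 := by
      have : (8 : ℝ) ≤ (k : ℝ) := by exact_mod_cast h8
      linarith
    exact extend_profileG_box k (boxParams_ten hkR) le_rfl le_rfl le_rfl hδ h

end Vale.Agent.H68.Prof
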