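import Mathlib
import Vale.Agent.H68.P252.DefsG
import Vale.Agent.H68.P252.Start
import Vale.Agent.H68.P252.AbrGlobal

/-!
# P252, part B2-a: the scale-invariant variables of a profile solve the reduced system

For a profile `(Ψ, V)` on an open set `I` and `s ∈ I`, `s > 0`, the functions
`a = 2 s Ψ'/Ψ`, `b = Ψ/(V^(m+3) Ψ'^m)`, `ρ = -2 (m+2) s V'/(V b)` (`m = k + 2`) satisfy
`2 s a' = gA a b`, `2 s b' = gB m a b ρ`, `2 s ρ' = gR m a b ρ`.
-/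

namespace Vale.Agent.H68.Prof

open Set Filter Topology

/-- First and second derivatives of a profile at a point of an open set. -/
theorem prof_hasDerivAt {k : ℕ} {I : Set ℝ} (hI : IsOpen I) {Ψ V : ℝ → ℝ}
    (h : IsProfileG k Ψ V I) {s : ℝ} (hs : s ∈ I) :
    HasDerivAt Ψ (deriv Ψ s) s ∧ HasDerivAt (deriv Ψ) (deriv (deriv Ψ) s) s ∧
    HasDerivAt V (deriv V s) s ∧ HasDerivAt (deriv V) (deriv (deriv V) s) s := by
  have hn : I ∈ 𝓝 s := hI.mem_nhds hs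
  have h1 : DifferentiableAt ℝ Ψ s :=
    (h.smoothΨ.differentiableOn (by simp)).differentiableAt hn
  have h2 : DifferentiableAt ℝ V s :=
    (h.smoothV.differentiableOn (by simp)).differentiableAt hn
  have h3 : ContDiffOn ℝ ((⊤ : ℕ∞) : WithTop ℕ∞) (deriv Ψ) I :=
    h.smoothΨ.deriv_of_isOpen hI (by simp)
  have h4 : ContDiffOn ℝ ((⊤ : ℕ∞) : WithTop ℕ∞) (deriv V) I :=
    h.smoothV.deriv_of_isOpen hI (by simp)
  have h5 : DifferentiableAt ℝ (deriv Ψ) s :=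
    (h3.differentiableOn (by simp)).differentiableAt hn
  have h6 : DifferentiableAt ℝ (deriv V) s :=
    (h4.differentiableOn (by simp)).differentiableAt hn
  exact ⟨h1.hasDerivAt, h5.hasDerivAt, h2.hasDerivAt, h6.hasDerivAt⟩

/-- Pointwise algebra for `a`. -/
theorem locsys_algA (k : ℕ) (s P P2 V0 Ψ0 : ℝ) (hs : s ≠ 0) (hP : 0 < P) (hV0 : 0 < V0)
    (hΨ0 : 0 < Ψ0) (e1 : P ^ (k + 1) * (P + 2 * s * P2) * V0 ^ (k + 5) = Ψ0) :
    ((2 * P + 2 * s * P2) * Ψ0 - 2 * s * P * P) / Ψ0 ^ 2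
      = gA (2 * s * P / Ψ0) (Ψ0 / (V0 ^ (k + 5) * P ^ (k + 2))) / (2 * s) := by
  have hb : Ψ0 / (V0 ^ (k + 5) * P ^ (k + 2)) = (P + 2 * s * P2) / P := by
    rw [← e1]
    field_simp
    ring
  rw [hb]
  unfold gA
  field_simp
  ring

/-- Pointwise algebra for `b`. -/
theorem locsys_algB (k : ℕ) (s P P2 V0 V1 Ψ0 a b r : ℝ) (hs : s ≠ 0) (hP : 0 < P) (hV0 : 0 < V0)
    (hΨ0 : 0 < Ψ0) (e1 : P ^ (k + 1) * (P + 2 * s * P2) * V0 ^ (k + 5) = Ψ0)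
    (ha : a = 2 * s * P / Ψ0) (hb : b = Ψ0 / (V0 ^ (k + 5) * P ^ (k + 2)))
    (hr : r = -(2 * ((k : ℝ) + 4) * s * V1) / (V0 * b)) :
    (P * (V0 ^ (k + 5) * P ^ (k + 2))
        - Ψ0 * (((k : ℝ) + 5) * V0 ^ (k + 4) * V1 * P ^ (k + 2)
          + V0 ^ (k + 5) * (((k : ℝ) + 2) * P ^ (k + 1) * P2))) / (V0 ^ (k + 5) * P ^ (k + 2)) ^ 2
      = gB ((k : ℝ) + 2) a b r / (2 * s) := by
  have hR : 0 < P + 2 * s * P2 := by
    by_contra hcon
    have hcon := not_lt.1 hcon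
    have : P ^ (k + 1) * (P + 2 * s * P2) * V0 ^ (k + 5) ≤ 0 :=
      mul_nonpos_of_nonpos_of_nonneg (mul_nonpos_of_nonneg_of_nonpos (by positivity) hcon)
        (by positivity)
    linarith
  have hk : (0:ℝ) ≤ (k:ℝ) := Nat.cast_nonneg k
  have hk4 : ((k:ℝ) + 4) ≠ 0 := by positivity
  subst e1
  subst ha hb hr
  unfold gB
  field_simp
  ring

/-- Pointwise algebra for `ρ`. -/
theorem locsys_algR (k : ℕ) (s P P2 V0 V1 V2 Ψ0 a b r b' : ℝ) (hs : s ≠ 0) (hP : 0 < P)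
    (hV0 : 0 < V0) (hΨ0 : 0 < Ψ0)
    (e1 : P ^ (k + 1) * (P + 2 * s * P2) * V0 ^ (k + 5) = Ψ0)
    (e2 : 2 * s * P ^ k * V0 ^ (k + 3) *
        (((k : ℝ) + 1) * P2 * V0 * V1 + ((k : ℝ) + 3) * P * V1 ^ 2 + P * V0 * V2)
      + ((k : ℝ) + 2) * P ^ (k + 1) * V0 ^ (k + 4) * V1 + 1 = 0)
    (ha : a = 2 * s * P / Ψ0) (hb : b = Ψ0 / (V0 ^ (k + 5) * P ^ (k + 2)))
    (hr : r = -(2 * ((k : ℝ) + 4) * s * V1) / (V0 * b))
    (hb' : b' = gB ((k : ℝ) + 2) a b r / (2 * s)) :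
    (-(2 * ((k : ℝ) + 4) * (V1 + s * V2)) * (V0 * b)
        - -(2 * ((k : ℝ) + 4) * s * V1) * (V1 * b + V0 * b')) / (V0 * b) ^ 2
      = gR ((k : ℝ) + 2) a b r / (2 * s) := by
  have hR : 0 < P + 2 * s * P2 := by
    by_contra hcon
    have hcon := not_lt.1 hcon
    have : P ^ (k + 1) * (P + 2 * s * P2) * V0 ^ (k + 5) ≤ 0 :=
      mul_nonpos_of_nonpos_of_nonneg (mul_nonpos_of_nonneg_of_nonpos (by positivity) hcon)
        (by positivity)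
    linarith
  have hk : (0:ℝ) ≤ (k:ℝ) := Nat.cast_nonneg k
  have hk4 : ((k:ℝ) + 4) ≠ 0 := by positivity
  have hV2 : V2 = (-1 - ((k : ℝ) + 2) * P ^ (k + 1) * V0 ^ (k + 4) * V1
      - 2 * s * P ^ k * V0 ^ (k + 3) * (((k : ℝ) + 1) * P2 * V0 * V1 + ((k : ℝ) + 3) * P * V1 ^ 2))
      / (2 * s * P ^ (k + 1) * V0 ^ (k + 4)) := by
    field_simp
    linear_combination e2
  subst e1
  subst ha hb hr hb' hV2
  unfold gR gB
  field_simp
  ring

/-- PART B2-a: the local triple `(a, b, ρ)` of a profile solves the reduced system at every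
`s > 0` of the (open) domain. -/
theorem loc_system (k : ℕ) {I : Set ℝ} (hI : IsOpen I) {Ψ V : ℝ → ℝ} (h : IsProfileG k Ψ V I)
    {s : ℝ} (hs : s ∈ I) (hs0 : 0 < s) :
    HasDerivAt (locA Ψ) (gA (locA Ψ s) (locB k Ψ V s) / (2 * s)) s ∧
    HasDerivAt (locB k Ψ V)
      (gB ((k : ℝ) + 2) (locA Ψ s) (locB k Ψ V s) (locR k Ψ V s) / (2 * s)) s ∧
    HasDerivAt (locR k Ψ V)
      (gR ((k : ℝ) + 2) (locA Ψ s) (locB k Ψ V s) (locR k Ψ V s) / (2 * s)) s := by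
  obtain ⟨dΨ, dP, dV, dV1⟩ := prof_hasDerivAt hI h hs
  have hΨ0 := h.posΨ s hs
  have hP := h.posD s hs
  have hV0 := h.posV s hs
  have e1 := h.eq1 s hs
  have e2 := h.eq2 s hs
  unfold Eq1G at e1
  unfold Eq2G at e2
  have hsne : s ≠ 0 := hs0.ne'
  have hbpos : 0 < locB k Ψ V s := locB_pos h hs
  -- the equation for `a`
  have hA : HasDerivAt (locA Ψ) (gA (locA Ψ s) (locB k Ψ V s) / (2 * s)) s := by
    have h1 : HasDerivAt (fun t : ℝ => 2 * t * deriv Ψ t)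
        (2 * 1 * deriv Ψ s + 2 * s * deriv (deriv Ψ) s) s :=
      ((hasDerivAt_id s).const_mul 2).mul dP
    have h2 : HasDerivAt (locA Ψ)
        (((2 * 1 * deriv Ψ s + 2 * s * deriv (deriv Ψ) s) * Ψ s
          - 2 * s * deriv Ψ s * deriv Ψ s) / Ψ s ^ 2) s := h1.div dΨ hΨ0.ne'
    refine h2.congr_deriv ?_
    have key := locsys_algA k s (deriv Ψ s) (deriv (deriv Ψ) s) (V s) (Ψ s) hsne hP hV0 hΨ0 e1
    rw [show locA Ψ s = 2 * s * deriv Ψ s / Ψ s from rfl,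
      show locB k Ψ V s = Ψ s / (V s ^ (k + 5) * deriv Ψ s ^ (k + 2)) from rfl, ← key]
    ring
  -- the equation for `b`
  have hB : HasDerivAt (locB k Ψ V)
      (gB ((k : ℝ) + 2) (locA Ψ s) (locB k Ψ V s) (locR k Ψ V s) / (2 * s)) s := by
    have hD : HasDerivAt (fun t : ℝ => V t ^ (k + 5) * deriv Ψ t ^ (k + 2))
        (((k + 5 : ℕ) : ℝ) * V s ^ (k + 4) * deriv V s * deriv Ψ s ^ (k + 2)
          + V s ^ (k + 5) * (((k + 2 : ℕ) : ℝ) * deriv Ψ s ^ (k + 1) * deriv (deriv Ψ) s)) s :=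
      (dV.pow (k + 5)).mul (dP.pow (k + 2))
    have hDne : V s ^ (k + 5) * deriv Ψ s ^ (k + 2) ≠ 0 := by positivity
    have h2 : HasDerivAt (locB k Ψ V)
        ((deriv Ψ s * (V s ^ (k + 5) * deriv Ψ s ^ (k + 2))
          - Ψ s * (((k + 5 : ℕ) : ℝ) * V s ^ (k + 4) * deriv V s * deriv Ψ s ^ (k + 2)
            + V s ^ (k + 5) * (((k + 2 : ℕ) : ℝ) * deriv Ψ s ^ (k + 1) * deriv (deriv Ψ) s)))
          / (V s ^ (k + 5) * deriv Ψ s ^ (k + 2)) ^ 2) s := dΨ.div hD hDne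
    refine h2.congr_deriv ?_
    have key := locsys_algB k s (deriv Ψ s) (deriv (deriv Ψ) s) (V s) (deriv V s) (Ψ s)
      (locA Ψ s) (locB k Ψ V s) (locR k Ψ V s) hsne hP hV0 hΨ0 e1 rfl rfl rfl
    rw [← key]
    push_cast
    ring
  -- the equation for `ρ`
  have hR : HasDerivAt (locR k Ψ V)
      (gR ((k : ℝ) + 2) (locA Ψ s) (locB k Ψ V s) (locR k Ψ V s) / (2 * s)) s := by
    have hN : HasDerivAt (fun t : ℝ => -(2 * ((k : ℝ) + 4) * t * deriv V t))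
        (-(2 * ((k : ℝ) + 4) * 1 * deriv V s + 2 * ((k : ℝ) + 4) * s * deriv (deriv V) s)) s :=
      (((hasDerivAt_id s).const_mul (2 * ((k : ℝ) + 4))).mul dV1).neg
    have hE : HasDerivAt (fun t : ℝ => V t * locB k Ψ V t)
        (deriv V s * locB k Ψ V s + V s *
          (gB ((k : ℝ) + 2) (locA Ψ s) (locB k Ψ V s) (locR k Ψ V s) / (2 * s))) s :=
      dV.mul hB
    have hEne : V s * locB k Ψ V s ≠ 0 := by positivity
    have h2 : HasDerivAt (locR k Ψ V)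
        ((-(2 * ((k : ℝ) + 4) * 1 * deriv V s + 2 * ((k : ℝ) + 4) * s * deriv (deriv V) s)
            * (V s * locB k Ψ V s)
          - -(2 * ((k : ℝ) + 4) * s * deriv V s) * (deriv V s * locB k Ψ V s + V s *
            (gB ((k : ℝ) + 2) (locA Ψ s) (locB k Ψ V s) (locR k Ψ V s) / (2 * s))))
          / (V s * locB k Ψ V s) ^ 2) s := hN.div hE hEne
    refine h2.congr_deriv ?_
    have key := locsys_algR k s (deriv Ψ s) (deriv (deriv Ψ) s) (V s) (deriv V s)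
      (deriv (deriv V) s) (Ψ s) (locA Ψ s) (locB k Ψ V s) (locR k Ψ V s)
      (gB ((k : ℝ) + 2) (locA Ψ s) (locB k Ψ V s) (locR k Ψ V s) / (2 * s))
      hsne hP hV0 hΨ0 e1 e2 rfl rfl rfl rfl
    rw [← key]
    ring
  exact ⟨hA, hB, hR⟩

end Vale.Agent.H68.Prof
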