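import Vale.Agent.H68.P252.B2Defs
import Vale.Agent.H68.P252.Recon

/-!
# P252, part B2, row B2-RECON, from `Recon.lean`

`profile_of_abr_alt` is the statement `profile_of_abr` of `B2Recon.lean`, word for word, proved
from `recon_profile` (`Recon.lean`): the reduced field `fA`, `fB`, `fR` of `B2Defs.lean` with
`m = k + 2` is the field written out in `recon_profile`.
-/

namespace Vale.Agent.H68.Prof

theorem profile_of_abr_alt (k : ℕ) {a b r : ℝ → ℝ}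
    (habr : ∀ s, 0 < s → AbrAt ((k : ℝ) + 2) a b r s)
    (ha : ContDiffOn ℝ ((⊤ : ℕ∞) : WithTop ℕ∞) a (Set.Ioi 0))
    (hb : ContDiffOn ℝ ((⊤ : ℕ∞) : WithTop ℕ∞) b (Set.Ioi 0))
    (hr : ContDiffOn ℝ ((⊤ : ℕ∞) : WithTop ℕ∞) r (Set.Ioi 0))
    (hapos : ∀ s, 0 < s → 0 < a s) (hbpos : ∀ s, 0 < s → 0 < b s)
    {s0 Ψ0 V0 : ℝ} (hs0 : 0 < s0) (hΨ0 : 0 < Ψ0) (hV0 : 0 < V0)
    (hcomp : b s0 * (V0 ^ (k + 5) * (a s0 / (2 * s0) * Ψ0) ^ (k + 2)) = Ψ0) :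
    ∃ Ψr Vr : ℝ → ℝ, IsProfileG k Ψr Vr (Set.Ioi 0) ∧ Ψr s0 = Ψ0 ∧ Vr s0 = V0 ∧
      (∀ s, 0 < s → HasDerivAt Ψr (a s / (2 * s) * Ψr s) s) ∧
      (∀ s, 0 < s →
        HasDerivAt Vr (-(r s * b s) / (2 * ((k : ℝ) + 4) * s) * Vr s) s) := by
  have _hb := hbpos
  have hM : (k : ℝ) + 4 ≠ 0 := by positivity
  have ha' : ∀ s, 0 < s → HasDerivAt a (a s * (1 + b s - a s) / (2 * s)) s := by
    intro s hs
    exact (habr s hs).1
  have hb' : ∀ s, 0 < s → HasDerivAt b (b s * ((k : ℝ) + 2 + a s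
      - b s * ((k : ℝ) + 2 - ((k : ℝ) + 5) * r s / ((k : ℝ) + 4))) / (2 * s)) s := by
    intro s hs
    refine (habr s hs).2.1.congr_deriv ?_
    unfold fB
    ring
  have hr' : ∀ s, 0 < s → HasDerivAt r ((((k : ℝ) + 4 - r s)
      * (a s + b s * r s / ((k : ℝ) + 4)) - ((k : ℝ) + 1) * r s) / (2 * s)) s := by
    intro s hs
    refine (habr s hs).2.2.congr_deriv ?_
    unfold fR
    ring
  have hinit : b s0 * V0 ^ (k + 5) * (a s0 * Ψ0 / (2 * s0)) ^ (k + 2) = Ψ0 := by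
    have e : a s0 * Ψ0 / (2 * s0) = a s0 / (2 * s0) * Ψ0 := by ring
    rw [e, mul_assoc]
    exact hcomp
  obtain ⟨Ψr, Vr, h1, h2, hP, -, -, hΨd, hVd⟩ :=
    recon_profile k hs0 hΨ0 hV0 ha hb hr ha' hb' hr' hapos hinit
  refine ⟨Ψr, Vr, hP, h1, h2, ?_, ?_⟩
  · intro s hs
    refine (hΨd s hs).congr_deriv ?_
    ring
  · intro s hs
    refine (hVd s hs).congr_deriv ?_
    ring

end Vale.Agent.H68.Prof
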